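import Vale.Agent.P315.H763.Solver
import Vale.Agent.P315.H782.GreedyMD
import Vale.Agent.P315.H330.Block

/-! P315 (helper763): the list solver produces a greedy run in the sense of `H782.Greedy`, and a
greedy run is a solution in the sense of `H330.Solved`. -/

set_option autoImplicit false

namespace Vale.Agent.P315.H763

open Finset

/-! ### `Greedy → Solved` -/

section solved

variable {ι E : Type*} [Fintype ι] [Fintype E] [DecidableEq E]

/-- Smoothed law of a greedy run. -/
noncomputable def qs (p : ℕ → ι → E) (T : ℕ) (i : ι) (e : E) : ℝ :=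
  ((H782.cnt p T i e : ℝ) + 1) / ((T : ℝ) + Fintype.card E)

theorem solved_of_greedy {H : ℕ → ℝ} {T : ℕ} {g ζ : ℝ} (hH : H782.HF H T g ζ) {L : ι → E → ℝ}
    {PP : Set (ι → E)} {p : ℕ → ι → E} (hp : H782.Greedy H L PP T p) (hT : 0 < T)
    {s : ℕ} (hs : 0 < s) (hsT : s ≤ T) (hm : 0 < Fintype.card E) :
    H330.Solved PP L (H782.xx p T) (qs p T)
      (Fintype.card ι * (H782.err (Fintype.card E) T s ζ + Fintype.card E / T))
      (Fintype.card ι * (Fintype.card E / T)) := by
  have hT' : (0 : ℝ) < T := by exact_mod_cast hT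
  have hm' : (0 : ℝ) < Fintype.card E := by exact_mod_cast hm
  have hTm : (0 : ℝ) < (T : ℝ) + Fintype.card E := by positivity
  refine ⟨fun i e => H782.xx_nonneg p T i e, fun i => H782.xx_sum p hT i, fun i e => ?_,
    fun i => ?_, ⟨fun _ _ => 1 / (T : ℝ), fun _ _ => by positivity, ?_, fun i e => ?_⟩,
    fun P hP => ?_⟩
  · unfold qs; positivity
  · unfold qs
    rw [← Finset.sum_div, Finset.sum_add_distrib, H782.sum_cnt_one]
    simp only [Finset.sum_const, Finset.card_univ, nsmul_eq_mul, mul_one]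
    rw [div_self hTm.ne']
  · simp only [Finset.sum_const, Finset.card_univ, nsmul_eq_mul]
    rw [mul_one_div]
  · unfold qs H782.xx
    rw [← add_div]
    exact div_le_div_of_nonneg_left (by positivity) hT' (by linarith)
  · have h1 := H782.greedy_dual hH hp hT hs hsT hm hP
    have h2 : H782.aval H L p T P ≤ ∑ i, L i (P i) +
        (∑ i, Real.log ((H782.cnt p T i (P i) : ℝ) + 1) + Fintype.card ι * g) := by
      unfold H782.aval
      rw [Finset.sum_add_distrib]
      have : ∑ i, H (H782.cnt p T i (P i)) ≤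
          ∑ i, (Real.log ((H782.cnt p T i (P i) : ℝ) + 1) + g) :=
        Finset.sum_le_sum fun i _ => hH.up _
      rw [Finset.sum_add_distrib, Finset.sum_const, Finset.card_univ, nsmul_eq_mul] at this
      linarith
    have h3 : H330.pot (qs p T) P = Fintype.card ι * Real.log ((T : ℝ) + Fintype.card E) -
        ∑ i, Real.log ((H782.cnt p T i (P i) : ℝ) + 1) := by
      unfold H330.pot qs
      have : ∀ i, Real.log (((H782.cnt p T i (P i) : ℝ) + 1) / ((T : ℝ) + Fintype.card E)) =
          Real.log ((H782.cnt p T i (P i) : ℝ) + 1) - Real.log ((T : ℝ) + Fintype.card E) :=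
        fun i => Real.log_div (by positivity) hTm.ne'
      simp only [this]
      rw [Finset.sum_sub_distrib, Finset.sum_const, Finset.card_univ, nsmul_eq_mul]
      ring
    have h4 : Real.log ((T : ℝ) + Fintype.card E) ≤ Real.log T + Fintype.card E / T := by
      have h5 : Real.log (((T : ℝ) + Fintype.card E) / T) ≤ ((T : ℝ) + Fintype.card E) / T - 1 :=
        Real.log_le_sub_one_of_pos (by positivity)
      rw [Real.log_div hTm.ne' hT'.ne', add_div, div_self hT'.ne'] at h5
      linarith
    have h5 := mul_le_mul_of_nonneg_left h4 (Nat.cast_nonneg (α := ℝ) (Fintype.card ι))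
    have h6 : H330.pv L P = ∑ i, L i (P i) := rfl
    have h7 : H330.pair L (H782.xx p T) = H782.val L (H782.xx p T) := H782.pair_eq_val _ _
    have h8 : H330.ent (H782.xx p T) = H782.ent (H782.xx p T) := rfl
    rw [h3, h6, h7, h8]
    nlinarith [h1, h2, h5]

end solved

/-! ### The list solver is greedy -/

/-- The edges of a node sequence. -/
def edge (M p : ℕ) (hp : 0 < p) (P : List ℕ) (i : Fin M) : Fin p × Fin p :=
  (⟨P.getD i 0 % p, Nat.mod_lt _ hp⟩, ⟨P.getD (i + 1) 0 % p, Nat.mod_lt _ hp⟩)

/-- All paths from `s` to `t`. -/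
def paths (M p s t : ℕ) : Set (Fin M → Fin p × Fin p) :=
  {q | ∃ f : ℕ → ℕ, f 0 = s ∧ f M = t ∧ ∀ i : Fin M, ((q i).1 : ℕ) = f i ∧
    ((q i).2 : ℕ) = f (i + 1)}

theorem cntL_append (ps : List (List ℕ)) (P : List ℕ) (i u v : ℕ) :
    cntL (ps ++ [P]) i u v = cntL ps i u v + if P.getD i 0 = u ∧ P.getD (i + 1) 0 = v then 1 else 0 := by
  unfold cntL
  rw [List.filter_append, List.length_append]
  congr 1
  rw [List.filter_singleton]
  by_cases h1 : P.getD i 0 = u
  · by_cases h2 : P.getD (i + 1) 0 = v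
    · rw [if_pos ⟨h1, h2⟩, h1, h2]; simp
    · rw [if_neg (fun h => h2 h.2), decide_eq_false h2, Bool.and_false]; rfl
  · rw [if_neg (fun h => h1 h.1), decide_eq_false h1, Bool.false_and]; rfl

theorem getD_map_range' (n : ℕ) (f : ℕ → ℕ) {i : ℕ} (h : i < n) :
    ((List.range n).map f).getD i 0 = f i := getD_map_range n f 0 h

theorem harmL_eq (S c : ℕ) : harmL S c = H782.harmN S c := by
  unfold harmL H782.harmN
  induction c with
  | zero => simp
  | succ c ih =>
    rw [List.range_succ, List.map_append, List.sum_append, ih, Finset.sum_range_succ]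
    simp

theorem edge_eq {M p : ℕ} (hp : 0 < p) {f : ℕ → ℕ} (hf : ∀ i, i ≤ M → f i < p) (i : Fin M)
    (e : Fin p × Fin p) : edge M p hp ((List.range (M + 1)).map f) i = e ↔
      f i = e.1 ∧ f (i + 1) = e.2 := by
  have hi := i.2
  unfold edge
  rw [Prod.ext_iff, Fin.ext_iff, Fin.ext_iff]
  simp only
  rw [getD_map_range' _ _ (by omega), getD_map_range' _ _ (by omega),
    Nat.mod_eq_of_lt (hf _ (by omega)), Nat.mod_eq_of_lt (hf _ (by omega))]

theorem picks_greedy {S Q : ℕ} (hS : 0 < S) (hQ : 0 < Q) (s t T : ℕ)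
    (Li : List (List (List ℕ))) (hL : Li ≠ []) (hs : s < nn Li) (ht : t < nn Li) :
    H782.Greedy (H782.harm S)
      (fun (i : Fin Li.length) (e : Fin (nn Li) × Fin (nn Li)) =>
        (((ent3 Li i e.1 e.2 : ℕ) : ℤ) : ℝ) / (S * Q))
      (paths Li.length (nn Li) s t) T
      (fun j => edge Li.length (nn Li) (by omega) ((picks S Q s t T Li).getD j [])) := by
  have hp0 : 0 < nn Li := by omega
  -- the counts
  have hcnt : ∀ j, j ≤ T → ∀ (i : Fin Li.length) (e : Fin (nn Li) × Fin (nn Li)),
      H782.cnt (fun j => edge Li.length (nn Li) hp0 ((picks S Q s t T Li).getD j [])) j i e =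
        cntL ((picks S Q s t T Li).take j) i e.1 e.2 := by
    intro j hj i e
    induction j with
    | zero => simp [H782.cnt_zero, cntL]
    | succ j ih =>
      rw [H782.cnt_succ, ih (by omega)]
      have h1 : (picks S Q s t T Li).take (j + 1) =
          (picks S Q s t T Li).take j ++ [(picks S Q s t T Li).getD j []] := by
        have hl : j < (picks S Q s t T Li).length := by rw [picks_length]; omega
        rw [List.take_succ_eq_append_getElem hl, List.getD_eq_getElem _ _ hl]
      rw [h1, cntL_append]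
      congr 1
      obtain ⟨f, hf, f0, fm, fj, -⟩ := picks_spec S Q s t T Li hL hs ht (j := j) (by omega)
      have hi := i.2
      rw [hf]
      simp only [edge_eq hp0 fj i e]
      rw [getD_map_range' _ _ (by omega), getD_map_range' _ _ (by omega)]
  refine H782.greedy_of_int hS hQ
    (Li := fun (i : Fin Li.length) (e : Fin (nn Li) × Fin (nn Li)) =>
      ((ent3 Li i e.1 e.2 : ℕ) : ℤ)) ?_ ?_
  · intro j hj
    obtain ⟨f, hf, f0, fm, fj, -⟩ := picks_spec S Q s t T Li hL hs ht hj
    refine ⟨f, f0, fm, fun i => ?_⟩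
    have hi := i.2
    have h := (edge_eq hp0 fj i (edge Li.length (nn Li) hp0 ((picks S Q s t T Li).getD j []) i)).mp
      (by rw [hf])
    exact ⟨h.1.symm, h.2.symm⟩
  · intro j hj q hq
    obtain ⟨f, hf, f0, fm, fj, hmin⟩ := picks_spec S Q s t T Li hL hs ht hj
    obtain ⟨g, g0, gm, hg⟩ := hq
    have hgj : ∀ i, i ≤ Li.length → g i < nn Li := by
      intro i hi
      rcases Nat.eq_zero_or_pos i with rfl | h0
      · rw [g0]; exact hs
      · obtain ⟨k, rfl⟩ : ∃ k, i = k + 1 := ⟨i - 1, by omega⟩
        have := (hg ⟨k, by omega⟩).2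
        simp only at this
        rw [← this]; exact Fin.is_lt _
    have h := hmin g g0 gm hgj
    have h1 : ∀ i : Fin Li.length,
        (edge Li.length (nn Li) hp0 ((picks S Q s t T Li).getD j []) i).1.val = f i ∧
        (edge Li.length (nn Li) hp0 ((picks S Q s t T Li).getD j []) i).2.val = f (i + 1) := by
      intro i
      have h := (edge_eq hp0 fj i (edge Li.length (nn Li) hp0
        ((picks S Q s t T Li).getD j []) i)).mp (by rw [hf])
      exact ⟨h.1.symm, h.2.symm⟩
    rw [← Fin.sum_univ_eq_sum_range (fun i => ent3 Li i (f i) (f (i + 1)) +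
        Q * harmL S (cntL ((picks S Q s t T Li).take j) i (f i) (f (i + 1)))),
      ← Fin.sum_univ_eq_sum_range (fun i => ent3 Li i (g i) (g (i + 1)) +
        Q * harmL S (cntL ((picks S Q s t T Li).take j) i (g i) (g (i + 1))))] at h
    have h2 : (∑ i : Fin Li.length, (((ent3 Li i (f i) (f (i + 1)) : ℕ) : ℤ) +
        ((Q * harmL S (cntL ((picks S Q s t T Li).take j) i (f i) (f (i + 1))) : ℕ) : ℤ))) ≤
        ∑ i : Fin Li.length, (((ent3 Li i (g i) (g (i + 1)) : ℕ) : ℤ) +
        ((Q * harmL S (cntL ((picks S Q s t T Li).take j) i (g i) (g (i + 1))) : ℕ) : ℤ)) := by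
      exact_mod_cast h
    refine le_trans (le_of_eq ?_) (h2.trans (le_of_eq ?_))
    · refine Finset.sum_congr rfl fun i _ => ?_
      rw [hcnt j hj.le, (h1 i).1, (h1 i).2, harmL_eq]
    · refine Finset.sum_congr rfl fun i _ => ?_
      rw [hcnt j hj.le, (hg i).1, (hg i).2, harmL_eq]

end Vale.Agent.P315.H763
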