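import Vale.Agent.P315.Q.LabM2
import Vale.Agent.P315.H869.Units

/-!
P315, milestone 2 (helper763): the list of the labels of the units used by the machines of scale
`s` in a region with label `a`.

* `labL m Kc s a` : a default label, then all labels `2 ^ s` levels below which are not light.
* `labL_ne`, `labL_desc`, `mem_labL`, `headD_labL`, `length_labL_le`.
* `labC` : the clamped version, polynomial time; `labC_eq` : equal to `labL` for valid labels.
-/

set_option autoImplicit false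

namespace Vale.Agent.P315.H763

open Vale.Agent.Lib.PolyTime Vale.Agent.P315.H95 Vale.Agent.P315.H155
open Vale.Agent.P315.Q (kidsL descL descC VLab labB labBB mem_kidsL mem_descL mem_descL_succ)
open Vale.Agent.P315.H869.Units (Light desc_bounds desc_ac_le desc_cl_le)

/-- Default child: the class stays (or becomes `Kc`), the first box. -/
def dk (m Kc a : ℕ) : ℕ :=
  enc (min (cl a) Kc) (bx a * 2 ^ (cl a + m - min (cl a) Kc))
    (ac a + Nat.dist (min (cl a) Kc) (cl a))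

theorem dk_mem (m Kc a : ℕ) : dk m Kc a ∈ H95.kids m Kc a := by
  rw [H95.mem_kids]
  unfold dk
  simp only [cl_enc, bx_enc, ac_enc]
  have hR : 1 ≤ 2 ^ (cl a + m - min (cl a) Kc) := Nat.one_le_two_pow
  refine ⟨min_le_right _ _, (min_le_left _ _).trans (Nat.le_add_right _ _), le_rfl, ?_, trivial⟩
  rw [add_mul]
  omega

theorem dk_eq {m Kc a : ℕ} (h : cl a ≤ Kc) : dk m Kc a = enc (cl a) (bx a * 2 ^ m) (ac a) := by
  unfold dk
  rw [min_eq_left h, Nat.add_sub_cancel_left, Nat.dist_self, add_zero]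

/-- Default descendant, `e` levels below. -/
def dflt (m Kc a : ℕ) : ℕ → ℕ
  | 0 => a
  | e + 1 => dk m Kc (dflt m Kc a e)

theorem dflt_mem (m Kc a : ℕ) : ∀ e, dflt m Kc a e ∈ descL m Kc a e
  | 0 => by simp [dflt, descL]
  | e + 1 => mem_descL_succ.2 ⟨_, dflt_mem m Kc a e, dk_mem m Kc _⟩

theorem dflt_eq {m Kc a : ℕ} (h : cl a ≤ Kc) : ∀ e,
    dflt m Kc a e = enc (cl a) (bx a * (2 ^ m) ^ e) (ac a)
  | 0 => by rw [pow_zero, mul_one, enc_eta]; rfl
  | e + 1 => by
    show dk m Kc (dflt m Kc a e) = _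
    rw [dflt_eq h e, dk_eq (by rwa [cl_enc]), cl_enc, bx_enc, ac_enc, pow_succ, mul_assoc]

/-- Labels of the units of scale `s` in a region with label `a`. -/
def labL (m Kc s a : ℕ) : List ℕ :=
  dflt m Kc a (2 ^ s) ::
    (descL m Kc a (2 ^ s)).filter fun x => !decide (Light m (2 ^ s) (cl a) x)

theorem labL_ne (m Kc s a : ℕ) : labL m Kc s a ≠ [] := List.cons_ne_nil _ _

theorem headD_labL (m Kc s a : ℕ) : (labL m Kc s a).headD 0 = dflt m Kc a (2 ^ s) := rfl

theorem headD_labL_eq {m Kc s a : ℕ} (h : cl a ≤ Kc) :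
    (labL m Kc s a).headD 0 = enc (cl a) (bx a * (2 ^ m) ^ 2 ^ s) (ac a) := dflt_eq h _

theorem mem_labL_descL {m Kc s a x : ℕ} (h : x ∈ labL m Kc s a) : x ∈ descL m Kc a (2 ^ s) := by
  unfold labL at h
  rcases List.mem_cons.1 h with rfl | h
  · exact dflt_mem _ _ _ _
  · exact (List.mem_filter.1 h).1

/-- The labels of the list are descendants. -/
theorem labL_desc {m ℓ μ B w0 J S H Kc D1 : ℕ} (s j a : ℕ) : ∀ x ∈ labL m Kc s a,
    x ∈ (clsPar m ℓ μ B w0 J S H Kc D1).desc j (2 ^ s) a := fun x hx =>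
  (mem_descL j a (2 ^ s) x).1 (mem_labL_descL hx)

/-- Every descendant which is not light is in the list. -/
theorem mem_labL {m ℓ μ B w0 J S H Kc D1 s j a x : ℕ}
    (hx : x ∈ (clsPar m ℓ μ B w0 J S H Kc D1).desc j (2 ^ s) a)
    (hl : ¬ Light m (2 ^ s) (cl a) x) : x ∈ labL m Kc s a := by
  unfold labL
  refine List.mem_cons_of_mem _ (List.mem_filter.2 ⟨(mem_descL j a (2 ^ s) x).2 hx, ?_⟩)
  simp [hl]

theorem not_light_dflt {m Kc s a : ℕ} (h : cl a ≤ Kc) :
    ¬ Light m (2 ^ s) (cl a) (dflt m Kc a (2 ^ s)) := by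
  rw [dflt_eq h]
  unfold Light
  rw [cl_enc]
  omega

/-- No label of the list is light. -/
theorem not_light_of_mem {m Kc s a x : ℕ} (h : cl a ≤ Kc) (hx : x ∈ labL m Kc s a) :
    ¬ Light m (2 ^ s) (cl a) x := by
  unfold labL at hx
  rcases List.mem_cons.1 hx with rfl | hx
  · exact not_light_dflt h
  · have := (List.mem_filter.1 hx).2
    simpa using this

/-! ### Boxes of the descendants, number of labels -/

theorem descL_box {m Kc a : ℕ} : ∀ (e x : ℕ), x ∈ descL m Kc a e → cl x ≤ cl a + e * m ∧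
    bx a * 2 ^ (cl a + e * m - cl x) ≤ bx x ∧
    bx x + 2 ≤ (bx a + 2) * 2 ^ (cl a + e * m - cl x)
  | 0, x, hx => by
    have : x = a := by simpa [descL] using hx
    subst this
    simp
  | e + 1, x, hx => by
    obtain ⟨y, hy, hxy⟩ := mem_descL_succ.1 hx
    obtain ⟨h1, h2, h3⟩ := descL_box e y hy
    obtain ⟨-, k2, k3, k4, -⟩ := H95.mem_kids.1 hxy
    have e1 : (e + 1) * m = e * m + m := by ring
    have e2 : cl a + (e + 1) * m - cl x = (cl a + e * m - cl y) + (cl y + m - cl x) := by omega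
    refine ⟨by omega, ?_, ?_⟩
    · rw [e2, pow_add, ← mul_assoc]
      exact (Nat.mul_le_mul_right _ h2).trans k3
    · rw [e2, pow_add, ← mul_assoc]
      exact k4.trans (Nat.mul_le_mul_right _ h3)

/-- Data of a label of the list. -/
theorem mem_labL_data {m Kc s a x : ℕ} (h : cl a ≤ Kc) (hx : x ∈ labL m Kc s a) :
    cl x ≤ cl a + 2 ^ s * m ∧ cl a ≤ cl x + 3 * (2 ^ s * m) ∧ ac a ≤ ac x ∧
    ac x ≤ ac a + 5 * (2 ^ s * m) ∧ bx a * 2 ^ (cl a + 2 ^ s * m - cl x) ≤ bx x ∧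
    bx x + 2 ≤ (bx a + 2) * 2 ^ (cl a + 2 ^ s * m - cl x) := by
  have h1 := descL_box _ _ (mem_labL_descL hx)
  have h2 : x ∈ (clsPar m 0 0 0 0 0 0 0 Kc 0).desc 0 (2 ^ s) a := labL_desc s 0 a x hx
  have h3 := desc_bounds _ _ _ _ h2
  have h4 := not_light_of_mem h hx
  have h5 := desc_ac_le h2 h4
  unfold Light at h4
  exact ⟨h1.1, by omega, h3.2.1, h5, h1.2.1, h1.2.2⟩

/-- Number of labels in the list. -/
theorem length_labL_le {m Kc s a : ℕ} (h : cl a ≤ Kc) : (labL m Kc s a).length ≤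
    1 + (4 * (2 ^ s * m) + 1) * ((5 * (2 ^ s * m) + 1) * 2 ^ (4 * (2 ^ s * m) + 1)) := by
  set w := 2 ^ s * m with hw
  have h1 : ((descL m Kc a (2 ^ s)).filter
      fun x => !decide (Light m (2 ^ s) (cl a) x)).length ≤
      (4 * w + 1) * ((5 * w + 1) * 2 ^ (4 * w + 1)) := by
    set l := (descL m Kc a (2 ^ s)).filter fun x => !decide (Light m (2 ^ s) (cl a) x) with hl
    have hnd : l.Nodup := (Q.nodup_descL _ _ _ _).filter _
    rw [← List.toFinset_card_of_nodup hnd]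
    have hmem : ∀ x ∈ l.toFinset, x ∈ labL m Kc s a := fun x hx =>
      List.mem_cons_of_mem _ (List.mem_toFinset.1 hx)
    set f : ℕ → ℕ × ℕ × ℕ := fun x => (cl x + 3 * w - cl a, ac x - ac a,
      bx x - bx a * 2 ^ (cl a + w - cl x)) with hf
    have hmap : ∀ x ∈ l.toFinset, f x ∈ Finset.range (4 * w + 1) ×ˢ
        (Finset.range (5 * w + 1) ×ˢ Finset.range (2 ^ (4 * w + 1))) := by
      intro x hx
      obtain ⟨d1, d2, d3, d4, d5, d6⟩ := mem_labL_data h (hmem x hx)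
      rw [← hw] at d1 d2 d4 d5 d6
      have h7 : 2 ^ (cl a + w - cl x) ≤ 2 ^ (4 * w) :=
        Nat.pow_le_pow_right (by norm_num) (by omega)
      have h8 : 2 ^ (4 * w + 1) = 2 * 2 ^ (4 * w) := by rw [pow_succ]; ring
      rw [add_mul] at d6
      simp only [hf, Finset.mem_product, Finset.mem_range]
      refine ⟨by omega, by omega, by omega⟩
    have hinj : Set.InjOn f (l.toFinset : Set ℕ) := by
      intro x hx y hy hxy
      obtain ⟨d1, d2, d3, d4, d5, d6⟩ := mem_labL_data h (hmem x hx)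
      obtain ⟨g1, g2, g3, g4, g5, g6⟩ := mem_labL_data h (hmem y hy)
      rw [← hw] at d1 d2 d4 d5 d6 g1 g2 g4 g5 g6
      simp only [hf, Prod.mk.injEq] at hxy
      obtain ⟨q1, q2, q3⟩ := hxy
      have c1 : cl x = cl y := by omega
      have c2 : ac x = ac y := by omega
      rw [c1] at q3 d5
      have c3 : bx x = bx y := by omega
      rw [← enc_eta x, ← enc_eta y, c1, c2, c3]
    have := Finset.card_le_card_of_injOn f hmap hinj
    simpa [Finset.card_product] using this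
  unfold labL
  rw [List.length_cons]
  omega

/-! ### Clamped version -/

/-- Clamped version. -/
def labC (U BB m Kc s a : ℕ) : List ℕ :=
  enc (cl a) (bx a * 2 ^ min (m * 2 ^ min s U) U) (ac a) ::
    (descC U BB m Kc a (2 ^ min s U)).filter fun x =>
      !decide (cl x + 3 * (2 ^ min s U * m) < cl a)

theorem labC_eq {U BB m w0 Kc kr n j s a : ℕ} (hw : 0 < w0)
    (h : VLab m w0 Kc kr n (j + 2 ^ s) a) (hj : j + 2 ^ s ≤ n) (hU : 2 * 2 ^ (Kc + m) ≤ U)
    (hn : n ≤ U) (hB : labBB (labB m Kc kr n) ≤ BB) (hs : m * 2 ^ s ≤ U) :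
    labC U BB m Kc s a = labL m Kc s a := by
  have h1 : s < 2 ^ s := Nat.lt_two_pow_self
  unfold labC labL
  rw [min_eq_left (show s ≤ U by omega), min_eq_left hs,
    Q.VLab.descC hw h hj hU hn hB, dflt_eq h.1, pow_mul]
  rfl

theorem PT_filter_not_lt {α : Type*} [Enc α] {l : α → List ℕ} {f g : α → ℕ} (hl : PT ∅ l)
    (hf : PT ∅ f) (hg : PT ∅ g) :
    PT ∅ (fun x => (l x).filter fun y => !decide (cl y + f x < g x)) := by
  fun_prop

@[fun_prop]
theorem PT_labC {α : Type*} [Enc α] {U BB m Kc s a : α → ℕ} (hU : PT ∅ U) (hUb : PBd U)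
    (hB : PT ∅ BB) (hBb : PBd BB) (hm : PT ∅ m) (hKc : PT ∅ Kc) (hs : PT ∅ s) (ha : PT ∅ a) :
    PT ∅ (fun x => labC (U x) (BB x) (m x) (Kc x) (s x) (a x)) := by
  have hp2 : PT ∅ (fun x => 2 ^ min (s x) (U x)) :=
    PT.pow (PT.const 2) (PT.min hs hU) (PBd_min_right hUb)
  have hd : PT ∅ (fun x => descC (U x) (BB x) (m x) (Kc x) (a x) (2 ^ min (s x) (U x))) :=
    Q.PT_descC hU hUb hB hBb hm hKc ha hp2
  have hcl : PT ∅ (fun x => cl (a x)) := Q.PT_cl ha
  have h1 := PT_filter_not_lt hd ((PT.const 3).mul (hp2.mul hm)) hcl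
  have h2 : PT ∅ (fun x => 2 ^ min (m x * 2 ^ min (s x) (U x)) (U x)) :=
    PT.pow (PT.const 2) (PT.min (hm.mul hp2) hU) (PBd_min_right hUb)
  exact (Q.PT_enc hcl ((Q.PT_bx ha).mul h2) (Q.PT_ac ha)).cons h1

end Vale.Agent.P315.H763
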