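import Vale.Agent.P315.H763.Bridge

/-! P315 (helper763): greedy solver with edge weights `a`.  Prices at time `t`:
`L + a * log ((cnt + 1) / (t + m))`, `m` the number of edges.  The result is a solution in the
weighted sense `SolvedW`. -/

set_option autoImplicit false
set_option linter.unusedSectionVars false

namespace Vale.Agent.P315.H763

open Finset

section

variable {ι E : Type*} [Fintype ι] [Fintype E] [DecidableEq E]

/-- Weighted solver specification. -/
structure SolvedW (PP : Set (ι → E)) (a L xh q : ι → E → ℝ) (e1 e2 : ℝ) : Prop where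
  xh_nonneg : ∀ i e, 0 ≤ xh i e
  xh_sum : ∀ i, ∑ e, xh i e = 1
  q_pos : ∀ i e, 0 < q i e
  q_sum : ∀ i, ∑ e, q i e ≤ 1
  q_le : ∃ r : ι → E → ℝ, (∀ i e, 0 ≤ r i e) ∧ ∑ i, ∑ e, a i e * r i e ≤ e2 ∧
    ∀ i e, q i e ≤ xh i e + r i e
  opt : ∀ p ∈ PP, -∑ i, a i (p i) * Real.log (q i (p i)) ≤
    ∑ i, L i (p i) - (∑ i, ∑ e, L i e * xh i e + ∑ i, ∑ e, a i e * (xh i e * Real.log (xh i e))) + e1

/-- Price of an edge at time `t`. -/
noncomputable def prW (a L : ι → E → ℝ) (p : ℕ → ι → E) (t : ℕ) (i : ι) (e : E) : ℝ :=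
  L i e + a i e * Real.log (((H782.cnt p t i e : ℝ) + 1) / ((t : ℝ) + Fintype.card E))

/-- Potential of a row. -/
noncomputable def phi (a L : ι → E → ℝ) (p : ℕ → ι → E) (t : ℕ) (i : ι) : ℝ :=
  ∑ e, (L i e * H782.cnt p t i e + a i e * (((H782.cnt p t i e : ℝ) + 1) *
    Real.log (((H782.cnt p t i e : ℝ) + 1) / ((t : ℝ) + Fintype.card E)) -
      ((H782.cnt p t i e : ℝ) + 1)))

/-- Smoothed weight of a row. -/
noncomputable def aq (a : ι → E → ℝ) (p : ℕ → ι → E) (t : ℕ) (i : ι) : ℝ :=
  ∑ e, a i e * (((H782.cnt p t i e : ℝ) + 1) / ((t : ℝ) + Fintype.card E))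

theorem log_step {N n : ℝ} (hN : 0 < N) (hn : 0 < n) :
    (N + 1) * Real.log ((N + 1) / (n + 1)) - N * Real.log (N / n) - 1 ≤
      Real.log (N / n) + 1 / N - N / (n + 1) := by
  have h1 : Real.log ((N + 1) / N) ≤ 1 / N := by
    have := Real.log_le_sub_one_of_pos (x := (N + 1) / N) (by positivity)
    refine this.trans (le_of_eq ?_)
    field_simp
    ring
  have h2 : 1 / (n + 1) ≤ Real.log ((n + 1) / n) := by
    have := Real.log_le_sub_one_of_pos (x := n / (n + 1)) (by positivity)
    rw [Real.log_div hn.ne' (by positivity)] at this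
    rw [Real.log_div (by positivity) hn.ne']
    have h3 : n / (n + 1) - 1 = -(1 / (n + 1)) := by
      field_simp
      ring
    rw [h3] at this
    linarith
  rw [Real.log_div (by positivity) hN.ne'] at h1
  rw [Real.log_div (by positivity) hn.ne'] at h2
  rw [Real.log_div (by positivity) (by positivity), Real.log_div hN.ne' hn.ne']
  have h3 : (N + 1) * (Real.log (N + 1) - Real.log N) ≤ (N + 1) * (1 / N) :=
    mul_le_mul_of_nonneg_left h1 (by positivity)
  have h4 : (N + 1) * (1 / (n + 1)) ≤ (N + 1) * (Real.log (n + 1) - Real.log n) :=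
    mul_le_mul_of_nonneg_left h2 (by positivity)
  have h5 : (N + 1) * (1 / N) = 1 + 1 / N := by field_simp
  have h6 : (N + 1) * (1 / (n + 1)) = N / (n + 1) + 1 / (n + 1) := by field_simp
  have h7 : 0 ≤ 1 / (n + 1) := by positivity
  rw [h5] at h3
  rw [h6] at h4
  linarith

theorem log_step' {N n : ℝ} (hN : 0 < N) (hn : 0 < n) :
    N * Real.log (N / (n + 1)) - N * Real.log (N / n) ≤ - (N / (n + 1)) := by
  have h2 : 1 / (n + 1) ≤ Real.log ((n + 1) / n) := by
    have := Real.log_le_sub_one_of_pos (x := n / (n + 1)) (by positivity)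
    rw [Real.log_div hn.ne' (by positivity)] at this
    rw [Real.log_div (by positivity) hn.ne']
    have h3 : n / (n + 1) - 1 = -(1 / (n + 1)) := by
      field_simp
      ring
    rw [h3] at this
    linarith
  rw [Real.log_div (by positivity) hn.ne'] at h2
  rw [Real.log_div hN.ne' (by positivity), Real.log_div hN.ne' hn.ne']
  have h4 := mul_le_mul_of_nonneg_left h2 hN.le
  have h5 : N * (1 / (n + 1)) = N / (n + 1) := by ring
  rw [h5] at h4
  linarith

theorem aq_le (a : ι → E → ℝ) (p : ℕ → ι → E) (t : ℕ) (i : ι) {A : ℝ} (haA : ∀ i e, a i e ≤ A)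
    (hm : 0 < Fintype.card E) : aq a p t i ≤ A := by
  have hm' : (0 : ℝ) < Fintype.card E := by exact_mod_cast hm
  have hn : (0 : ℝ) < (t : ℝ) + Fintype.card E := by positivity
  unfold aq
  calc ∑ e, a i e * (((H782.cnt p t i e : ℝ) + 1) / ((t : ℝ) + Fintype.card E))
      ≤ ∑ e, A * (((H782.cnt p t i e : ℝ) + 1) / ((t : ℝ) + Fintype.card E)) :=
        Finset.sum_le_sum fun e _ => mul_le_mul_of_nonneg_right (haA i e) (by positivity)
    _ = A := by
        rw [← Finset.mul_sum, ← Finset.sum_div, Finset.sum_add_distrib, H782.sum_cnt_one]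
        simp only [Finset.sum_const, Finset.card_univ, nsmul_eq_mul, mul_one]
        rw [div_self hn.ne', mul_one]

/-- One step of the potential. -/
theorem phi_step (a L : ι → E → ℝ) (p : ℕ → ι → E) (t : ℕ) (i : ι) {A : ℝ}
    (ha : ∀ i e, 0 ≤ a i e) (haA : ∀ i e, a i e ≤ A) (hm : 0 < Fintype.card E) :
    phi a L p (t + 1) i - phi a L p t i ≤ prW a L p t i (p t i) - aq a p t i +
      A * (1 / ((H782.cnt p t i (p t i) : ℝ) + 1) + 1 / ((t : ℝ) + 1)) := by
  have hm' : (0 : ℝ) < Fintype.card E := by exact_mod_cast hm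
  set n : ℝ := (t : ℝ) + Fintype.card E with hn
  have hn0 : 0 < n := by positivity
  have hn1 : ((t + 1 : ℕ) : ℝ) + Fintype.card E = n + 1 := by rw [hn]; push_cast; ring
  unfold phi
  rw [← Finset.sum_sub_distrib, hn1]
  have key : ∀ e, (L i e * H782.cnt p (t + 1) i e + a i e * (((H782.cnt p (t + 1) i e : ℝ) + 1) *
      Real.log (((H782.cnt p (t + 1) i e : ℝ) + 1) / (n + 1)) -
        ((H782.cnt p (t + 1) i e : ℝ) + 1))) -
      (L i e * H782.cnt p t i e + a i e * (((H782.cnt p t i e : ℝ) + 1) *
      Real.log (((H782.cnt p t i e : ℝ) + 1) / n) - ((H782.cnt p t i e : ℝ) + 1))) ≤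
      (if p t i = e then L i e + a i e * Real.log (((H782.cnt p t i e : ℝ) + 1) / n) +
        a i e * (1 / ((H782.cnt p t i e : ℝ) + 1)) else 0) -
        a i e * (((H782.cnt p t i e : ℝ) + 1) / (n + 1)) := by
    intro e
    have hN : (0 : ℝ) < (H782.cnt p t i e : ℝ) + 1 := by positivity
    rw [H782.cnt_succ]
    by_cases he : p t i = e
    · rw [if_pos he, if_pos he]
      push_cast
      have h := mul_le_mul_of_nonneg_left (log_step hN hn0) (ha i e)
      nlinarith [h]
    · rw [if_neg he, if_neg he]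
      push_cast
      rw [add_zero]
      have h := mul_le_mul_of_nonneg_left (log_step' hN hn0) (ha i e)
      nlinarith [h]
  refine (Finset.sum_le_sum fun e _ => key e).trans ?_
  rw [Finset.sum_sub_distrib, Finset.sum_ite_eq]
  simp only [Finset.mem_univ, if_true]
  -- the linear term
  have h1 : aq a p t i - A / (t + 1) ≤ ∑ e, a i e * (((H782.cnt p t i e : ℝ) + 1) / (n + 1)) := by
    have h2 : ∑ e, a i e * (((H782.cnt p t i e : ℝ) + 1) / (n + 1)) =
        aq a p t i * (n / (n + 1)) := by
      unfold aq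
      rw [Finset.sum_mul, ← hn]
      refine Finset.sum_congr rfl fun e _ => ?_
      field_simp
    rw [h2]
    have h3 : n / (n + 1) = 1 - 1 / (n + 1) := by field_simp; ring
    rw [h3]
    have hA0 : 0 ≤ aq a p t i := by
      unfold aq
      exact Finset.sum_nonneg fun e _ => mul_nonneg (ha i e) (by positivity)
    have h4 := aq_le a p t i haA hm
    have h5 : aq a p t i * (1 / (n + 1)) ≤ A * (1 / ((t : ℝ) + 1)) := by
      refine mul_le_mul h4 ?_ (by positivity) (hA0.trans h4)
      exact one_div_le_one_div_of_le (by positivity) (by rw [hn]; linarith)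
    have h6 : A / ((t : ℝ) + 1) = A * (1 / ((t : ℝ) + 1)) := by ring
    rw [h6]
    linarith
  have h7 : a i (p t i) * (1 / ((H782.cnt p t i (p t i) : ℝ) + 1)) ≤
      A * (1 / ((H782.cnt p t i (p t i) : ℝ) + 1)) :=
    mul_le_mul_of_nonneg_right (haA i _) (by positivity)
  have h8 : prW a L p t i (p t i) = L i (p t i) +
      a i (p t i) * Real.log (((H782.cnt p t i (p t i) : ℝ) + 1) / n) := rfl
  have h9 : A / ((t : ℝ) + 1) = A * (1 / ((t : ℝ) + 1)) := by ring
  rw [h8]
  rw [h9] at h1
  linarith

/-- Weighted Gibbs inequality. -/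
theorem gibbsW (a x q : E → ℝ) (ha : ∀ e, 0 ≤ a e) (hx : ∀ e, 0 ≤ x e) (hq : ∀ e, 0 < q e) :
    ∑ e, x e * (a e * Real.log (q e)) ≤ ∑ e, a e * (x e * Real.log (x e)) - ∑ e, a e * x e +
      ∑ e, a e * q e := by
  rw [← Finset.sum_sub_distrib, ← Finset.sum_add_distrib]
  refine Finset.sum_le_sum fun e _ => ?_
  rcases (hx e).eq_or_lt with h | h
  · rw [← h]
    have := mul_nonneg (ha e) (hq e).le
    simp only [zero_mul, mul_zero, sub_zero, zero_add]
    exact this
  · have h1 := Real.log_le_sub_one_of_pos (x := q e / x e) (div_pos (hq e) h)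
    rw [Real.log_div (hq e).ne' h.ne'] at h1
    have h2 := mul_le_mul_of_nonneg_left h1 h.le
    have h3 : x e * (q e / x e - 1) = q e - x e := by field_simp
    rw [h3] at h2
    have h4 := mul_le_mul_of_nonneg_left h2 (ha e)
    nlinarith [h4]

theorem sum_inv_le (T : ℕ) : ∑ t ∈ range T, 1 / ((t : ℝ) + 1) ≤ 1 + Real.log T := by
  have h := harmonic_le_one_add_log T
  have h2 : ((harmonic T : ℚ) : ℝ) = ∑ t ∈ range T, 1 / ((t : ℝ) + 1) := by
    unfold harmonic
    push_cast
    exact Finset.sum_congr rfl fun t _ => by rw [one_div]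
  rwa [h2] at h

/-- Total of the small terms of a row. -/
theorem sum_small (p : ℕ → ι → E) (i : ι) (T : ℕ) :
    ∑ t ∈ range T, (1 / ((H782.cnt p t i (p t i) : ℝ) + 1) + 1 / ((t : ℝ) + 1)) ≤
      (Fintype.card E + 1) * (1 + Real.log T) := by
  have h0 : 0 ≤ 1 + Real.log T := by
    have : 0 ≤ Real.log T := Real.log_natCast_nonneg T
    linarith
  rw [Finset.sum_add_distrib, H782.sum_H (fun c => 1 / ((c : ℝ) + 1)) p T i]
  have h1 : ∀ e, ∑ j ∈ range (H782.cnt p T i e), 1 / ((j : ℝ) + 1) ≤ 1 + Real.log T := by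
    intro e
    refine (Finset.sum_le_sum_of_subset_of_nonneg ?_ ?_).trans (sum_inv_le T)
    · exact Finset.range_subset_range.mpr (H782.cnt_le p T i e)
    · intro j _ _; positivity
  have h2 : ∑ e, ∑ j ∈ range (H782.cnt p T i e), 1 / ((j : ℝ) + 1) ≤
      Fintype.card E * (1 + Real.log T) := by
    refine (Finset.sum_le_sum fun e _ => h1 e).trans (le_of_eq ?_)
    rw [Finset.sum_const, Finset.card_univ, nsmul_eq_mul]
  have h3 := sum_inv_le T
  linarith

theorem phi_zero (a L : ι → E → ℝ) (p : ℕ → ι → E) (i : ι) (ha : ∀ i e, 0 ≤ a i e)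
    (hm : 0 < Fintype.card E) : phi a L p 0 i ≤ 0 := by
  have hm' : (1 : ℝ) ≤ Fintype.card E := by exact_mod_cast hm
  unfold phi
  refine Finset.sum_nonpos fun e _ => ?_
  rw [H782.cnt_zero]
  simp only [Nat.cast_zero, mul_zero, zero_add, one_mul]
  have h1 : Real.log (1 / (Fintype.card E : ℝ)) ≤ 0 := by
    apply Real.log_nonpos (by positivity)
    rw [div_le_one (by linarith)]
    exact hm'
  have := mul_nonneg (ha i e) (by linarith : 0 ≤ -(Real.log (1 / (Fintype.card E : ℝ)) - 1))
  linarith

/-- Lower bound of the final potential of a row. -/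
theorem phi_final (a L : ι → E → ℝ) (p : ℕ → ι → E) (T : ℕ) (i : ι) {A : ℝ}
    (ha : ∀ i e, 0 ≤ a i e) (haA : ∀ i e, a i e ≤ A) (hT : 0 < T) (hm : 0 < Fintype.card E) :
    T * (∑ e, L i e * H782.xx p T i e + ∑ e, a i e * (H782.xx p T i e *
      Real.log (H782.xx p T i e)) - ∑ e, a i e * H782.xx p T i e) -
      A * (Fintype.card E * Real.log ((T : ℝ) + Fintype.card E) + 2 * Fintype.card E) ≤
      phi a L p T i := by
  have hT' : (0 : ℝ) < T := by exact_mod_cast hT
  have hm' : (0 : ℝ) < Fintype.card E := by exact_mod_cast hm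
  have hA0 : 0 ≤ A := by
    obtain ⟨e⟩ : Nonempty E := Fintype.card_pos_iff.mp hm
    exact (ha i e).trans (haA i e)
  have hlog : 0 ≤ Real.log ((T : ℝ) + Fintype.card E) :=
    Real.log_nonneg (by
      have : (1 : ℝ) ≤ T := by exact_mod_cast hT
      linarith)
  have hr : Real.log (((T : ℝ) + Fintype.card E) / T) ≤ Fintype.card E / T := by
    have := Real.log_le_sub_one_of_pos (x := ((T : ℝ) + Fintype.card E) / T) (by positivity)
    have h2 : ((T : ℝ) + Fintype.card E) / T - 1 = Fintype.card E / T := by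
      field_simp
      ring
    rwa [h2] at this
  -- one edge
  have key : ∀ e, T * (L i e * H782.xx p T i e + a i e * (H782.xx p T i e *
      Real.log (H782.xx p T i e)) - a i e * H782.xx p T i e) -
      A * (Real.log ((T : ℝ) + Fintype.card E) + 1) -
        A * ((H782.cnt p T i e : ℝ) * (Fintype.card E / T)) ≤
      L i e * H782.cnt p T i e + a i e * (((H782.cnt p T i e : ℝ) + 1) *
        Real.log (((H782.cnt p T i e : ℝ) + 1) / ((T : ℝ) + Fintype.card E)) -
          ((H782.cnt p T i e : ℝ) + 1)) := by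
    intro e
    set c : ℝ := (H782.cnt p T i e : ℝ) with hc
    have hc0 : 0 ≤ c := by rw [hc]; positivity
    have hxx : H782.xx p T i e = c / T := rfl
    rw [hxx]
    have h1 : T * (L i e * (c / T) + a i e * (c / T * Real.log (c / T)) - a i e * (c / T)) =
        L i e * c + a i e * (c * Real.log (c / T)) - a i e * c := by
      field_simp
    rw [h1]
    -- analytic inequality
    have h2 : c * Real.log (c / T) - Real.log ((T : ℝ) + Fintype.card E) -
        c * (Fintype.card E / T) ≤
        (c + 1) * Real.log ((c + 1) / ((T : ℝ) + Fintype.card E)) := by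
      have hc1 : c + 1 ≠ 0 := by positivity
      have hTm : (T : ℝ) + Fintype.card E ≠ 0 := by positivity
      rw [Real.log_div hc1 hTm]
      have h3 : Real.log ((T : ℝ) + Fintype.card E) - Real.log T ≤ Fintype.card E / T := by
        rwa [Real.log_div (by positivity) hT'.ne'] at hr
      have h4 := mul_le_mul_of_nonneg_left h3 hc0
      rcases hc0.eq_or_lt with h0 | h0
      · rw [← h0] at h4 ⊢
        simp
      · rw [Real.log_div h0.ne' hT'.ne']
        have h5 : Real.log c ≤ Real.log (c + 1) := Real.log_le_log h0 (by linarith)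
        have h6 : 0 ≤ Real.log (c + 1) := Real.log_nonneg (by linarith)
        have h7 := mul_le_mul_of_nonneg_left h5 h0.le
        nlinarith [h4, h6, h7]
    have h3 := mul_le_mul_of_nonneg_left h2 (ha i e)
    have h4 : a i e * (Real.log ((T : ℝ) + Fintype.card E) + 1) ≤
        A * (Real.log ((T : ℝ) + Fintype.card E) + 1) :=
      mul_le_mul_of_nonneg_right (haA i e) (by linarith)
    have h5 : a i e * (c * (Fintype.card E / T)) ≤ A * (c * (Fintype.card E / T)) :=
      mul_le_mul_of_nonneg_right (haA i e) (by positivity)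
    nlinarith [h3, h4, h5]
  have hsum := Finset.sum_le_sum fun e (_ : e ∈ Finset.univ) => key e
  unfold phi
  refine le_trans (le_of_eq ?_) hsum
  have hs2 : ∑ e, A * ((H782.cnt p T i e : ℝ) * (Fintype.card E / T)) = A * Fintype.card E := by
    rw [← Finset.mul_sum, ← Finset.sum_mul, H782.sum_cnt_one]
    field_simp
  rw [Finset.sum_sub_distrib, hs2, Finset.sum_sub_distrib, ← Finset.mul_sum,
    Finset.sum_sub_distrib, Finset.sum_add_distrib, Finset.sum_const, Finset.card_univ,
    nsmul_eq_mul]
  ring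

/-- Near-greedy run with weights. -/
structure GreedyW (a L : ι → E → ℝ) (PP : Set (ι → E)) (T : ℕ) (η : ℝ) (p : ℕ → ι → E) :
    Prop where
  mem : ∀ t, t < T → p t ∈ PP
  min : ∀ t, t < T → ∀ q ∈ PP, ∑ i, prW a L p t i (p t i) ≤ ∑ i, prW a L p t i (q i) + η

/-- Error per row and unit weight. -/
noncomputable def errW (m T s : ℕ) : ℝ :=
  (m * Real.log ((T : ℝ) + m) + 2 * m + (m + 1) * (1 + Real.log T)) / s + (s + m) / T +
    s / ((T : ℝ) - s)

/-- Objective of a row. -/
noncomputable def objW (a L x : ι → E → ℝ) (i : ι) : ℝ :=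
  ∑ e, L i e * x i e + ∑ e, a i e * (x i e * Real.log (x i e)) - ∑ e, a i e * x i e

theorem pick_le {a L : ι → E → ℝ} {PP : Set (ι → E)} {T : ℕ} {η : ℝ} {p : ℕ → ι → E}
    (hp : GreedyW a L PP T η p) (ha : ∀ i e, 0 ≤ a i e) (hT : 0 < T) {t : ℕ} (ht : t < T) :
    ∑ i, prW a L p t i (p t i) ≤ ∑ i, objW a L (H782.xx p T) i + ∑ i, aq a p t i + η := by
  have hT' : (0 : ℝ) < T := by exact_mod_cast hT
  have h1 : T * ∑ i, prW a L p t i (p t i) ≤
      T * (∑ i, ∑ e, H782.xx p T i e * prW a L p t i e) + T * η := by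
    have h2 : T * (∑ i, ∑ e, H782.xx p T i e * prW a L p t i e) =
        ∑ t' ∈ range T, ∑ i, prW a L p t i (p t' i) :=
      H782.val_xx (fun i e => prW a L p t i e) p hT
    rw [h2]
    have h3 : ∑ t' ∈ range T, ∑ i, prW a L p t i (p t i) ≤
        ∑ t' ∈ range T, (∑ i, prW a L p t i (p t' i) + η) :=
      Finset.sum_le_sum fun t' ht' => hp.min t ht _ (hp.mem t' (Finset.mem_range.mp ht'))
    rw [Finset.sum_add_distrib] at h3
    simpa using h3
  have h4 : ∑ i, prW a L p t i (p t i) ≤ ∑ i, ∑ e, H782.xx p T i e * prW a L p t i e + η := by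
    rw [← mul_add] at h1
    exact le_of_mul_le_mul_left h1 hT'
  have h5 : ∀ i, ∑ e, H782.xx p T i e * prW a L p t i e ≤
      objW a L (H782.xx p T) i + aq a p t i := by
    intro i
    have h6 := gibbsW (a i) (H782.xx p T i)
      (fun e => ((H782.cnt p t i e : ℝ) + 1) / ((t : ℝ) + Fintype.card E)) (ha i)
      (fun e => H782.xx_nonneg p T i e) (fun e => by
        have : Nonempty E := ⟨e⟩
        have : (0 : ℝ) < Fintype.card E := by exact_mod_cast Fintype.card_pos
        positivity)
    have h7 : ∑ e, H782.xx p T i e * prW a L p t i e = ∑ e, L i e * H782.xx p T i e +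
        ∑ e, H782.xx p T i e * (a i e *
          Real.log (((H782.cnt p t i e : ℝ) + 1) / ((t : ℝ) + Fintype.card E))) := by
      rw [← Finset.sum_add_distrib]
      refine Finset.sum_congr rfl fun e _ => ?_
      unfold prW
      ring
    rw [h7]
    unfold objW aq
    linarith
  have h8 := Finset.sum_le_sum fun i (_ : i ∈ Finset.univ) => h5 i
  rw [Finset.sum_add_distrib] at h8
  linarith

/-- Upper bound of the potential. -/
theorem phi_upper {a L : ι → E → ℝ} {PP : Set (ι → E)} {T : ℕ} {η : ℝ} {p : ℕ → ι → E}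
    (hp : GreedyW a L PP T η p) {A : ℝ} (ha : ∀ i e, 0 ≤ a i e) (haA : ∀ i e, a i e ≤ A)
    (hm : 0 < Fintype.card E) (hT : 0 < T) (t : ℕ) (ht : t ≤ T) :
    ∑ i, phi a L p t i ≤ t * (∑ i, objW a L (H782.xx p T) i + η) +
      A * ∑ i, ∑ u ∈ range t, (1 / ((H782.cnt p u i (p u i) : ℝ) + 1) + 1 / ((u : ℝ) + 1)) := by
  induction t with
  | zero =>
    simp only [Nat.cast_zero, zero_mul, Finset.range_zero, Finset.sum_empty, Finset.sum_const_zero,
      mul_zero, add_zero]
    exact Finset.sum_nonpos fun i _ => phi_zero a L p i ha hm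
  | succ t ih =>
    have h1 := ih (by omega)
    have h2 := Finset.sum_le_sum fun i (_ : i ∈ Finset.univ) => phi_step a L p t i ha haA hm
    rw [Finset.sum_sub_distrib, Finset.sum_add_distrib, Finset.sum_sub_distrib,
      ← Finset.mul_sum] at h2
    have h3 := pick_le hp ha hT (t := t) (by omega)
    simp only [Finset.sum_range_succ]
    rw [Finset.sum_add_distrib (f := fun i => ∑ u ∈ range t, _), mul_add]
    push_cast
    linarith

theorem aq_low (a : ι → E → ℝ) (p : ℕ → ι → E) {t T s : ℕ} (i : ι) {A : ℝ}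
    (ha : ∀ i e, 0 ≤ a i e) (haA : ∀ i e, a i e ≤ A) (hT : 0 < T) (hm : 0 < Fintype.card E)
    (ht : t ≤ T) (hts : T ≤ t + s) :
    ∑ e, a i e * H782.xx p T i e - A * ((s + Fintype.card E) / T) ≤ aq a p t i := by
  have hT' : (0 : ℝ) < T := by exact_mod_cast hT
  have hm' : (0 : ℝ) < Fintype.card E := by exact_mod_cast hm
  have ht' : (t : ℝ) ≤ T := by exact_mod_cast ht
  have hts' : (T : ℝ) ≤ t + s := by exact_mod_cast hts
  have hA0 : 0 ≤ A := by
    obtain ⟨e⟩ : Nonempty E := Fintype.card_pos_iff.mp hm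
    exact (ha i e).trans (haA i e)
  have hmono : ∀ e, (H782.cnt p t i e : ℝ) ≤ H782.cnt p T i e := fun e => by
    exact_mod_cast H782.cnt_mono p i e ht
  -- per edge
  have key : ∀ e, a i e * H782.xx p T i e -
      A * (((H782.cnt p T i e : ℝ) - H782.cnt p t i e) / T + H782.cnt p T i e *
        (Fintype.card E / ((T : ℝ) * T))) ≤
      a i e * (((H782.cnt p t i e : ℝ) + 1) / ((t : ℝ) + Fintype.card E)) := by
    intro e
    set c : ℝ := (H782.cnt p T i e : ℝ) with hc
    set d : ℝ := (H782.cnt p t i e : ℝ) with hd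
    have hd0 : 0 ≤ d := by rw [hd]; positivity
    have hcd : d ≤ c := hmono e
    have hxx : H782.xx p T i e = c / T := rfl
    rw [hxx]
    have h1 : d / ((T : ℝ) + Fintype.card E) ≤ (d + 1) / ((t : ℝ) + Fintype.card E) := by
      apply div_le_div₀ (by linarith) (by linarith) (by positivity) (by linarith)
    have h2 : c / T - ((c - d) / T + c * (Fintype.card E / ((T : ℝ) * T))) ≤
        d / ((T : ℝ) + Fintype.card E) := by
      have h3 : c / T - ((c - d) / T + c * (Fintype.card E / ((T : ℝ) * T))) =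
          d / T - c * (Fintype.card E / ((T : ℝ) * T)) := by ring
      have h4 : d / T - d * (Fintype.card E / ((T : ℝ) * T)) ≤ d / ((T : ℝ) + Fintype.card E) := by
        rw [div_sub' hT'.ne', div_le_div_iff₀ hT' (by positivity)]
        have h5 : T * (d * (Fintype.card E / ((T : ℝ) * T))) = d * Fintype.card E / T := by
          field_simp
        rw [h5]
        have h6 : (d - d * Fintype.card E / T) * (T + Fintype.card E) =
            d * T - d * Fintype.card E * Fintype.card E / T := by
          field_simp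
          ring
        rw [h6]
        have : 0 ≤ d * Fintype.card E * Fintype.card E / T := by positivity
        linarith
      have h5 : d * (Fintype.card E / ((T : ℝ) * T)) ≤ c * (Fintype.card E / ((T : ℝ) * T)) :=
        mul_le_mul_of_nonneg_right hcd (by positivity)
      rw [h3]
      linarith
    have h6 := mul_le_mul_of_nonneg_left (h2.trans h1) (ha i e)
    have h7 : a i e * ((c - d) / T + c * (Fintype.card E / ((T : ℝ) * T))) ≤
        A * ((c - d) / T + c * (Fintype.card E / ((T : ℝ) * T))) := by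
      refine mul_le_mul_of_nonneg_right (haA i e) ?_
      have : 0 ≤ (c - d) / T := div_nonneg (by linarith) hT'.le
      have : 0 ≤ c * (Fintype.card E / ((T : ℝ) * T)) := by
        have : 0 ≤ c := hd0.trans hcd
        positivity
      linarith
    rw [mul_sub] at h6
    linarith
  have hsum := Finset.sum_le_sum fun e (_ : e ∈ Finset.univ) => key e
  unfold aq
  refine le_trans ?_ hsum
  rw [Finset.sum_sub_distrib, ← Finset.mul_sum, Finset.sum_add_distrib, ← Finset.sum_div,
    Finset.sum_sub_distrib, ← Finset.sum_mul, H782.sum_cnt_one, H782.sum_cnt_one]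
  have h8 : ((T : ℝ) - t) / T + T * (Fintype.card E / ((T : ℝ) * T)) ≤
      (s + Fintype.card E) / T := by
    have h9 : (T : ℝ) * (Fintype.card E / ((T : ℝ) * T)) = Fintype.card E / T := by
      field_simp
    rw [h9, ← add_div]
    exact div_le_div_of_nonneg_right (by linarith) hT'.le
  have := mul_le_mul_of_nonneg_left h8 hA0
  linarith

theorem prW_mono (a L : ι → E → ℝ) (p : ℕ → ι → E) {t T s : ℕ} (i : ι) (e : E) {A : ℝ}
    (ha : ∀ i e, 0 ≤ a i e) (haA : ∀ i e, a i e ≤ A) (hsT : s < T)
    (ht : t ≤ T) (hts : T ≤ t + s) :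
    prW a L p t i e ≤ prW a L p T i e + A * (s / ((T : ℝ) - s)) := by
  have hE : Nonempty E := ⟨e⟩
  have hm' : (0 : ℝ) < Fintype.card E := by exact_mod_cast Fintype.card_pos
  have ht' : (t : ℝ) ≤ T := by exact_mod_cast ht
  have hts' : (T : ℝ) ≤ t + s := by exact_mod_cast hts
  have hsT' : (s : ℝ) < T := by exact_mod_cast hsT
  have hmono : (H782.cnt p t i e : ℝ) ≤ H782.cnt p T i e := by
    exact_mod_cast H782.cnt_mono p i e ht
  have hA0 : 0 ≤ A := (ha i e).trans (haA i e)
  unfold prW
  have h1 : Real.log (((H782.cnt p t i e : ℝ) + 1) / ((t : ℝ) + Fintype.card E)) ≤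
      Real.log (((H782.cnt p T i e : ℝ) + 1) / ((T : ℝ) + Fintype.card E)) +
        s / ((T : ℝ) - s) := by
    rw [Real.log_div (by positivity) (by positivity), Real.log_div (by positivity) (by positivity)]
    have h2 : Real.log ((H782.cnt p t i e : ℝ) + 1) ≤ Real.log ((H782.cnt p T i e : ℝ) + 1) :=
      Real.log_le_log (by positivity) (by linarith)
    have h3 : Real.log ((T : ℝ) + Fintype.card E) - Real.log ((t : ℝ) + Fintype.card E) ≤
        s / ((T : ℝ) - s) := by
      rw [← Real.log_div (by positivity) (by positivity)]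
      refine (Real.log_le_sub_one_of_pos (by positivity)).trans ?_
      have h4 : ((T : ℝ) + Fintype.card E) / ((t : ℝ) + Fintype.card E) - 1 =
          (T - t) / ((t : ℝ) + Fintype.card E) := by
        field_simp
        ring
      rw [h4]
      exact div_le_div₀ (by positivity) (by linarith) (by linarith) (by linarith)
    linarith
  have h5 := mul_le_mul_of_nonneg_left h1 (ha i e)
  have h6 : a i e * (s / ((T : ℝ) - s)) ≤ A * (s / ((T : ℝ) - s)) :=
    mul_le_mul_of_nonneg_right (haA i e) (div_nonneg (by positivity) (by linarith))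
  rw [mul_add] at h5
  linarith

/-- **A near-greedy run is a solution.** -/
theorem solvedW_of_greedyW {a L : ι → E → ℝ} {PP : Set (ι → E)} {T s : ℕ} {η : ℝ}
    {p : ℕ → ι → E} (hp : GreedyW a L PP T η p) {A : ℝ} (ha : ∀ i e, 0 ≤ a i e)
    (haA : ∀ i e, a i e ≤ A) (hm : 0 < Fintype.card E) (hs : 0 < s) (hsT : s < T)
    (hη : 0 ≤ η) :
    SolvedW PP a L (H782.xx p T) (qs p T)
      (Fintype.card ι * (A * errW (Fintype.card E) T s) + (T / s + 1) * η)
      (Fintype.card ι * (A * (Fintype.card E / T))) := by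
  have hT : 0 < T := by omega
  have hT' : (0 : ℝ) < T := by exact_mod_cast hT
  have hs' : (0 : ℝ) < s := by exact_mod_cast hs
  have hm' : (0 : ℝ) < Fintype.card E := by exact_mod_cast hm
  have hTm : (0 : ℝ) < (T : ℝ) + Fintype.card E := by positivity
  refine ⟨fun i e => H782.xx_nonneg p T i e, fun i => H782.xx_sum p hT i, fun i e => ?_,
    fun i => ?_, ⟨fun _ _ => 1 / (T : ℝ), fun _ _ => by positivity, ?_, fun i e => ?_⟩,
    fun P hP => ?_⟩
  · unfold qs; positivity
  · unfold qs
    rw [← Finset.sum_div, Finset.sum_add_distrib, H782.sum_cnt_one]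
    simp only [Finset.sum_const, Finset.card_univ, nsmul_eq_mul, mul_one]
    rw [div_self hTm.ne']
  · have h1 : ∀ i, ∑ e, a i e * (1 / (T : ℝ)) ≤ A * (Fintype.card E / T) := by
      intro i
      refine (Finset.sum_le_sum fun e _ =>
        mul_le_mul_of_nonneg_right (haA i e) (by positivity)).trans (le_of_eq ?_)
      rw [Finset.sum_const, Finset.card_univ, nsmul_eq_mul]
      ring
    refine (Finset.sum_le_sum fun i _ => h1 i).trans (le_of_eq ?_)
    rw [Finset.sum_const, Finset.card_univ, nsmul_eq_mul]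
  · unfold qs H782.xx
    rw [← add_div]
    exact div_le_div_of_nonneg_left (by positivity) hT' (by linarith)
  · set F := ∑ i, objW a L (H782.xx p T) i with hF
    set M : ℝ := (Fintype.card ι : ℝ) with hM
    set m : ℝ := (Fintype.card E : ℝ) with hmm
    have hM0 : 0 ≤ M := by rw [hM]; positivity
    -- sums of the small terms
    set sm : ℕ → ι → ℝ := fun u i =>
      1 / ((H782.cnt p u i (p u i) : ℝ) + 1) + 1 / ((u : ℝ) + 1) with hsm
    -- window lower bound
    have hwin : ∑ i, phi a L p T i - ∑ i, phi a L p (T - s) i ≤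
        ∑ t ∈ Ico (T - s) T, (∑ i, prW a L p t i (p t i) - ∑ i, aq a p t i + A * ∑ i, sm t i) := by
      have h1 : ∑ i, phi a L p T i - ∑ i, phi a L p (T - s) i =
          ∑ t ∈ Ico (T - s) T, (∑ i, phi a L p (t + 1) i - ∑ i, phi a L p t i) :=
        (Finset.sum_Ico_sub (fun t => ∑ i, phi a L p t i) (Nat.sub_le T s)).symm
      rw [h1]
      refine Finset.sum_le_sum fun t _ => ?_
      have h2 := Finset.sum_le_sum fun i (_ : i ∈ Finset.univ) => phi_step a L p t i ha haA hm
      rw [Finset.sum_sub_distrib, Finset.sum_add_distrib, Finset.sum_sub_distrib,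
        ← Finset.mul_sum] at h2
      exact h2
    have hlow : T * F - M * (A * (m * Real.log ((T : ℝ) + m) + 2 * m)) ≤
        ∑ i, phi a L p T i := by
      have h1 := Finset.sum_le_sum fun i (_ : i ∈ Finset.univ) =>
        phi_final a L p T i ha haA hT hm
      rw [Finset.sum_sub_distrib, ← Finset.mul_sum, Finset.sum_const, Finset.card_univ,
        nsmul_eq_mul] at h1
      exact h1
    have hup := phi_upper hp ha haA hm hT (T - s) (Nat.sub_le T s)
    have hsmall : ∑ i, ∑ u ∈ range T, sm u i ≤ M * ((m + 1) * (1 + Real.log T)) := by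
      refine (Finset.sum_le_sum fun i _ => sum_small p i T).trans (le_of_eq ?_)
      rw [Finset.sum_const, Finset.card_univ, nsmul_eq_mul]
    have hsplit : ∑ i, ∑ u ∈ range (T - s), sm u i + ∑ t ∈ Ico (T - s) T, ∑ i, sm t i =
        ∑ i, ∑ u ∈ range T, sm u i := by
      rw [Finset.sum_comm (s := Ico (T - s) T), ← Finset.sum_add_distrib]
      refine Finset.sum_congr rfl fun i _ => ?_
      exact Finset.sum_range_add_sum_Ico _ (Nat.sub_le T s)
    have hcard : (Ico (T - s) T).card = s := by
      rw [Nat.card_Ico]; omega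
    -- every term of the window
    have hterm : ∑ t ∈ Ico (T - s) T, (∑ i, prW a L p t i (p t i) - ∑ i, aq a p t i) ≤
        s * (∑ i, prW a L p T i (P i) + M * (A * (s / ((T : ℝ) - s))) + η -
          (∑ i, ∑ e, a i e * H782.xx p T i e - M * (A * ((s + m) / T)))) := by
      have h1 : ∀ t ∈ Ico (T - s) T, ∑ i, prW a L p t i (p t i) - ∑ i, aq a p t i ≤
          ∑ i, prW a L p T i (P i) + M * (A * (s / ((T : ℝ) - s))) + η -
          (∑ i, ∑ e, a i e * H782.xx p T i e - M * (A * ((s + m) / T))) := by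
        intro t ht
        rw [Finset.mem_Ico] at ht
        have h2 := hp.min t ht.2 P hP
        have h3 := Finset.sum_le_sum fun i (_ : i ∈ Finset.univ) =>
          prW_mono a L p (t := t) (T := T) (s := s) i (P i) ha haA hsT (by omega) (by omega)
        rw [Finset.sum_add_distrib, Finset.sum_const, Finset.card_univ, nsmul_eq_mul] at h3
        have h4 := Finset.sum_le_sum fun i (_ : i ∈ Finset.univ) =>
          aq_low a p (t := t) (T := T) (s := s) i ha haA hT hm (by omega) (by omega)
        rw [Finset.sum_sub_distrib, Finset.sum_const, Finset.card_univ, nsmul_eq_mul] at h4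
        linarith
      refine (Finset.sum_le_sum h1).trans (le_of_eq ?_)
      rw [Finset.sum_const, hcard, nsmul_eq_mul]
    have hcast : ((T - s : ℕ) : ℝ) = (T : ℝ) - s := by
      rw [Nat.cast_sub hsT.le]
    rw [hcast] at hup
    rw [Finset.sum_add_distrib, ← Finset.mul_sum] at hwin
    have hA0 : 0 ≤ A ∨ M = 0 := by
      rcases isEmpty_or_nonempty ι with hι | ⟨⟨i⟩⟩
      · right; rw [hM, Fintype.card_eq_zero]; simp
      · left
        obtain ⟨e⟩ : Nonempty E := Fintype.card_pos_iff.mp hm
        exact (ha i e).trans (haA i e)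
    have hAsm : A * ∑ i, ∑ u ∈ range T, sm u i ≤ M * (A * ((m + 1) * (1 + Real.log T))) := by
      rcases hA0 with h | h
      · have := mul_le_mul_of_nonneg_left hsmall h
        linarith
      · have hι : IsEmpty ι := by
          rw [hM] at h
          exact Fintype.card_eq_zero_iff.mp (by exact_mod_cast h)
        rw [h]
        simp
    have htotal : s * (F + (∑ i, ∑ e, a i e * H782.xx p T i e)) -
        M * (A * (m * Real.log ((T : ℝ) + m) + 2 * m + (m + 1) * (1 + Real.log T))) -
        M * (A * (s * ((s + m) / T))) - M * (A * (s * (s / ((T : ℝ) - s)))) - (T + s) * η ≤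
        s * ∑ i, prW a L p T i (P i) := by
      have h1 : 0 ≤ (s : ℝ) * η := by positivity
      have e1 : A * ∑ i, ∑ u ∈ range (T - s), sm u i + A * ∑ t ∈ Ico (T - s) T, ∑ i, sm t i =
          A * ∑ i, ∑ u ∈ range T, sm u i := by
        rw [← mul_add, hsplit]
      nlinarith [hwin, hlow, hup, hAsm, hterm, e1]
    -- divide by s
    have hdiv : F + (∑ i, ∑ e, a i e * H782.xx p T i e) - M * (A * errW (Fintype.card E) T s) -
        (T / s + 1) * η ≤ ∑ i, prW a L p T i (P i) := by
      have h1 : s * (F + (∑ i, ∑ e, a i e * H782.xx p T i e) -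
          M * (A * errW (Fintype.card E) T s) - (T / s + 1) * η) =
          s * (F + (∑ i, ∑ e, a i e * H782.xx p T i e)) -
        M * (A * (m * Real.log ((T : ℝ) + m) + 2 * m + (m + 1) * (1 + Real.log T))) -
        M * (A * (s * ((s + m) / T))) - M * (A * (s * (s / ((T : ℝ) - s)))) - (T + s) * η := by
        unfold errW
        rw [← hmm]
        field_simp
        ring
      rw [← h1] at htotal
      exact le_of_mul_le_mul_left htotal hs'
    have hfin : ∑ i, prW a L p T i (P i) = ∑ i, L i (P i) +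
        ∑ i, a i (P i) * Real.log (qs p T i (P i)) := by
      rw [← Finset.sum_add_distrib]
      exact Finset.sum_congr rfl fun i _ => rfl
    have hFx : F + (∑ i, ∑ e, a i e * H782.xx p T i e) =
        ∑ i, ∑ e, L i e * H782.xx p T i e +
          ∑ i, ∑ e, a i e * (H782.xx p T i e * Real.log (H782.xx p T i e)) := by
      rw [hF, ← Finset.sum_add_distrib, ← Finset.sum_add_distrib]
      refine Finset.sum_congr rfl fun i _ => ?_
      unfold objW
      ring
    rw [hfin, hFx] at hdiv
    linarith

/-- Comparison of a pick with a flow. -/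
theorem pick_le_flow {a L : ι → E → ℝ} {PP : Set (ι → E)} {T : ℕ} {η : ℝ} {p : ℕ → ι → E}
    (hp : GreedyW a L PP T η p) (ha : ∀ i e, 0 ≤ a i e) {y : ι → E → ℝ}
    (hy : y ∈ H782.Flow PP) {t : ℕ} (ht : t < T) :
    ∑ i, prW a L p t i (p t i) ≤ ∑ i, objW a L y i + ∑ i, aq a p t i + η := by
  have h4 : ∑ i, prW a L p t i (p t i) - η ≤ ∑ i, ∑ e, y i e * prW a L p t i e :=
    H782.val_ge (A := fun i e => prW a L p t i e) (fun q hq => by
      have := hp.min t ht q hq
      linarith) hy
  have hy0 : ∀ i e, 0 ≤ y i e := fun i e => (H782.flow_stoch hy).1 i e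
  have h5 : ∀ i, ∑ e, y i e * prW a L p t i e ≤ objW a L y i + aq a p t i := by
    intro i
    have h6 := gibbsW (a i) (y i)
      (fun e => ((H782.cnt p t i e : ℝ) + 1) / ((t : ℝ) + Fintype.card E)) (ha i)
      (fun e => hy0 i e) (fun e => by
        have : Nonempty E := ⟨e⟩
        have : (0 : ℝ) < Fintype.card E := by exact_mod_cast Fintype.card_pos
        positivity)
    have h7 : ∑ e, y i e * prW a L p t i e = ∑ e, L i e * y i e +
        ∑ e, y i e * (a i e *
          Real.log (((H782.cnt p t i e : ℝ) + 1) / ((t : ℝ) + Fintype.card E))) := by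
      rw [← Finset.sum_add_distrib]
      refine Finset.sum_congr rfl fun e _ => ?_
      unfold prW
      ring
    rw [h7]
    unfold objW aq
    linarith
  have h8 := Finset.sum_le_sum fun i (_ : i ∈ Finset.univ) => h5 i
  rw [Finset.sum_add_distrib] at h8
  linarith

/-- **Near-minimality** (for the follow-the-regularised-leader form): the objective of the uniform
law on the picks is at most the objective of every flow, up to a small error. -/
theorem greedyW_regret {a L : ι → E → ℝ} {PP : Set (ι → E)} {T : ℕ} {η : ℝ}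
    {p : ℕ → ι → E} (hp : GreedyW a L PP T η p) {A : ℝ} (ha : ∀ i e, 0 ≤ a i e)
    (haA : ∀ i e, a i e ≤ A) (hm : 0 < Fintype.card E) (hT : 0 < T)
    {y : ι → E → ℝ} (hy : y ∈ H782.Flow PP) :
    ∑ i, objW a L (H782.xx p T) i ≤ ∑ i, objW a L y i + η +
      Fintype.card ι * (A * ((Fintype.card E * Real.log ((T : ℝ) + Fintype.card E) +
        2 * Fintype.card E + (Fintype.card E + 1) * (1 + Real.log T)) / T)) := by
  have hT' : (0 : ℝ) < T := by exact_mod_cast hT
  have hup : ∀ t, t ≤ T → ∑ i, phi a L p t i ≤ t * (∑ i, objW a L y i + η) +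
      A * ∑ i, ∑ u ∈ range t, (1 / ((H782.cnt p u i (p u i) : ℝ) + 1) + 1 / ((u : ℝ) + 1)) := by
    intro t ht
    induction t with
    | zero =>
      simp only [Nat.cast_zero, zero_mul, Finset.range_zero, Finset.sum_empty,
        Finset.sum_const_zero, mul_zero, add_zero]
      exact Finset.sum_nonpos fun i _ => phi_zero a L p i ha hm
    | succ t ih =>
      have h1 := ih (by omega)
      have h2 := Finset.sum_le_sum fun i (_ : i ∈ Finset.univ) => phi_step a L p t i ha haA hm
      rw [Finset.sum_sub_distrib, Finset.sum_add_distrib, Finset.sum_sub_distrib,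
        ← Finset.mul_sum] at h2
      have h3 := pick_le_flow hp ha hy (t := t) (by omega)
      simp only [Finset.sum_range_succ]
      rw [Finset.sum_add_distrib (f := fun i => ∑ u ∈ range t, _), mul_add]
      push_cast
      linarith
  have h1 := Finset.sum_le_sum fun i (_ : i ∈ Finset.univ) =>
    phi_final a L p T i ha haA hT hm
  rw [Finset.sum_sub_distrib, ← Finset.mul_sum, Finset.sum_const, Finset.card_univ,
    nsmul_eq_mul] at h1
  have h2 := hup T le_rfl
  have hsmall : ∑ i, ∑ u ∈ range T,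
      (1 / ((H782.cnt p u i (p u i) : ℝ) + 1) + 1 / ((u : ℝ) + 1)) ≤
      Fintype.card ι * ((Fintype.card E + 1) * (1 + Real.log T)) := by
    refine (Finset.sum_le_sum fun i _ => sum_small p i T).trans (le_of_eq ?_)
    rw [Finset.sum_const, Finset.card_univ, nsmul_eq_mul]
  have hAsm : A * ∑ i, ∑ u ∈ range T,
      (1 / ((H782.cnt p u i (p u i) : ℝ) + 1) + 1 / ((u : ℝ) + 1)) ≤
      Fintype.card ι * (A * ((Fintype.card E + 1) * (1 + Real.log T))) := by
    rcases isEmpty_or_nonempty ι with hι | ⟨⟨i⟩⟩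
    · simp
    · obtain ⟨e⟩ : Nonempty E := Fintype.card_pos_iff.mp hm
      have := mul_le_mul_of_nonneg_left hsmall ((ha i e).trans (haA i e))
      linarith
  have h3 : T * ∑ i, objW a L (H782.xx p T) i ≤ T * (∑ i, objW a L y i + η +
      Fintype.card ι * (A * ((Fintype.card E * Real.log ((T : ℝ) + Fintype.card E) +
        2 * Fintype.card E + (Fintype.card E + 1) * (1 + Real.log T)) / T))) := by
    have h4 : T * (∑ i, objW a L y i + η +
      Fintype.card ι * (A * ((Fintype.card E * Real.log ((T : ℝ) + Fintype.card E) +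
        2 * Fintype.card E + (Fintype.card E + 1) * (1 + Real.log T)) / T))) =
        T * (∑ i, objW a L y i + η) + Fintype.card ι * (A * (Fintype.card E *
          Real.log ((T : ℝ) + Fintype.card E) + 2 * Fintype.card E)) +
        Fintype.card ι * (A * ((Fintype.card E + 1) * (1 + Real.log T))) := by
      field_simp
      ring
    rw [h4]
    have h5 : ∑ i, objW a L (H782.xx p T) i = ∑ i, (∑ e, L i e * H782.xx p T i e +
        ∑ e, a i e * (H782.xx p T i e * Real.log (H782.xx p T i e)) -
          ∑ e, a i e * H782.xx p T i e) := rfl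
    rw [h5]
    linarith
  exact le_of_mul_le_mul_left h3 hT'

end

end Vale.Agent.P315.H763
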