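import Vale.Agent.P315.H763.SolverPT
import Vale.Agent.P315.H763.GreedyW

/-! P315 (helper763): weighted greedy solver as a pure list function, its polynomial time proof,
and the proof that it is a near-greedy run (`GreedyW`). -/

set_option autoImplicit false

namespace Vale.Agent.P315.H763

open Finset

/-! ### The integer table of logarithms -/

theorem harm_low' {S : ℕ} (hS : 0 < S) (j : ℕ) :
    (harmonic j : ℝ) - j / S ≤ H782.harm S j := by
  have hS' : (0 : ℝ) < S := by positivity
  unfold H782.harm H782.harmN harmonic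
  push_cast
  rw [Finset.sum_div]
  have h0 : (j : ℝ) / S = ∑ _k ∈ range j, (1 : ℝ) / S := by
    rw [Finset.sum_const, Finset.card_range, nsmul_eq_mul]
    ring
  rw [h0, ← Finset.sum_sub_distrib]
  refine Finset.sum_le_sum fun k _ => ?_
  have h2 : S < (S / (k + 1) + 1) * (k + 1) := by
    have := Nat.lt_div_mul_add (a := S) (b := k + 1) (Nat.succ_pos k)
    nlinarith
  have h3 : (S : ℝ) < (((S / (k + 1) : ℕ) : ℝ) + 1) * ((k : ℝ) + 1) := by
    exact_mod_cast h2
  have hk : (0 : ℝ) < (k : ℝ) + 1 := by positivity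
  rw [sub_le_iff_le_add, ← add_div, le_div_iff₀ hS', inv_mul_le_iff₀ hk]
  linarith

/-- `harm S (N R - 1)` is `log N + log R + γ` up to `1/R + N R / S`. -/
theorem harm_log {S R N : ℕ} (hS : 0 < S) (hR : 0 < R) (hN : 0 < N) :
    |H782.harm S (N * R - 1) - (Real.log N + (Real.log R + Real.eulerMascheroniConstant))| ≤
      1 / R + N * R / S := by
  have hS' : (0 : ℝ) < S := by positivity
  have hR' : (0 : ℝ) < R := by positivity
  have hN' : (1 : ℝ) ≤ N := by exact_mod_cast hN
  have hNR : 0 < N * R := Nat.mul_pos hN hR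
  have hlog : Real.log ((N : ℝ) * R) = Real.log N + Real.log R :=
    Real.log_mul (by positivity) hR'.ne'
  have hc : ((N * R - 1 : ℕ) : ℝ) + 1 = (N : ℝ) * R := by
    rw [Nat.cast_sub hNR]; push_cast; ring
  have h1 := H782.harm_up hS (N * R - 1)
  rw [hc, hlog] at h1
  have h2 := harm_low' hS (N * R - 1)
  have h3 : Real.log ((N : ℝ) * R) + Real.eulerMascheroniConstant ≤
      (harmonic (N * R - 1) : ℝ) + 1 / R := by
    have h4 := Real.eulerMascheroniConstant_lt_eulerMascheroniSeq' (N * R)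
    unfold Real.eulerMascheroniSeq' at h4
    rw [if_neg hNR.ne'] at h4
    have h5 : (harmonic (N * R) : ℝ) = (harmonic (N * R - 1) : ℝ) + 1 / ((N : ℝ) * R) := by
      have h6 : N * R = (N * R - 1) + 1 := by omega
      conv_lhs => rw [h6, harmonic_succ]
      push_cast
      rw [hc, one_div]
    have h7 : 1 / ((N : ℝ) * R) ≤ 1 / R :=
      one_div_le_one_div_of_le hR' (by nlinarith)
    rw [h5] at h4
    push_cast at h4
    linarith
  have h4 : ((N * R - 1 : ℕ) : ℝ) / S ≤ N * R / S :=
    div_le_div_of_nonneg_right (by linarith) hS'.le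
  rw [hlog] at h3
  have h5 : (0 : ℝ) ≤ 1 / R + N * R / S := by positivity
  rw [abs_le]
  constructor <;> linarith

/-! ### The pure function -/

/-- Weights of the next pick, with edge weights `W ≤ Am`. -/
def wtsW (S Q R Am : ℕ) (Li W : List (List (List ℕ))) (ps : List (List ℕ)) :
    List (List (List ℕ)) :=
  (List.range Li.length).map fun i => (List.range (nn Li)).map fun u =>
    (List.range (nn Li)).map fun v => ent3 Li i u v +
      Q * (ent3 W i u v * harmL S ((cntL ps i u v + 1) * R - 1) +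
        (Am - ent3 W i u v) * harmL S ((ps.length + nn Li * nn Li) * R - 1))

/-- One more pick. -/
def pickStepW (S Q R Am s t : ℕ) (Li W : List (List (List ℕ))) (ps : List (List ℕ)) :
    List (List ℕ) :=
  ps ++ [sp s t (wtsW S Q R Am Li W ps)]

/-- `T` greedy picks with weights. -/
def picksW (S Q R Am s t T : ℕ) (Li W : List (List (List ℕ))) : List (List ℕ) :=
  (pickStepW S Q R Am s t Li W)^[T] []

theorem picksW_succ (S Q R Am s t T : ℕ) (Li W : List (List (List ℕ))) :
    picksW S Q R Am s t (T + 1) Li W = picksW S Q R Am s t T Li W ++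
      [sp s t (wtsW S Q R Am Li W (picksW S Q R Am s t T Li W))] := by
  unfold picksW
  rw [Function.iterate_succ_apply']
  rfl

theorem picksW_length (S Q R Am s t T : ℕ) (Li W : List (List (List ℕ))) :
    (picksW S Q R Am s t T Li W).length = T := by
  induction T with
  | zero => rfl
  | succ T ih => rw [picksW_succ, List.length_append, ih]; rfl

theorem picksW_take (S Q R Am s t : ℕ) (Li W : List (List (List ℕ))) {j T : ℕ} (h : j ≤ T) :
    (picksW S Q R Am s t T Li W).take j = picksW S Q R Am s t j Li W := by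
  induction T with
  | zero =>
    obtain rfl : j = 0 := by omega
    rfl
  | succ T ih =>
    rcases Nat.lt_or_ge j (T + 1) with h1 | h1
    · rw [picksW_succ, List.take_append_of_le_length (by rw [picksW_length]; omega),
        ih (by omega)]
    · obtain rfl : j = T + 1 := by omega
      rw [List.take_of_length_le (by rw [picksW_length])]

theorem picksW_getD (S Q R Am s t : ℕ) (Li W : List (List (List ℕ))) {j T : ℕ} (h : j < T) :
    (picksW S Q R Am s t T Li W).getD j [] =
      sp s t (wtsW S Q R Am Li W (picksW S Q R Am s t j Li W)) := by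
  induction T with
  | zero => omega
  | succ T ih =>
    rw [picksW_succ]
    rcases Nat.lt_or_ge j T with h1 | h1
    · rw [List.getD_append _ _ _ _ (by rw [picksW_length]; omega), ih h1]
    · obtain rfl : j = T := by omega
      rw [List.getD_append_right _ _ _ _ (by rw [picksW_length]), picksW_length]
      simp

theorem wtsW_length (S Q R Am : ℕ) (Li W : List (List (List ℕ))) (ps : List (List ℕ)) :
    (wtsW S Q R Am Li W ps).length = Li.length := by simp [wtsW]

theorem nn_wtsW (S Q R Am : ℕ) (Li W : List (List (List ℕ))) (hL : Li ≠ [])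
    (ps : List (List ℕ)) : nn (wtsW S Q R Am Li W ps) = nn Li := by
  have h : 0 < Li.length := List.length_pos_iff.mpr hL
  have h1 : (wtsW S Q R Am Li W ps).headD [] = (wtsW S Q R Am Li W ps).getD 0 [] := by
    cases (wtsW S Q R Am Li W ps) <;> rfl
  unfold nn at h1 ⊢
  rw [h1]
  unfold wtsW
  rw [getD_map_range _ _ _ h]
  simp [nn]

theorem nn_wtsW_le (S Q R Am : ℕ) (Li W : List (List (List ℕ))) (ps : List (List ℕ)) :
    nn (wtsW S Q R Am Li W ps) ≤ nn Li := by
  rcases eq_or_ne Li [] with rfl | h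
  · exact le_rfl
  · rw [nn_wtsW _ _ _ _ _ _ h]

theorem ent3_wtsW (S Q R Am : ℕ) (Li W : List (List (List ℕ))) (ps : List (List ℕ)) {i u v : ℕ}
    (hi : i < Li.length) (hu : u < nn Li) (hv : v < nn Li) :
    ent3 (wtsW S Q R Am Li W ps) i u v = ent3 Li i u v +
      Q * (ent3 W i u v * harmL S ((cntL ps i u v + 1) * R - 1) +
        (Am - ent3 W i u v) * harmL S ((ps.length + nn Li * nn Li) * R - 1)) := by
  unfold ent3 wtsW ent2
  rw [getD_map_range _ _ _ hi, getD_map_range _ _ _ hu, getD_map_range _ _ _ hv]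
  rfl

/-- Integer price in pick number `j`. -/
def ipr (S Q R Am : ℕ) (Li W : List (List (List ℕ))) (ps : List (List ℕ)) (i u v : ℕ) : ℕ :=
  ent3 Li i u v + Q * (ent3 W i u v * harmL S ((cntL ps i u v + 1) * R - 1) +
    (Am - ent3 W i u v) * harmL S ((ps.length + nn Li * nn Li) * R - 1))

theorem picksW_spec (S Q R Am s t T : ℕ) (Li W : List (List (List ℕ))) (hL : Li ≠ [])
    (hs : s < nn Li) (ht : t < nn Li) {j : ℕ} (hj : j < T) :
    ∃ f : ℕ → ℕ, (picksW S Q R Am s t T Li W).getD j [] = (List.range (Li.length + 1)).map f ∧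
      f 0 = s ∧ f Li.length = t ∧ (∀ i, i ≤ Li.length → f i < nn Li) ∧
      ∀ g : ℕ → ℕ, g 0 = s → g Li.length = t → (∀ i, i ≤ Li.length → g i < nn Li) →
        ∑ i ∈ Finset.range Li.length, ipr S Q R Am Li W
          ((picksW S Q R Am s t T Li W).take j) i (f i) (f (i + 1)) ≤
        ∑ i ∈ Finset.range Li.length, ipr S Q R Am Li W
          ((picksW S Q R Am s t T Li W).take j) i (g i) (g (i + 1)) := by
  rw [picksW_getD S Q R Am s t Li W hj, picksW_take S Q R Am s t Li W hj.le]
  set ps := picksW S Q R Am s t j Li W with hps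
  have hw : wtsW S Q R Am Li W ps ≠ [] := by
    intro h
    have := wtsW_length S Q R Am Li W ps
    rw [h] at this
    exact hL (List.length_eq_zero_iff.mp this.symm)
  obtain ⟨f, hf, f0, fm, fj, hmin⟩ := sp_spec s t (wtsW S Q R Am Li W ps) hw
    (by rw [nn_wtsW _ _ _ _ _ _ hL]; exact ht)
  rw [wtsW_length] at hf fm fj hmin
  rw [nn_wtsW _ _ _ _ _ _ hL] at fj hmin
  have hfall : ∀ i, i ≤ Li.length → f i < nn Li := by
    intro i hi
    rcases Nat.eq_zero_or_pos i with rfl | h0
    · rw [f0]; exact hs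
    rcases Nat.lt_or_ge i Li.length with h1 | h1
    · exact fj i h0 h1
    · obtain rfl : i = Li.length := by omega
      rw [fm]; exact ht
  have hcost : ∀ g : ℕ → ℕ, (∀ i, i ≤ Li.length → g i < nn Li) →
      cost (wtsW S Q R Am Li W ps) g Li.length =
        ∑ i ∈ Finset.range Li.length, ipr S Q R Am Li W ps i (g i) (g (i + 1)) := by
    intro g hg
    unfold cost
    refine Finset.sum_congr rfl fun i hi => ?_
    have := Finset.mem_range.mp hi
    exact ent3_wtsW _ _ _ _ _ _ _ this (hg _ (by omega)) (hg _ (by omega))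
  refine ⟨f, hf, f0, fm, hfall, fun g g0 gm gj => ?_⟩
  rw [← hcost f hfall, ← hcost g gj]
  exact hmin g g0 gm fun i _ h2 => gj i (by omega)

/-- The counts of the stored paths. -/
theorem cntW_eq (S Q R Am s t T : ℕ) (Li W : List (List (List ℕ))) (hL : Li ≠ [])
    (hs : s < nn Li) (ht : t < nn Li) (hp0 : 0 < nn Li) (j : ℕ) (hj : j ≤ T)
    (i : Fin Li.length) (e : Fin (nn Li) × Fin (nn Li)) :
    H782.cnt (fun j => edge Li.length (nn Li) hp0 ((picksW S Q R Am s t T Li W).getD j [])) j i e =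
      cntL ((picksW S Q R Am s t T Li W).take j) i e.1 e.2 := by
  induction j with
  | zero => simp [H782.cnt_zero, cntL]
  | succ j ih =>
    rw [H782.cnt_succ, ih (by omega)]
    have h1 : (picksW S Q R Am s t T Li W).take (j + 1) =
        (picksW S Q R Am s t T Li W).take j ++ [(picksW S Q R Am s t T Li W).getD j []] := by
      have hl : j < (picksW S Q R Am s t T Li W).length := by rw [picksW_length]; omega
      rw [List.take_succ_eq_append_getElem hl, List.getD_eq_getElem _ _ hl]
    rw [h1, cntL_append]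
    congr 1
    obtain ⟨f, hf, f0, fm, fj, -⟩ := picksW_spec S Q R Am s t T Li W hL hs ht (j := j) (by omega)
    have hi := i.2
    rw [hf]
    simp only [edge_eq hp0 fj i e]
    rw [getD_map_range' _ _ (by omega), getD_map_range' _ _ (by omega)]

/-- Comparison of the integer price and the real price of a path. -/
theorem ipr_real {S Q R Am : ℕ} (hS : 0 < S) (hQ : 0 < Q) (hR : 0 < R) (T : ℕ)
    (Li W : List (List (List ℕ)))
    (hW : ∀ i < Li.length, ∀ u < nn Li, ∀ v < nn Li, ent3 W i u v ≤ Am)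
    (ps : List (List ℕ)) (hps : ps.length ≤ T) (pp : ℕ → Fin Li.length → Fin (nn Li) × Fin (nn Li))
    (hp0 : 0 < nn Li)
    (hcnt : ∀ i e, H782.cnt pp ps.length i e = cntL ps i e.1 e.2)
    (q : Fin Li.length → Fin (nn Li) × Fin (nn Li)) :
    |(∑ i : Fin Li.length, (ipr S Q R Am Li W ps i (q i).1 (q i).2 : ℝ)) / (S * Q) -
      (∑ i, prW (fun (i : Fin Li.length) (e : Fin (nn Li) × Fin (nn Li)) =>
          (ent3 W i e.1 e.2 : ℝ)) (fun i e => (ent3 Li i e.1 e.2 : ℝ) / (S * Q))
        pp ps.length i (q i) + Li.length * (Am * (Real.log ((ps.length : ℝ) + nn Li * nn Li) +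
          (Real.log R + Real.eulerMascheroniConstant))))| ≤
      Li.length * (Am * (1 / R + (T + nn Li * nn Li) * R / S)) := by
  have hS' : (0 : ℝ) < S := by exact_mod_cast hS
  have hQ' : (0 : ℝ) < Q := by exact_mod_cast hQ
  have hR' : (0 : ℝ) < R := by exact_mod_cast hR
  have hcard : Fintype.card (Fin (nn Li) × Fin (nn Li)) = nn Li * nn Li := by
    rw [Fintype.card_prod, Fintype.card_fin]
  set G : ℝ := Real.log R + Real.eulerMascheroniConstant with hG
  set ε : ℝ := 1 / R + (T + nn Li * nn Li) * R / S with hε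
  have hn1 : 0 < ps.length + nn Li * nn Li := by
    have := Nat.mul_pos hp0 hp0
    omega
  -- one row
  have key : ∀ i : Fin Li.length,
      |(ipr S Q R Am Li W ps i (q i).1 (q i).2 : ℝ) / (S * Q) -
        (prW (fun (i : Fin Li.length) (e : Fin (nn Li) × Fin (nn Li)) =>
          (ent3 W i e.1 e.2 : ℝ)) (fun i e => (ent3 Li i e.1 e.2 : ℝ) / (S * Q))
        pp ps.length i (q i) + Am * (Real.log ((ps.length : ℝ) + nn Li * nn Li) + G))| ≤
      Am * ε := by
    intro i
    set w : ℕ := ent3 W i (q i).1 (q i).2 with hw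
    set c : ℕ := cntL ps i (q i).1 (q i).2 with hc
    have hwA : w ≤ Am := hW i i.2 _ (q i).1.2 _ (q i).2.2
    have hcl : c ≤ ps.length := by rw [hc]; exact List.length_filter_le _ _
    have h1 := harm_log (N := c + 1) hS hR (Nat.succ_pos c)
    have h2 := harm_log (N := ps.length + nn Li * nn Li) hS hR hn1
    have e1 : (1 : ℝ) / R + ((c + 1 : ℕ) : ℝ) * R / S ≤ ε := by
      rw [hε]
      have h3 : ((c + 1 : ℕ) : ℝ) ≤ (T : ℝ) + nn Li * nn Li := by
        have : c + 1 ≤ T + nn Li * nn Li := by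
          have := Nat.mul_pos hp0 hp0
          omega
        exact_mod_cast this
      have : ((c + 1 : ℕ) : ℝ) * R / S ≤ (T + nn Li * nn Li) * R / S := by gcongr
      linarith
    have e2 : (1 : ℝ) / R + ((ps.length + nn Li * nn Li : ℕ) : ℝ) * R / S ≤ ε := by
      rw [hε]
      have h3 : ((ps.length + nn Li * nn Li : ℕ) : ℝ) ≤ (T : ℝ) + nn Li * nn Li := by
        exact_mod_cast Nat.add_le_add_right hps _
      have : ((ps.length + nn Li * nn Li : ℕ) : ℝ) * R / S ≤ (T + nn Li * nn Li) * R / S := by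
        gcongr
      linarith
    have h1' := h1.trans e1
    have h2' := h2.trans e2
    -- unfold the price
    have h3 : (ipr S Q R Am Li W ps i (q i).1 (q i).2 : ℝ) / (S * Q) =
        (ent3 Li i (q i).1 (q i).2 : ℝ) / (S * Q) + w * H782.harm S ((c + 1) * R - 1) +
          ((Am : ℝ) - w) * H782.harm S ((ps.length + nn Li * nn Li) * R - 1) := by
      unfold ipr H782.harm
      rw [← hw, ← hc, harmL_eq, harmL_eq]
      push_cast
      rw [Nat.cast_sub hwA]
      field_simp
      ring
    have h4 : prW (fun (i : Fin Li.length) (e : Fin (nn Li) × Fin (nn Li)) =>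
          (ent3 W i e.1 e.2 : ℝ))
        (fun i e => (ent3 Li i e.1 e.2 : ℝ) / (S * Q)) pp ps.length i (q i) =
        (ent3 Li i (q i).1 (q i).2 : ℝ) / (S * Q) +
          w * (Real.log ((c + 1 : ℕ) : ℝ) - Real.log ((ps.length : ℝ) + nn Li * nn Li)) := by
      unfold prW
      rw [hcnt, hcard]
      simp only
      rw [← hw, ← hc, Real.log_div (by positivity) (by
        have : (0 : ℝ) < ((ps.length + nn Li * nn Li : ℕ) : ℝ) := by exact_mod_cast hn1
        push_cast at this ⊢
        exact this.ne')]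
      push_cast
      ring
    rw [h3, h4]
    have h5 : ((ps.length + nn Li * nn Li : ℕ) : ℝ) = (ps.length : ℝ) + nn Li * nn Li := by
      push_cast; ring
    rw [h5] at h2'
    have hw0 : (0 : ℝ) ≤ w := by positivity
    have hwA' : (0 : ℝ) ≤ (Am : ℝ) - w := by
      have : (w : ℝ) ≤ Am := by exact_mod_cast hwA
      linarith
    have h6 : (ent3 Li i (q i).1 (q i).2 : ℝ) / (S * Q) + w * H782.harm S ((c + 1) * R - 1) +
          ((Am : ℝ) - w) * H782.harm S ((ps.length + nn Li * nn Li) * R - 1) -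
        ((ent3 Li i (q i).1 (q i).2 : ℝ) / (S * Q) +
          w * (Real.log ((c + 1 : ℕ) : ℝ) - Real.log ((ps.length : ℝ) + nn Li * nn Li)) +
          Am * (Real.log ((ps.length : ℝ) + nn Li * nn Li) + G)) =
        w * (H782.harm S ((c + 1) * R - 1) - (Real.log ((c + 1 : ℕ) : ℝ) + G)) +
        ((Am : ℝ) - w) * (H782.harm S ((ps.length + nn Li * nn Li) * R - 1) -
          (Real.log ((ps.length : ℝ) + nn Li * nn Li) + G)) := by ring
    rw [h6]
    refine (abs_add_le _ _).trans ?_
    rw [abs_mul, abs_mul, abs_of_nonneg hw0, abs_of_nonneg hwA']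
    have h7 := mul_le_mul_of_nonneg_left h1' hw0
    have h8 := mul_le_mul_of_nonneg_left h2' hwA'
    linarith
  -- sum of the rows
  have hconst : (Li.length : ℝ) * (Am * (Real.log ((ps.length : ℝ) + nn Li * nn Li) + G)) =
      ∑ _i : Fin Li.length, Am * (Real.log ((ps.length : ℝ) + nn Li * nn Li) + G) := by
    rw [Finset.sum_const, Finset.card_univ, Fintype.card_fin, nsmul_eq_mul]
  rw [hconst, ← Finset.sum_add_distrib, Finset.sum_div, ← Finset.sum_sub_distrib]
  refine (Finset.abs_sum_le_sum_abs _ _).trans ?_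
  refine (Finset.sum_le_sum fun i _ => key i).trans (le_of_eq ?_)
  rw [Finset.sum_const, Finset.card_univ, Fintype.card_fin, nsmul_eq_mul]

/-- **The weighted list solver is a near-greedy run.** -/
theorem picksW_greedyW {S Q R Am : ℕ} (hS : 0 < S) (hQ : 0 < Q) (hR : 0 < R) (s t T : ℕ)
    (Li W : List (List (List ℕ))) (hL : Li ≠ []) (hs : s < nn Li) (ht : t < nn Li)
    (hW : ∀ i < Li.length, ∀ u < nn Li, ∀ v < nn Li, ent3 W i u v ≤ Am) :
    GreedyW (fun (i : Fin Li.length) (e : Fin (nn Li) × Fin (nn Li)) => (ent3 W i e.1 e.2 : ℝ))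
      (fun i e => (ent3 Li i e.1 e.2 : ℝ) / (S * Q)) (paths Li.length (nn Li) s t) T
      (2 * (Li.length * (Am * (1 / R + (T + nn Li * nn Li) * R / S))))
      (fun j => edge Li.length (nn Li) (by omega) ((picksW S Q R Am s t T Li W).getD j [])) := by
  have hp0 : 0 < nn Li := by omega
  have hS' : (0 : ℝ) < S := by exact_mod_cast hS
  have hQ' : (0 : ℝ) < Q := by exact_mod_cast hQ
  refine ⟨fun j hj => ?_, fun j hj q hq => ?_⟩
  · obtain ⟨f, hf, f0, fm, fj, -⟩ := picksW_spec S Q R Am s t T Li W hL hs ht hj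
    refine ⟨f, f0, fm, fun i => ?_⟩
    have h := (edge_eq hp0 fj i (edge Li.length (nn Li) hp0
      ((picksW S Q R Am s t T Li W).getD j []) i)).mp (by rw [hf])
    exact ⟨h.1.symm, h.2.symm⟩
  · obtain ⟨f, hf, f0, fm, fj, hmin⟩ := picksW_spec S Q R Am s t T Li W hL hs ht hj
    obtain ⟨g, g0, gm, hg⟩ := hq
    have hgj : ∀ i, i ≤ Li.length → g i < nn Li := by
      intro i hi
      rcases Nat.eq_zero_or_pos i with rfl | h0
      · rw [g0]; exact hs
      · obtain ⟨k, rfl⟩ : ∃ k, i = k + 1 := ⟨i - 1, by omega⟩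
        have := (hg ⟨k, by omega⟩).2
        simp only at this
        rw [← this]; exact Fin.is_lt _
    have h := hmin g g0 gm hgj
    have h1 : ∀ i : Fin Li.length,
        (edge Li.length (nn Li) hp0 ((picksW S Q R Am s t T Li W).getD j []) i).1.val = f i ∧
        (edge Li.length (nn Li) hp0 ((picksW S Q R Am s t T Li W).getD j []) i).2.val =
          f (i + 1) := by
      intro i
      have h := (edge_eq hp0 fj i (edge Li.length (nn Li) hp0
        ((picksW S Q R Am s t T Li W).getD j []) i)).mp (by rw [hf])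
      exact ⟨h.1.symm, h.2.symm⟩
    set ps := (picksW S Q R Am s t T Li W).take j with hps
    have hpl : ps.length = j := by
      rw [hps, List.length_take, picksW_length]; omega
    rw [← Fin.sum_univ_eq_sum_range (fun i => ipr S Q R Am Li W ps i (f i) (f (i + 1))),
      ← Fin.sum_univ_eq_sum_range (fun i => ipr S Q R Am Li W ps i (g i) (g (i + 1)))] at h
    have h2 : (∑ i : Fin Li.length, (ipr S Q R Am Li W ps i (f i) (f (i + 1)) : ℝ)) ≤
        ∑ i : Fin Li.length, (ipr S Q R Am Li W ps i (g i) (g (i + 1)) : ℝ) := by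
      exact_mod_cast h
    have hcnt : ∀ (i : Fin Li.length) (e : Fin (nn Li) × Fin (nn Li)),
        H782.cnt (fun j => edge Li.length (nn Li) hp0
          ((picksW S Q R Am s t T Li W).getD j [])) ps.length i e = cntL ps i e.1 e.2 := by
      intro i e
      rw [hpl]
      exact cntW_eq S Q R Am s t T Li W hL hs ht hp0 j hj.le i e
    have a1 := ipr_real hS hQ hR T Li W hW ps (by omega) _ hp0 hcnt
      (edge Li.length (nn Li) hp0 ((picksW S Q R Am s t T Li W).getD j []))
    have a2 := ipr_real hS hQ hR T Li W hW ps (by omega) _ hp0 hcnt q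
    have b1 : (∑ i : Fin Li.length, (ipr S Q R Am Li W ps i
        (edge Li.length (nn Li) hp0 ((picksW S Q R Am s t T Li W).getD j []) i).1
        (edge Li.length (nn Li) hp0 ((picksW S Q R Am s t T Li W).getD j []) i).2 : ℝ)) =
        ∑ i : Fin Li.length, (ipr S Q R Am Li W ps i (f i) (f (i + 1)) : ℝ) :=
      Finset.sum_congr rfl fun i _ => by rw [(h1 i).1, (h1 i).2]
    have b2 : (∑ i : Fin Li.length, (ipr S Q R Am Li W ps i (q i).1 (q i).2 : ℝ)) =
        ∑ i : Fin Li.length, (ipr S Q R Am Li W ps i (g i) (g (i + 1)) : ℝ) :=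
      Finset.sum_congr rfl fun i _ => by rw [(hg i).1, (hg i).2]
    rw [b1, hpl] at a1
    rw [b2, hpl] at a2
    have h3 := div_le_div_of_nonneg_right h2 (mul_pos hS' hQ').le
    rw [abs_le] at a1 a2
    linarith [a1.1, a2.2, h3]

/-! ### Polynomial time -/

section pt

open Vale.Agent.Lib.PolyTime

variable {A : Set Word} {α : Type*} [Enc α]

theorem pt_wtsW {S Q R Am : α → ℕ} {Li W : α → List (List (List ℕ))} {ps : α → List (List ℕ)}
    (hS : PT A S) (hQ : PT A Q) (hR : PT A R) (hRb : PBd R) (hAm : PT A Am) (hL : PT A Li)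
    (hW : PT A W) (hp : PT A ps) :
    PT A (fun a => wtsW (S a) (Q a) (R a) (Am a) (Li a) (W a) (ps a)) := by
  have hn := pt_nn hL
  have hnb := pbd_nn hL
  have hnorm : PT A (fun a => harmL (S a) (((ps a).length + nn (Li a) * nn (Li a)) * R a - 1)) := by
    refine pt_harmL hS (PT.sub ((hp.length.add (hn.mul hn)).mul hR) (PT.const 1)) ?_
    have h1 := PBd.length hp
    have h2 : PBd (fun a => ((ps a).length + nn (Li a) * nn (Li a)) * R a) := by fun_prop
    exact h2.mono fun a => Nat.sub_le _ _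
  refine PT.map (f := fun a i => (List.range (nn (Li a))).map fun u =>
    (List.range (nn (Li a))).map fun v =>
      ent3 (Li a) i u v + Q a * (ent3 (W a) i u v * harmL (S a) ((cntL (ps a) i u v + 1) * R a - 1) +
        (Am a - ent3 (W a) i u v) *
          harmL (S a) (((ps a).length + nn (Li a) * nn (Li a)) * R a - 1)))
    (PT.range hL.length (PBd.length hL)) ?_
  refine PT.map (f := fun (q : α × ℕ) u => (List.range (nn (Li q.1))).map fun v =>
      ent3 (Li q.1) q.2 u v + Q q.1 * (ent3 (W q.1) q.2 u v *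
        harmL (S q.1) ((cntL (ps q.1) q.2 u v + 1) * R q.1 - 1) +
        (Am q.1 - ent3 (W q.1) q.2 u v) *
          harmL (S q.1) (((ps q.1).length + nn (Li q.1) * nn (Li q.1)) * R q.1 - 1)))
    ((PT.range hn hnb).comp PT.fst') ?_
  refine PT.map (f := fun (q : (α × ℕ) × ℕ) v =>
      ent3 (Li q.1.1) q.1.2 q.2 v + Q q.1.1 * (ent3 (W q.1.1) q.1.2 q.2 v *
        harmL (S q.1.1) ((cntL (ps q.1.1) q.1.2 q.2 v + 1) * R q.1.1 - 1) +
        (Am q.1.1 - ent3 (W q.1.1) q.1.2 q.2 v) *
          harmL (S q.1.1) (((ps q.1.1).length + nn (Li q.1.1) * nn (Li q.1.1)) * R q.1.1 - 1)))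
    ((PT.range hn hnb).comp PT.fst'.fst) ?_
  have e1 : PT A (fun q : ((α × ℕ) × ℕ) × ℕ => q.1.1.1) := PT.fst'.fst.fst
  have e2 : PT A (fun q : ((α × ℕ) × ℕ) × ℕ => q.1.1.2) := PT.fst'.fst.snd
  have e3 : PT A (fun q : ((α × ℕ) × ℕ) × ℕ => q.1.2) := PT.fst'.snd
  have e4 : PT A (fun q : ((α × ℕ) × ℕ) × ℕ => q.2) := PT.snd'
  have hW' := pt_ent3 (hW.comp e1) e2 e3 e4
  have hc := pt_cntL (hp.comp e1) e2 e3 e4
  have hcb := pbd_cntL (fun q : ((α × ℕ) × ℕ) × ℕ => q.1.1.2) (fun q => q.1.2) (fun q => q.2)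
    (hp.comp e1)
  have hRb' : PBd (fun q : ((α × ℕ) × ℕ) × ℕ => R q.1.1.1) := hRb.comp e1
  have hh : PT A (fun q : ((α × ℕ) × ℕ) × ℕ =>
      harmL (S q.1.1.1) ((cntL (ps q.1.1.1) q.1.1.2 q.1.2 q.2 + 1) * R q.1.1.1 - 1)) := by
    refine pt_harmL (hS.comp e1) (PT.sub ((hc.add (PT.const 1)).mul (hR.comp e1)) (PT.const 1)) ?_
    have h2 : PBd (fun q : ((α × ℕ) × ℕ) × ℕ =>
        (cntL (ps q.1.1.1) q.1.1.2 q.1.2 q.2 + 1) * R q.1.1.1) :=
      (hcb.add (PBd.const 1)).mul hRb'
    exact h2.mono fun a => Nat.sub_le _ _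
  exact (pt_ent3 (hL.comp e1) e2 e3 e4).add ((hQ.comp e1).mul
    ((hW'.mul hh).add ((PT.sub (hAm.comp e1) hW').mul (hnorm.comp e1))))

theorem esize_picksW (S Q R Am s t T : ℕ) (Li W : List (List (List ℕ))) :
    esize (picksW S Q R Am s t T Li W) ≤
      T * (2 * ((Li.length + 2) * (2 * (nn Li + (esize s + 1)) + 1)) + 1) := by
  have h : ∀ P ∈ picksW S Q R Am s t T Li W,
      esize P ≤ (Li.length + 2) * (2 * (nn Li + (esize s + 1)) + 1) := by
    induction T with
    | zero => simp [picksW]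
    | succ T ih =>
      intro P hP
      rw [picksW_succ, List.mem_append] at hP
      rcases hP with hP | hP
      · exact ih P hP
      · rw [List.mem_singleton] at hP
        subst hP
        obtain ⟨h1, h2⟩ := sp_sz s t (wtsW S Q R Am Li W (picksW S Q R Am s t T Li W))
        rw [wtsW_length] at h1
        refine (esize_list_le (B := nn Li + (esize s + 1)) fun x hx => ?_).trans
          (Nat.mul_le_mul_right _ h1)
        refine (esize_nat_mono ((h2 x hx).trans
          (Nat.add_le_add_right (nn_wtsW_le _ _ _ _ _ _ _) s))).trans (esize_add_le' _ _)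
  have := esize_list_le h
  rwa [picksW_length] at this

theorem pt_picksW {S Q R Am s t T : α → ℕ} {Li W : α → List (List (List ℕ))} (hS : PT A S)
    (hQ : PT A Q) (hR : PT A R) (hRb : PBd R) (hAm : PT A Am)
    (hs : PT A s) (ht : PT A t) (hT : PT A T) (hTb : PBd T) (hL : PT A Li) (hW : PT A W) :
    PT A (fun a => picksW (S a) (Q a) (R a) (Am a) (s a) (t a) (T a) (Li a) (W a)) := by
  have hB : PBd (fun a => T a *
      (2 * (((Li a).length + 2) * (2 * (nn (Li a) + (esize (s a) + 1)) + 1)) + 1)) := by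
    have h1 := PBd.length hL
    have h2 := hs.pbd
    have h3 := pbd_nn hL
    fun_prop
  refine PT.iterate' (step := fun a ps =>
      pickStepW (S a) (Q a) (R a) (Am a) (s a) (t a) (Li a) (W a) ps)
    hT hTb (PT.const []) ?_ hB fun a j hj => ?_
  · have e1 : PT A (fun q : α × List (List ℕ) => q.1) := PT.fst'
    exact PT.snd'.append ((pt_sp (hs.comp e1) (ht.comp e1)
      (pt_wtsW (hS.comp e1) (hQ.comp e1) (hR.comp e1) (hRb.comp e1) (hAm.comp e1) (hL.comp e1)
        (hW.comp e1) PT.snd')).cons PT.nil)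
  · exact (esize_picksW (S a) (Q a) (R a) (Am a) (s a) (t a) j (Li a) (W a)).trans
      (Nat.mul_le_mul_right _ hj)

end pt

end Vale.Agent.P315.H763
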