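import Vale.Agent.P315.H763.CertW
import Vale.Agent.P315.H638.RegionW
import Vale.Agent.P315.H220.InstW

/-!
P315, milestone 2 (helper763): the weighted machine inequality of one region for the concrete
machines `H155/MachW`, with explicit constants.
-/

set_option autoImplicit false

open Finset

namespace Vale.Agent.P315.H763

open H155 H220 H801
open H519 (Phi0)
open H782 (val xx)
open H638 (lhsEW VW eW region_h3bW)

section

variable {K h wm Z g NL Dl R T Sh Rh Cc μ B lo ca a0 b0 l o : ℕ} {LB : List ℕ}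

/-- The stored paths depend only on the digits of the machine number. -/
theorem pkW_congr {q q' : ℕ} (hLB : LB ≠ []) (D : ℕ → ℕ → ℕ → ℕ → ℕ → ℕ) (κ n : ℕ)
    (h1 : qA (2 * g) q = qA (2 * g) q')
    (h2 : min (qB (2 * g) q) (2 * g) = min (qB (2 * g) q') (2 * g))
    (h3 : qL (2 * g) NL q = qL (2 * g) NL q') (h4 : qO (2 * g) NL Dl q = qO (2 * g) NL Dl q')
    (h5 : qR (2 * g) NL Dl R q = qR (2 * g) NL Dl R q') :
    pkW K h wm Z g NL Dl R T Sh Rh Cc μ B lo q κ ca LB hLB D n =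
      pkW K h wm Z g NL Dl R T Sh Rh Cc μ B lo q' κ ca LB hLB D n := by
  unfold pkW storedW
  rw [h1, h2, h3, h4, h5]

/-- The class of the blocks. -/
def actB (K Z g Dl μ B lo a0 b0 l o : ℕ) (LB : List ℕ) (D : ℕ → ℕ → ℕ → ℕ → ℕ → ℕ) : ℕ → Prop :=
  actD (K + 2) (pW K g LB) (a0 * K) (b0 * K) Dl o (cdiv (K * Z) (2 ^ l))
    (cdiv (K * Z) (2 ^ (l + 1))) (nodeW K Z g μ B lo LB D)

instance (K Z g Dl μ B lo a0 b0 l o : ℕ) (LB : List ℕ) (D : ℕ → ℕ → ℕ → ℕ → ℕ → ℕ) :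
    DecidablePred (actB K Z g Dl μ B lo a0 b0 l o LB D) := by unfold actB; infer_instance

theorem le_mul_cdiv {X c : ℕ} (hc : 0 < c) : X ≤ c * cdiv X c := by
  unfold cdiv
  have := Nat.lt_div_mul_add (a := X + c - 1) hc
  rw [Nat.mul_comm c]
  omega

theorem mul_cdiv_le {X c : ℕ} : c * cdiv X c ≤ X + c - 1 := by
  unfold cdiv
  exact Nat.mul_div_le _ _

theorem errW_nonneg' {c T s : ℕ} (h : s < T) : 0 ≤ errW c T s := by
  unfold errW
  have h1 : 0 ≤ Real.log ((T : ℝ) + c) := by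
    have := Real.log_natCast_nonneg (T + c)
    push_cast at this
    exact this
  have h2 : 0 ≤ Real.log (T : ℝ) := Real.log_natCast_nonneg T
  have h3 : 0 ≤ (T : ℝ) - s := by
    have : (s : ℝ) < T := by exact_mod_cast h
    linarith
  positivity

/-- Few blocks of the class before any block. -/
theorem rk_actB_lt (hLB : LB ≠ []) {D : ℕ → ℕ → ℕ → ℕ → ℕ → ℕ}
    (hD : ∀ κ m x u v, D (κ + 1) m x u v ≤ D κ m x u v) (ha : a0 ≤ 2 * g) (hb : b0 ≤ 2 * g)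
    (hR : 2 ^ (l + 3) ≤ R) (hKZ : 0 < K * Z)
    (hW : ∀ t, WD (K + 2) (pW K g LB) (a0 * K) (b0 * K) (nodeW K Z g μ B lo LB D 0) ≤
      WD (K + 2) (pW K g LB) (a0 * K) (b0 * K) (nodeW K Z g μ B lo LB D t) + 3 * (K * Z))
    (j1 : ℕ) : rk (actB K Z g Dl μ B lo a0 b0 l o LB D) j1 < R := by
  have h1 := card_drop_mul_le (V := fun t => WD (K + 2) (pW K g LB) (a0 * K) (b0 * K)
      (nodeW K Z g μ B lo LB D t))
    (fun t => wd_mono (Nat.succ_pos _) (node_lt_pW hLB ha) (node_lt_pW hLB hb)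
      fun i _ u _ v _ => nodeW_anti hD t i u v) Dl o (cdiv (K * Z) (2 ^ (l + 1))) j1
    (actB K Z g Dl μ B lo a0 b0 l o LB D) (fun β hβ => hβ.1)
  have h2 := hW (blo Dl o j1)
  have h3 : rk (actB K Z g Dl μ B lo a0 b0 l o LB D) j1 =
      ((Finset.range j1).filter (actB K Z g Dl μ B lo a0 b0 l o LB D)).card := by
    unfold rk
    rw [← List.toFinset_card_of_nodup (List.nodup_range.filter _)]
    congr 1
    ext β
    rw [List.mem_toFinset, List.mem_filter, List.mem_range, Finset.mem_filter, Finset.mem_range,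
      decide_eq_true_eq]
  rw [h3]
  by_contra h4
  have h5 : 2 ^ (l + 3) * cdiv (K * Z) (2 ^ (l + 1)) ≤
      ((Finset.range j1).filter (actB K Z g Dl μ B lo a0 b0 l o LB D)).card *
        cdiv (K * Z) (2 ^ (l + 1)) := Nat.mul_le_mul_right _ (by omega)
  have h6 : 2 ^ (l + 3) * cdiv (K * Z) (2 ^ (l + 1)) =
      4 * (2 ^ (l + 1) * cdiv (K * Z) (2 ^ (l + 1))) := by
    rw [show l + 3 = (l + 1) + 2 from rfl, pow_add]; ring
  have h7 := le_mul_cdiv (X := K * Z) (c := 2 ^ (l + 1)) (by positivity)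
  omega

/-- The greedy property in terms of the digits. -/
theorem pkW_hpkB {q κ j1 : ℕ} (hLB : LB ≠ []) {D : ℕ → ℕ → ℕ → ℕ → ℕ → ℕ}
    (hD : ∀ κ m x u v, D (κ + 1) m x u v ≤ D κ m x u v) (hSh : 0 < Sh) (hRh : 0 < Rh)
    (hcap : 0 < cdiv (Cc * Z) (2 ^ l)) (hh : 0 < h) (hDl : 0 < Dl)
    (hj : j1 ≤ H519.blk o Dl κ) (h1 : qA (2 * g) q = a0) (h2 : min (qB (2 * g) q) (2 * g) = b0)
    (h3 : qL (2 * g) NL q = l) (h4 : qO (2 * g) NL Dl q = o)
    (hr : qR (2 * g) NL Dl R q = rk (actB K Z g Dl μ B lo a0 b0 l o LB D) j1) :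
    GreedyW (aR K g wm ca LB)
      (H519.LstW (Dr (K + 2) (pW K g LB) (nodeW K Z g μ B lo LB D))
        (cdiv (Cc * Z) (2 ^ l) : ℕ) (aR K g wm ca LB) (bR K g wm ca LB)
        o Dl h (actB K Z g Dl μ B lo a0 b0 l o LB D) j1 κ)
      (H763.paths (K + 2) (pW K g LB) (a0 * K) (b0 * K)) T
      ((Fintype.card (Fin (K + 2)) : ℝ) * etaW wm T Sh Rh (pW K g LB))
      (pkW K h wm Z g NL Dl R T Sh Rh Cc μ B lo q κ ca LB hLB D) := by
  subst h1 h2 h3 h4
  have h5 : rk (actB K Z g Dl μ B lo (qA (2 * g) q) (min (qB (2 * g) q) (2 * g)) (qL (2 * g) NL q)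
      (qO (2 * g) NL Dl q) LB D) j1 = rk (actW K Z g NL Dl μ B lo q LB D) j1 :=
    rk_congr (fun j => Iff.rfl) j1
  have h6 := pkW_hpk (wm := wm) (ca := ca) (T := T) hLB hD hSh hRh hcap hh hDl hj (hr.trans h5)
  exact h6

/-- **The weighted machine inequality of one region for the concrete machines**, one class, one
offset, in terms of the history and of a node path `f`. -/
theorem plugW (hLB : LB ≠ []) {D : ℕ → ℕ → ℕ → ℕ → ℕ → ℕ}
    (hD : ∀ κ m x u v, D (κ + 1) m x u v ≤ D κ m x u v) (hK : 2 ≤ K) (hh : 0 < h) (hhl : h ≤ Dl)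
    (hZ : 0 < Z) (hlZ : 2 ^ l ≤ Z) (hSh : 0 < Sh) (hRh : 0 < Rh) (hC : 0 < Cc) (ha : a0 ≤ 2 * g)
    (hb : b0 ≤ 2 * g) (hl : l < NL) (ho : o < Dl) (hR : 2 ^ (l + 3) ≤ R) {s' : ℕ} (hs' : 0 < s')
    (hsT : s' < T)
    -- the curves
    {cU : ℕ → Fin K → ℝ} {cR : ℕ → ℝ} {DU w : Fin K → ℝ} {gd : Fin K → Prop}
    (hcU : ∀ u, Antitone fun t => cU t u) (hw : ∀ u, 0 < w u)
    (lowU : ∀ t u, DU u ≤ cU t u) (lowR : ∀ t, ∑ u, DU u ≤ cR t)
    (upU : ∀ u, cU 0 u ≤ DU u + w u)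
    (H1 : ∀ t, cR t ≤ ∑ u, cU t u) (hW1 : (K : ℝ) * Z ≤ 8 * ∑ u, w u)
    (hW2 : ∑ u, w u ≤ (K : ℝ) * Z)
    -- the comparison path
    {f : ℕ → ℕ} (hf : ∀ i, i ≤ K + 2 → f i < pW K g LB) (f0 : f 0 = a0 * K)
    (fK : f (K + 2) = b0 * K) {rt r0 e2 d cN : ℝ} (hrt : 0 ≤ rt) (hrt1 : rt ≤ 1) (hr0 : 0 ≤ r0)
    (he2 : e2 ≤ 1) (hd : 0 ≤ d) (hcN0 : 0 ≤ cN)
    (hsum : ∀ t, ∑ i ∈ range (K + 2), (nodeW K Z g μ B lo LB D t i (f i) (f (i + 1)) : ℝ) ≤
      ∑ u, cU t u + (∑ u, w u) * rt)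
    (hr : ∀ t (u : Fin K), gd u →
      |(nodeW K Z g μ B lo LB D t (u + 1) (f (u + 1)) (f (u + 2)) : ℝ) - cU t u| ≤ r0)
    (hwu : ∀ u : Fin K, w u ≤ (2 : ℝ) ^ kxW wm ca (labX K g LB (f (u + 2))) * Z)
    (hwt : ∑ u ∈ range K, 2 ^ kxW wm ca (labX K g LB (f (u + 2))) ≤ 9 * K)
    (hcN : (cN * Z + 2 * r0) * 2 ^ l ≤ (Cc : ℝ) * Z)
    -- the value of the net pair
    (hz2 : ∀ t, ∑ u, DU u - (∑ u, w u) * e2 ≤
      (WD (K + 2) (pW K g LB) (a0 * K) (b0 * K) (nodeW K Z g μ B lo LB D t) : ℝ))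
    -- the blocks
    {A : ℕ → Prop} [DecidablePred A] {jc N : ℕ}
    (hA : ∀ j, A j → actB K Z g Dl μ B lo a0 b0 l o LB D j) (hAc : ∀ j, A j → jc ≤ j)
    (hAo : ∀ j, A j → o ≤ j * Dl)
    (cert : ∀ t r, t < N * Dl → r < R → actB K Z g Dl μ B lo a0 b0 l o LB D (H519.blk o Dl t) →
      rk (actB K Z g Dl μ B lo a0 b0 l o LB D) (H519.blk o Dl t) < R →
      cR t ≤ val (Dr (K + 2) (pW K g LB) (nodeW K Z g μ B lo LB D) (t + h))
        (xx (pkW K h wm Z g NL Dl R T Sh Rh Cc μ B lo (encQ (2 * g) NL Dl R a0 b0 l o r 0) t ca LB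
          hLB D) T) + (∑ u, w u) * d) :
    ∑ j ∈ (range N).filter A, lhsEW DU w gd cN cU h Dl (j * Dl - o) ≤
      2 * ∑ j ∈ (range N).filter A, ∑ i ∈ range Dl,
        (VW DU w (cU (j * Dl - o + i)) - eW DU w (cR (j * Dl - o + i)))
      + (1 + (((range N).filter fun j => (actB K Z g Dl μ B lo a0 b0 l o LB D j ∧ jc ≤ j) ∧
          ¬ A j).card : ℝ))
        * (h * (80 * (Cc + 1) * ((wm : ℝ) + 2 * (Nat.size (pW K g LB) : ℝ)) * (1 / 2) ^ l))
      + (((range N).filter A).card : ℝ) * (Dl * (2 * rt + 16 * r0 / Z + 2 * d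
          + 16 * (Cc + 1) * (1 / 2) ^ l *
            (((2 ^ wm : ℕ) : ℝ) * errW (Fintype.card (Fin (pW K g LB) × Fin (pW K g LB))) T s'
              + (T / s' + 1) * etaW wm T Sh Rh (pW K g LB)
              + 3 * (((2 ^ wm : ℕ) : ℝ) *
                (Fintype.card (Fin (pW K g LB) × Fin (pW K g LB)) / T))))) := by
  classical
  have : Nonempty (Fin K) := ⟨⟨0, by omega⟩⟩
  have : Nonempty (Fin (pW K g LB)) := ⟨⟨0, pW_pos hLB⟩⟩
  have hZ' : (0 : ℝ) < Z := by exact_mod_cast hZ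
  have hK' : (2 : ℝ) ≤ K := by exact_mod_cast hK
  have hW : 0 < ∑ u, w u := Finset.sum_pos (fun u _ => hw u) univ_nonempty
  obtain ⟨W, hWd⟩ : ∃ W, W = ∑ u, w u := ⟨_, rfl⟩
  set cap := cdiv (Cc * Z) (2 ^ l) with hcapd
  have hp2 : 0 < 2 ^ l := by positivity
  have hcap1 : Cc * Z ≤ 2 ^ l * cap := le_mul_cdiv hp2
  have hcap2 : 2 ^ l * cap ≤ (Cc + 1) * Z := by
    have := mul_cdiv_le (X := Cc * Z) (c := 2 ^ l)
    rw [← hcapd] at this
    have h2 : (Cc + 1) * Z = Cc * Z + Z := by ring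
    omega
  have hCZ : 0 < Cc * Z := Nat.mul_pos hC hZ
  have hcap0 : 0 < cap := by
    rcases Nat.eq_zero_or_pos cap with h0 | h0
    · rw [h0] at hcap1; omega
    · exact h0
  have hcap0' : (0 : ℝ) < cap := by exact_mod_cast hcap0
  have hcap1' : (Cc : ℝ) * Z ≤ 2 ^ l * cap := by exact_mod_cast hcap1
  have hcap2' : (2 : ℝ) ^ l * cap ≤ (Cc + 1) * Z := by exact_mod_cast hcap2
  have hp2' : (0 : ℝ) < 2 ^ l := by positivity
  -- the number of the instances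
  have hWD0 : ∀ t, WD (K + 2) (pW K g LB) (a0 * K) (b0 * K) (nodeW K Z g μ B lo LB D 0) ≤
      WD (K + 2) (pW K g LB) (a0 * K) (b0 * K) (nodeW K Z g μ B lo LB D t) + 3 * (K * Z) := by
    intro t
    have h1 := wd_le_nodes (K := K) (Z := Z) (μ := μ) (B := B) (lo := lo) (κ := 0) hLB (D := D)
      ha hb f f0 fK hf
    have h2 := hsum 0
    have h3 := hz2 t
    have h4 : ∑ u, cU 0 u ≤ ∑ u, DU u + ∑ u, w u := by
      rw [← Finset.sum_add_distrib]; exact Finset.sum_le_sum fun u _ => upU u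
    have h5 : (WD (K + 2) (pW K g LB) (a0 * K) (b0 * K) (nodeW K Z g μ B lo LB D 0) : ℝ) ≤
        ∑ i ∈ range (K + 2), (nodeW K Z g μ B lo LB D 0 i (f i) (f (i + 1)) : ℝ) := by
      exact_mod_cast h1
    have h6 : (∑ u, w u) * rt ≤ ∑ u, w u := by
      calc (∑ u, w u) * rt ≤ (∑ u, w u) * 1 := mul_le_mul_of_nonneg_left hrt1 hW.le
        _ = _ := mul_one _
    have h7 : (∑ u, w u) * e2 ≤ ∑ u, w u := by
      calc (∑ u, w u) * e2 ≤ (∑ u, w u) * 1 := mul_le_mul_of_nonneg_left he2 hW.le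
        _ = _ := mul_one _
    have h8 : (WD (K + 2) (pW K g LB) (a0 * K) (b0 * K) (nodeW K Z g μ B lo LB D 0) : ℝ) ≤
        (WD (K + 2) (pW K g LB) (a0 * K) (b0 * K) (nodeW K Z g μ B lo LB D t) : ℝ) +
          3 * (K * Z) := by linarith
    exact_mod_cast h8
  have hKZ : 0 < K * Z := Nat.mul_pos (by omega) hZ
  have hrk := rk_actB_lt (Dl := Dl) (o := o) hLB hD ha hb hR hKZ hWD0
  -- the edge path
  set p : Fin (K + 2) → Fin (pW K g LB) × Fin (pW K g LB) := fun i =>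
    (⟨f i, hf i (by omega)⟩, ⟨f (i + 1), hf (i + 1) (by omega)⟩) with hp
  have hpP : p ∈ H763.paths (K + 2) (pW K g LB) (a0 * K) (b0 * K) :=
    ⟨f, f0, fK, fun i => ⟨rfl, rfl⟩⟩
  have hkx : ∀ u : Fin K, aR K g wm ca LB ⟨(u : ℕ) + 1, by omega⟩ (p ⟨(u : ℕ) + 1, by omega⟩) =
      (2 : ℝ) ^ kxW wm ca (labX K g LB (f (u + 2))) := by
    intro u
    unfold aR wtW
    rw [if_pos ⟨by simp, by simp⟩]
    push_cast
    rfl
  have hsumA : ∑ i, aR K g wm ca LB i (p i) ≤ 9 * K + 2 := by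
    have h1 : ∑ i, aR K g wm ca LB i (p i) =
        ∑ i ∈ range (K + 2), (wtW K g wm ca LB i (f i) (f (i + 1)) : ℝ) := by
      rw [← Fin.sum_univ_eq_sum_range (fun i => (wtW K g wm ca LB i (f i) (f (i + 1)) : ℝ))]
      rfl
    rw [h1, Finset.sum_range_succ, Finset.sum_range_succ']
    have h2 : ∀ u ∈ range K, (wtW K g wm ca LB (u + 1) (f (u + 1)) (f (u + 1 + 1)) : ℝ) =
        ((2 ^ kxW wm ca (labX K g LB (f (u + 2))) : ℕ) : ℝ) := by
      intro u hu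
      have := Finset.mem_range.1 hu
      unfold wtW
      rw [if_pos ⟨by omega, by omega⟩]
    rw [Finset.sum_congr rfl h2]
    have h3 : (∑ u ∈ range K, ((2 ^ kxW wm ca (labX K g LB (f (u + 2))) : ℕ) : ℝ)) ≤ 9 * K := by
      exact_mod_cast hwt
    have h4 : (wtW K g wm ca LB 0 (f 0) (f (0 + 1)) : ℝ) = 1 := by
      unfold wtW
      rw [if_neg (by omega)]
      simp
    have h5 : (wtW K g wm ca LB (K + 1) (f (K + 1)) (f (K + 1 + 1)) : ℝ) = 1 := by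
      unfold wtW
      rw [if_neg (by omega)]
      simp
    rw [h4, h5]
    linarith
  set q : ℕ → ℕ := fun j1 => encQ (2 * g) NL Dl R a0 b0 l o
    (rk (actB K Z g Dl μ B lo a0 b0 l o LB D) j1) 0 with hq
  have hdig := fun j1 => dec_enc (g := 2 * g) (NL := NL) (Dl := Dl) (R := R)
    (sm := 0) ha (show b0 ≤ 2 * (2 * g) by omega) hl ho (hrk j1)
  have key := region_h3bW (em := fun u : Fin K => (⟨(u : ℕ) + 1, by omega⟩ : Fin (K + 2)))
    (fun u v huv => by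
      have := congrArg Fin.val huv
      simp only [Nat.add_right_cancel_iff] at this
      exact Fin.ext this)
    (PP := H763.paths (K + 2) (pW K g LB) (a0 * K) (b0 * K))
    (a := aR K g wm ca LB) (b := bR K g wm ca LB) (aR_pos K g wm ca LB)
    (Am := ((2 ^ wm : ℕ) : ℝ)) (aR_le K g wm ca LB)
    (D := Dr (K + 2) (pW K g LB) (nodeW K Z g μ B lo LB D))
    (fun t i e => by
      unfold Dr
      exact_mod_cast nodeW_anti hD t i e.1 e.2)
    hcU hw (ε := 0) (d := d) (rb := 8 * r0 / Z) (rt := rt) (r := fun _ => r0) le_rfl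
    (fun _ => hr0) hd hrt (by
      rw [Finset.sum_const, Finset.card_univ, Fintype.card_fin, nsmul_eq_mul]
      have h1 : (K : ℝ) * r0 = (K * Z) * (r0 / Z) := by field_simp
      have h2 : (K : ℝ) * Z * (r0 / Z) ≤ (8 * ∑ u, w u) * (r0 / Z) :=
        mul_le_mul_of_nonneg_right hW1 (div_nonneg hr0 hZ'.le)
      have h3 : (∑ u, w u) * (8 * r0 / Z) = (8 * ∑ u, w u) * (r0 / Z) := by ring
      rw [h3, h1]
      exact h2) (fun t u => by simpa using lowU t u)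
    (fun t => by simpa using lowR t) H1 hpP
    (fun t => by
      refine le_trans (le_of_eq ?_) (hsum t)
      rw [← Fin.sum_univ_eq_sum_range
        (fun i => (nodeW K Z g μ B lo LB D t i (f i) (f (i + 1)) : ℝ))]
      rfl) (gd := gd) (fun t u hu => hr t u hu) (cap := (cap : ℝ)) (cN := cN) hcap0'
    (fun u _ => by
      rw [hkx u]
      obtain ⟨α, hα⟩ : ∃ α, α = (2 : ℝ) ^ kxW wm ca (labX K g LB (f (u + 2))) := ⟨_, rfl⟩
      have hα1 : 1 ≤ α := by rw [hα]; exact one_le_pow₀ (by norm_num)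
      have h1 := hwu u
      rw [← hα] at h1 ⊢
      have h2 : w u * cN ≤ α * Z * cN := mul_le_mul_of_nonneg_right h1 hcN0
      have h3 : cN * Z + 2 * r0 ≤ cap := by
        have h4 : (cN * Z + 2 * r0) * 2 ^ l ≤ cap * 2 ^ l := by
          calc _ ≤ (Cc : ℝ) * Z := hcN
            _ ≤ 2 ^ l * cap := hcap1'
            _ = _ := mul_comm _ _
        exact le_of_mul_le_mul_right h4 hp2'
      have h5 : α * (cN * Z + 2 * r0) ≤ α * cap := mul_le_mul_of_nonneg_left h3 (by linarith)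
      have h6 : 2 * r0 ≤ α * (2 * r0) := le_mul_of_one_le_left (by linarith) hα1
      calc w u * (cN + 0) + 2 * r0 = w u * cN + 2 * r0 := by ring
        _ ≤ α * Z * cN + α * (2 * r0) := add_le_add h2 h6
        _ = α * (cN * Z + 2 * r0) := by ring
        _ ≤ α * cap := h5
        _ = _ := mul_comm _ _) (o := o) (len := Dl) (h := h) hh hhl
    (act := actB K Z g Dl μ B lo a0 b0 l o LB D) (A := A) (jc := jc) hA hAc (N := N) hAo
    (T := T) (s := s') hs' hsT (η := etaW wm T Sh Rh (pW K g LB)) (etaW_nonneg _ _ _ _ _)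
    (pk := fun j1 t => pkW K h wm Z g NL Dl R T Sh Rh Cc μ B lo (q j1) t ca LB hLB D)
    (fun j1 t _ _ _ _ _ hj => by
      obtain ⟨d1, d2, d3, d4, d5, -⟩ := hdig j1
      exact pkW_hpkB hLB hD hSh hRh hcap0 hh (by omega) hj d1
        (by rw [d2]; exact min_eq_left hb) d3 d4 d5)
    (fun j1 t ht _ hAt _ _ _ => by
      refine cert t _ ?_ (hrk j1) (hA _ hAt) (hrk _)
      have h1 : (t + o) / Dl < N := ht
      rw [Nat.div_lt_iff_lt_mul (by omega)] at h1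
      omega)
    (phi := (9 * K + 2) / (K + 2) * ((wm : ℝ) + 2 * (Nat.size (pW K g LB) : ℝ)))
    (by
      refine (Phi0_le K g wm ca LB p).trans ?_
      rw [Fintype.card_fin]
      have h1 : (((K + 2 : ℕ) : ℝ)) * ((9 * K + 2) / (K + 2) *
          ((wm : ℝ) + 2 * (Nat.size (pW K g LB) : ℝ))) =
          ((wm : ℝ) + 2 * (Nat.size (pW K g LB) : ℝ)) * (9 * K + 2) := by
        have : (K : ℝ) + 2 ≠ 0 := by positivity
        push_cast
        field_simp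
      rw [h1]
      exact mul_le_mul_of_nonneg_left hsumA (by positivity))
  rw [Fintype.card_fin, ← hWd] at key
  rw [← hWd] at hW hW1
  obtain ⟨X, hX⟩ : ∃ X, X = ((wm : ℝ) + 2 * (Nat.size (pW K g LB) : ℝ)) := ⟨_, rfl⟩
  obtain ⟨ER, hER⟩ : ∃ ER, ER = ((2 ^ wm : ℕ) : ℝ) *
      errW (Fintype.card (Fin (pW K g LB) × Fin (pW K g LB))) T s'
      + (T / s' + 1) * etaW wm T Sh Rh (pW K g LB)
      + 3 * (((2 ^ wm : ℕ) : ℝ) *
        (Fintype.card (Fin (pW K g LB) × Fin (pW K g LB)) / T)) := ⟨_, rfl⟩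
  rw [← hX, ← hER] at key ⊢
  have hX0 : 0 ≤ X := by rw [hX]; positivity
  have hER0 : 0 ≤ ER := by
    rw [hER]
    have := etaW_nonneg wm T Sh Rh (pW K g LB)
    have h2 : 0 ≤ errW (Fintype.card (Fin (pW K g LB) × Fin (pW K g LB))) T s' :=
      errW_nonneg' hsT
    positivity
  -- the ratio
  have hKr : (0 : ℝ) < K := by linarith
  have hKZr : (0 : ℝ) < K * Z := mul_pos hKr hZ'
  have hhalf : (1 / 2 : ℝ) ^ l = 1 / 2 ^ l := by rw [one_div_pow]
  have hcap3 : (cap : ℝ) ≤ (Cc + 1) * Z * (1 / 2) ^ l := by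
    rw [hhalf, mul_one_div, le_div_iff₀ hp2']
    linarith
  have hcW : (cap : ℝ) / W ≤ 8 * (Cc + 1) * (1 / 2) ^ l / K := by
    rw [div_le_div_iff₀ hW hKr]
    have h1 : (cap : ℝ) * K ≤ (Cc + 1) * Z * (1 / 2) ^ l * K :=
      mul_le_mul_of_nonneg_right hcap3 hKr.le
    have h2 : (Cc + 1 : ℝ) * (1 / 2) ^ l * (K * Z) ≤ (Cc + 1 : ℝ) * (1 / 2) ^ l * (8 * W) :=
      mul_le_mul_of_nonneg_left hW1 (by positivity)
    linarith
  have hcW0 : 0 ≤ (cap : ℝ) / W := div_nonneg hcap0'.le hW.le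
  have hA1 : ((K + 2 : ℕ) : ℝ) * cap / W ≤ 16 * (Cc + 1) * (1 / 2) ^ l := by
    have h1 : ((K + 2 : ℕ) : ℝ) * cap / W = (K + 2) * (cap / W) := by push_cast; ring
    rw [h1]
    have h2 : (K + 2) * ((cap : ℝ) / W) ≤ (2 * K) * (8 * (Cc + 1) * (1 / 2) ^ l / K) :=
      mul_le_mul (by linarith) hcW hcW0 (by linarith)
    refine h2.trans (le_of_eq ?_)
    field_simp
    ring
  have hA0 : 0 ≤ ((K + 2 : ℕ) : ℝ) * cap / W := by positivity
  have hB1 : ((K + 2 : ℕ) : ℝ) * cap / W * ((9 * K + 2) / (K + 2) * X) ≤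
      80 * (Cc + 1) * X * (1 / 2) ^ l := by
    have h1 : ((K + 2 : ℕ) : ℝ) * cap / W * ((9 * K + 2) / (K + 2) * X) =
        (9 * K + 2) * (cap / W) * X := by
      have : (K : ℝ) + 2 ≠ 0 := by positivity
      push_cast
      field_simp
    rw [h1]
    have h2 : (9 * K + 2) * ((cap : ℝ) / W) ≤ (10 * K) * (8 * (Cc + 1) * (1 / 2) ^ l / K) :=
      mul_le_mul (by linarith) hcW hcW0 (by linarith)
    have h3 : (10 * (K : ℝ)) * (8 * (Cc + 1) * (1 / 2) ^ l / K) =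
        80 * (Cc + 1) * (1 / 2) ^ l := by
      field_simp
      ring
    rw [h3] at h2
    calc _ ≤ 80 * (Cc + 1) * (1 / 2) ^ l * X := mul_le_mul_of_nonneg_right h2 hX0
      _ = _ := by ring
  refine key.trans ?_
  refine add_le_add (add_le_add le_rfl ?_) ?_
  · refine mul_le_mul_of_nonneg_left ?_ (by positivity)
    exact mul_le_mul_of_nonneg_left hB1 (Nat.cast_nonneg _)
  · refine mul_le_mul_of_nonneg_left ?_ (Nat.cast_nonneg _)
    refine mul_le_mul_of_nonneg_left ?_ (Nat.cast_nonneg _)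
    have h1 := mul_le_mul_of_nonneg_right hA1 hER0
    have h2 : 2 * (8 * r0 / (Z : ℝ)) = 16 * r0 / Z := by ring
    linarith

end

end Vale.Agent.P315.H763
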