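import Vale.Agent.P315.H519.RunsW
import Vale.Agent.P315.C.StructRd

/-!
P315, milestone 2 (helper763): facts for the plug of the weighted machine into the region theorem.

* `rcost_nodes_le` : the cost of a lane given by the nodes of a layered graph with two extra rows
  of shifts.
* `phi_le` : start cost for the weights `2 ^ d` and the prices `d + c`.
-/

set_option autoImplicit false

open Finset

namespace Vale.Agent.P315.H763

/-! ### Lanes from node sequences -/

theorem prevPos_nodes (u : ℕ) (po : ℕ → ℕ) : ∀ i, 0 < i →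
    C.prevPos u (fun m => (po (m + 1), po (m + 2))) i = po (i + 1)
  | i + 1, _ => rfl

/-- Cost of the lane through the positions `po 1, …, po (K + 1)`. -/
theorem rcost_nodes (sh K : ℕ) (hK : 0 < K) (f : ℕ → ℕ → ℕ → ℕ) (u v : ℕ) (po : ℕ → ℕ) :
    C.rcost sh K f u v (fun m => (po (m + 1), po (m + 2))) =
      sh * Nat.dist u (po 1) + ∑ m ∈ range K, f m (po (m + 1)) (po (m + 2)) +
        sh * Nat.dist (po (K + 1)) v := by
  unfold C.rcost
  rw [sum_add_distrib, prevPos_nodes u po K hK]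
  congr 2
  obtain ⟨k, rfl⟩ : ∃ k, K = k + 1 := ⟨K - 1, by omega⟩
  rw [sum_range_succ']
  have h : ∀ i ∈ range k, sh * Nat.dist (C.prevPos u (fun m => (po (m + 1), po (m + 2))) (i + 1))
      (po (i + 1 + 1)) = 0 := by
    intro i _
    rw [prevPos_nodes u po (i + 1) (by omega), Nat.dist_self, mul_zero]
  rw [sum_congr rfl h, sum_const_zero, zero_add]
  rfl

/-- The cost of the lane is at most the cost of the whole path of nodes (with a row of shifts at
both ends) plus the shifts to the first and from the last node. -/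
theorem rcost_nodes_le (sh K : ℕ) (hK : 0 < K) (f : ℕ → ℕ → ℕ → ℕ) (u v : ℕ) (po : ℕ → ℕ) :
    C.rcost sh K f u v (fun m => (po (m + 1), po (m + 2))) ≤
      sh * Nat.dist u (po 0) + (sh * Nat.dist (po 0) (po 1) +
        ∑ m ∈ range K, f m (po (m + 1)) (po (m + 2)) +
        sh * Nat.dist (po (K + 1)) (po (K + 2))) + sh * Nat.dist (po (K + 2)) v := by
  rw [rcost_nodes sh K hK]
  have h1 := Nat.mul_le_mul_left sh (Nat.dist.triangle_inequality u (po 0) (po 1))
  have h2 := Nat.mul_le_mul_left sh (Nat.dist.triangle_inequality (po (K + 1)) (po (K + 2)) v)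
  rw [mul_add] at h1 h2
  omega

/-! ### Start cost -/

variable {I E : Type*} [Fintype I] [Fintype E]

/-- The reference mass of a row is at most one. -/
theorem row_mass_le (d : E → ℕ) (c : ℕ) (hE : (Fintype.card E : ℝ) ≤ Real.exp c) :
    ∑ e, (2 : ℝ) ^ d e * Real.exp (-((d e : ℝ) + c)) ≤ 1 := by
  have h1 : ∀ e : E, (2 : ℝ) ^ d e * Real.exp (-((d e : ℝ) + c)) ≤ Real.exp (-(c : ℝ)) := by
    intro e
    rw [neg_add, Real.exp_add, ← mul_assoc]
    have h2 : (2 : ℝ) ^ d e * Real.exp (-(d e : ℝ)) ≤ 1 := by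
      have h3 : (2 : ℝ) ^ d e ≤ Real.exp (d e : ℝ) := by
        have h4 : (2 : ℝ) ≤ Real.exp 1 := by
          have := Real.add_one_le_exp (1 : ℝ)
          linarith
        calc (2 : ℝ) ^ d e ≤ (Real.exp 1) ^ d e := pow_le_pow_left₀ (by norm_num) h4 _
          _ = Real.exp (d e : ℝ) := by rw [← Real.exp_nat_mul, mul_one]
      rw [Real.exp_neg, ← div_eq_mul_inv, div_le_one (Real.exp_pos _)]
      exact h3
    calc (2 : ℝ) ^ d e * Real.exp (-(d e : ℝ)) * Real.exp (-(c : ℝ))
        ≤ 1 * Real.exp (-(c : ℝ)) := mul_le_mul_of_nonneg_right h2 (Real.exp_pos _).le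
      _ = _ := one_mul _
  refine (sum_le_sum fun e _ => h1 e).trans ?_
  rw [sum_const, card_univ, nsmul_eq_mul, Real.exp_neg, ← div_eq_mul_inv,
    div_le_one (Real.exp_pos _)]
  exact hE

/-- Start cost of a path. -/
theorem phi_le {a b : I → E → ℝ} {p : I → E} {X : ℝ}
    (h1 : ∀ i, ∑ e, a i e * Real.exp (-(b i e)) ≤ 1) (ha : ∀ i e, 0 ≤ a i e)
    (hX : ∑ i, a i (p i) * b i (p i) ≤ X) : H519.Phi0 a b p ≤ X + Fintype.card I := by
  unfold H519.Phi0
  have h2 : ∑ i, ∑ e, a i e * Real.exp (-(b i e)) ≤ Fintype.card I := by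
    refine (sum_le_sum fun i _ => h1 i).trans ?_
    rw [sum_const, card_univ, nsmul_eq_mul, mul_one]
  have h3 : ∑ i, a i (p i) * (b i (p i) - 1) ≤ ∑ i, a i (p i) * b i (p i) :=
    sum_le_sum fun i _ => by nlinarith [ha i (p i)]
  linarith

/-- `card (Fin p × Fin p) ≤ exp (2 (log₂ p + 1))`. -/
theorem card_le_exp (p : ℕ) :
    (Fintype.card (Fin p × Fin p) : ℝ) ≤ Real.exp ((2 * (Nat.log 2 p + 1) : ℕ) : ℝ) := by
  rw [Fintype.card_prod, Fintype.card_fin]
  have h1 : p < 2 ^ (Nat.log 2 p + 1) := Nat.lt_pow_succ_log_self (by norm_num) p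
  have h2 : p * p ≤ 2 ^ (2 * (Nat.log 2 p + 1)) := by
    rw [two_mul, pow_add]
    exact Nat.mul_le_mul h1.le h1.le
  have h3 : ((p * p : ℕ) : ℝ) ≤ (2 : ℝ) ^ (2 * (Nat.log 2 p + 1)) := by exact_mod_cast h2
  refine h3.trans ?_
  have h4 : (2 : ℝ) ≤ Real.exp 1 := by
    have := Real.add_one_le_exp (1 : ℝ)
    linarith
  calc (2 : ℝ) ^ (2 * (Nat.log 2 p + 1)) ≤ (Real.exp 1) ^ (2 * (Nat.log 2 p + 1)) :=
        pow_le_pow_left₀ (by norm_num) h4 _
    _ = _ := by rw [← Real.exp_nat_mul, mul_one]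

end Vale.Agent.P315.H763
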