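import Vale.Agent.P315.H155.MachWG
import Vale.Agent.P315.C.StructRd
import Vale.Agent.P315.H763.LabList

/-!
P315, milestone 2 (helper763): the certified cost of a region is below the cost of the stored path
which is the lane of a machine, one window later (geometry of the classes, machines `H155/MachW`).
-/

set_option autoImplicit false

open Finset

namespace Vale.Agent.P315.H763

open H155 H220 H801 Vale.Agent.P315.C
open Vale.Agent.P315.H95 (cl bx ac wd clsPar)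

/-- Cost of a path of nodes: shifts in the first and in the last row. -/
theorem rcost_nodesW {K Z g μ B lo : ℕ} {LB : List ℕ} (hK : 0 < K)
    (D : ℕ → ℕ → ℕ → ℕ → ℕ → ℕ) (κ : ℕ) (f : ℕ → ℕ) :
    rcost 2 K (fun m => D κ m (labX K g LB (f (m + 2)))) (posX K Z g μ B lo (f 0))
      (posX K Z g μ B lo (f (K + 2)))
      (fun m => (posX K Z g μ B lo (f (m + 1)), posX K Z g μ B lo (f (m + 2)))) =
      ∑ i ∈ range (K + 2), nodeW K Z g μ B lo LB D κ i (f i) (f (i + 1)) := by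
  obtain ⟨K, rfl⟩ : ∃ k, K = k + 1 := ⟨K - 1, by omega⟩
  set P := posX (K + 1) Z g μ B lo with hP
  unfold rcost
  rw [Finset.sum_add_distrib, Finset.sum_range_succ' (fun m => 2 * Nat.dist _ _)]
  rw [Finset.sum_range_succ _ (K + 1 + 1), Finset.sum_range_succ' _ (K + 1)]
  have h1 : ∑ m ∈ range K, 2 * Nat.dist (prevPos (P (f 0))
      (fun m => (P (f (m + 1)), P (f (m + 2)))) (m + 1)) (P (f (m + 1 + 1))) = 0 := by
    refine Finset.sum_eq_zero fun m _ => ?_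
    show 2 * Nat.dist (P (f (m + 2))) (P (f (m + 1 + 1))) = 0
    rw [Nat.dist_self]
  have h2 : ∀ x y, 2 * Nat.dist x y = 2 * ((x - y) + (y - x)) := fun x y => rfl
  have h3 : nodeW (K + 1) Z g μ B lo LB D κ 0 (f 0) (f (0 + 1)) =
      2 * Nat.dist (P (f 0)) (P (f (0 + 1))) := by
    unfold nodeW
    rw [if_neg (by omega), h2]
  have h4 : nodeW (K + 1) Z g μ B lo LB D κ (K + 1 + 1) (f (K + 1 + 1)) (f (K + 1 + 1 + 1)) =
      2 * Nat.dist (P (f (K + 2))) (P (f (K + 1 + 2))) := by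
    unfold nodeW
    rw [if_neg (by omega), h2]
  have h5 : ∀ m ∈ range (K + 1), nodeW (K + 1) Z g μ B lo LB D κ (m + 1) (f (m + 1))
      (f (m + 1 + 1)) = D κ m (labX (K + 1) g LB (f (m + 2))) (P (f (m + 1)))
        (P (f (m + 2))) := by
    intro m hm
    have := Finset.mem_range.1 hm
    unfold nodeW
    rw [if_pos ⟨by omega, by omega⟩, Nat.add_sub_cancel]
  rw [Finset.sum_congr rfl h5, h3, h4, h1]
  show 0 + 2 * Nat.dist (P (f 0)) (P (f (0 + 1))) + _ + 2 * Nat.dist (P (f (K + 2)))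
    (P (f (K + 1 + 2))) = _
  ring

/-- The edges of a stored path are given by its nodes. -/
theorem pkW_nodes {K h wm Z g NL Dl R T Sh Rh Cc μ B lo q κ ca n : ℕ} {LB : List ℕ}
    (hLB : LB ≠ []) {D : ℕ → ℕ → ℕ → ℕ → ℕ → ℕ} (hn : n < T) :
    ∃ f : ℕ → ℕ, f 0 = qA (2 * g) q * K ∧ f (K + 2) = min (qB (2 * g) q) (2 * g) * K ∧
      (∀ i, i ≤ K + 2 → f i < pW K g LB) ∧
      ∀ i : Fin (K + 2),
        ((pkW K h wm Z g NL Dl R T Sh Rh Cc μ B lo q κ ca LB hLB D n i).1 : ℕ) = f i ∧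
        ((pkW K h wm Z g NL Dl R T Sh Rh Cc μ B lo q κ ca LB hLB D n i).2 : ℕ) = f (i + 1) := by
  obtain ⟨f, hf, f0, fK, fj⟩ := nodesW_spec (K := K) (h := h) (wm := wm) (Z := Z) (g := g)
    (NL := NL) (Dl := Dl) (R := R) (Sh := Sh) (Rh := Rh) (C := Cc) (μ := μ) (B := B) (lo := lo)
    (q := q) (κ := κ) (ca := ca) hLB (D := D) hn
  refine ⟨f, f0, fK, fj, fun i => ?_⟩
  have hi := i.2
  unfold pkW
  rw [hf]
  unfold H763.edge
  simp only
  rw [H763.getD_map_range' _ _ (by omega), H763.getD_map_range' _ _ (by omega),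
    Nat.mod_eq_of_lt (fj _ (by omega)), Nat.mod_eq_of_lt (fj _ (by omega))]
  exact ⟨rfl, rfl⟩

theorem posX_of_le {K Z g μ B lo n : ℕ} (h : n ≤ 2 * K * g) :
    posX K Z g μ B lo n = posN μ B lo Z g n := by
  unfold posX
  rw [Nat.mod_eq_of_lt (by omega)]

theorem mul_le_aux {K g x : ℕ} (h : x ≤ 2 * g) : x * K ≤ 2 * K * g := by
  calc x * K ≤ 2 * g * K := Nat.mul_le_mul_right _ h
    _ = 2 * K * g := by ring

/-- **The certified cost is below the cost of the stored path**, one window later. -/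
theorem cR_le_storedW {m ℓ μ B w0 J S H Kc D1 : ℕ} (X : MPW) {LB : ℕ → ℕ → List ℕ}
    (hLB : ∀ s a, LB s a ≠ []) {ω : Rnd} {vis hid : Leaf}
    (hE : ∃ p q, H140.Ed (clsPar m ℓ μ B w0 J S H Kc D1) p q)
    (hle : HidLe (clsPar m ℓ μ B w0 J S H Kc D1) vis hid)
    {j i a s q κ : ℕ} {b : ℤ} (hj : 0 < j) (hs : s < S) (hsj : 2 ^ s ∣ j) (hq : q < X.cnt s)
    (hκ : (κ : ℤ) ≤ b + H) (hT : 0 < X.T s) {D : ℕ → ℕ → ℕ → ℕ → ℕ → ℕ}
    (hD : D = hist (clsPar m ℓ μ B w0 J S H Kc D1) ω vis hid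
      (rd (clsPar m ℓ μ B w0 J S H Kc D1) (machW X LB m μ B w0) ω vis hid) j i a s)
    {K Z lo : ℕ} (hK : K = (2 ^ m) ^ 2 ^ s) (hZ : Z = wd m w0 (j - 2 ^ s) (cl a))
    (hlo : lo = bx a * (K * Z)) :
    cR (clsPar m ℓ μ B w0 J S H Kc D1) (machW X LB m μ B w0) ω vis hid j i a b
        (posN μ B lo Z (X.g s) (qA (2 * X.g s) q * K))
        (posN μ B lo Z (X.g s) (min (qB (2 * X.g s) q) (2 * X.g s) * K)) ≤
      ∑ i' : Fin (K + 2), nodeW K Z (X.g s) μ B lo (LB s a) D (κ + 2 ^ s) i'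
        (pkW K (2 ^ s) (m * 2 ^ s) Z (X.g s) (X.NL s) (X.Dl s) (X.R s) (X.T s) (X.Sh s) (X.Rh s)
          X.C μ B lo q κ (cl a) (LB s a) (hLB s a) D
          (ω.coin j s (qS (2 * X.g s) (X.NL s) (X.Dl s) (X.R s) q) % X.T s) i').1
        (pkW K (2 ^ s) (m * 2 ^ s) Z (X.g s) (X.NL s) (X.Dl s) (X.R s) (X.T s) (X.Sh s) (X.Rh s)
          X.C μ B lo q κ (cl a) (LB s a) (hLB s a) D
          (ω.coin j s (qS (2 * X.g s) (X.NL s) (X.Dl s) (X.R s) q) % X.T s) i').2 := by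
  have hK0 : 0 < K := hK ▸ pow_pos (by positivity) _
  obtain ⟨f, f0, fK, -, fe⟩ := pkW_nodes (K := K) (h := 2 ^ s) (wm := m * 2 ^ s) (Z := Z)
    (g := X.g s) (NL := X.NL s) (Dl := X.Dl s) (R := X.R s) (Sh := X.Sh s) (Rh := X.Rh s)
    (Cc := X.C) (μ := μ) (B := B) (lo := lo) (q := q) (κ := κ) (ca := cl a) (hLB s a) (D := D)
    (Nat.mod_lt (ω.coin j s (qS (2 * X.g s) (X.NL s) (X.Dl s) (X.R s) q)) hT)
  have h1 := cR_le_lane (P := clsPar m ℓ μ B w0 J S H Kc D1) (mc := machW X LB m μ B w0) (ω := ω)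
    (i := i) (a := a) hE hle (b := b) hj hs hsj hq hκ
    (posN μ B lo Z (X.g s) (qA (2 * X.g s) q * K))
    (posN μ B lo Z (X.g s) (min (qB (2 * X.g s) q) (2 * X.g s) * K))
  refine h1.trans (le_of_eq ?_)
  have h2 : ∀ r, r < K → laneOf (clsPar m ℓ μ B w0 J S H Kc D1) (machW X LB m μ B w0) ω vis hid
      (rd (clsPar m ℓ μ B w0 J S H Kc D1) (machW X LB m μ B w0) ω vis hid) j i a s q κ r =
      pieceW K Z (X.g s) μ B lo (LB s a) (f (r + 1)) (f (r + 2)) := by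
    intro r hr
    have h3 := laneWN_eq (K := K) (h := 2 ^ s) (wm := m * 2 ^ s) (Z := Z) (g := X.g s)
      (NL := X.NL s) (Dl := X.Dl s) (R := X.R s) (Sh := X.Sh s) (Rh := X.Rh s) (C := X.C) (μ := μ)
      (B := B) (lo := lo) (q := q) (κ := κ) (ca := cl a) (hLB s a) (D := D)
      (coin := ω.coin j s) hT hr
    rw [(fe _).1, (fe _).2] at h3
    unfold laneOf
    rw [← hD]
    subst hlo hK hZ
    exact h3
  have h4 : ∑ i' : Fin (K + 2), nodeW K Z (X.g s) μ B lo (LB s a) D (κ + 2 ^ s) i'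
        (pkW K (2 ^ s) (m * 2 ^ s) Z (X.g s) (X.NL s) (X.Dl s) (X.R s) (X.T s) (X.Sh s) (X.Rh s)
          X.C μ B lo q κ (cl a) (LB s a) (hLB s a) D
          (ω.coin j s (qS (2 * X.g s) (X.NL s) (X.Dl s) (X.R s) q) % X.T s) i').1
        (pkW K (2 ^ s) (m * 2 ^ s) Z (X.g s) (X.NL s) (X.Dl s) (X.R s) (X.T s) (X.Sh s) (X.Rh s)
          X.C μ B lo q κ (cl a) (LB s a) (hLB s a) D
          (ω.coin j s (qS (2 * X.g s) (X.NL s) (X.Dl s) (X.R s) q) % X.T s) i').2 =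
      ∑ i' ∈ range (K + 2), nodeW K Z (X.g s) μ B lo (LB s a) D (κ + 2 ^ s) i' (f i')
        (f (i' + 1)) := by
    rw [← Fin.sum_univ_eq_sum_range (fun i' => nodeW K Z (X.g s) μ B lo (LB s a) D (κ + 2 ^ s) i'
      (f i') (f (i' + 1)))]
    exact Finset.sum_congr rfl fun i' _ => by rw [(fe i').1, (fe i').2]
  have p0 : posN μ B lo Z (X.g s) (qA (2 * X.g s) q * K) = posX K Z (X.g s) μ B lo (f 0) := by
    rw [f0, posX_of_le (mul_le_aux (qA_le q))]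
  have pK : posN μ B lo Z (X.g s) (min (qB (2 * X.g s) q) (2 * X.g s) * K) =
      posX K Z (X.g s) μ B lo (f (K + 2)) := by
    rw [fK, posX_of_le (mul_le_aux (min_le_right _ _))]
  rw [h4, ← rcost_nodesW hK0 D (κ + 2 ^ s) f, p0, pK]
  show rcost 2 ((2 ^ m) ^ 2 ^ s) _ _ _ _ = _
  rw [← hK, ← hD]
  refine rcost_congr (fun r hr => ?_) fun r hr => ?_
  · rw [h2 r hr]; rfl
  · rw [h2 r hr]; rfl

end Vale.Agent.P315.H763
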