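import Vale.Agent.P315.H838.PlugFam
import Vale.Agent.P315.H244.ClsF
import Vale.Agent.P315.H808.Fin2W

/-!
P315, milestone 2 (helper763): the machine inequality of the single classes for the machines of
the family, and `FinalFam2`.
-/

set_option autoImplicit false

open Finset Filter

namespace Vale.Agent.P315.H763

open Vale.Agent.P315.C Vale.Agent.P315.Acc
open Vale.Agent.P315.H95 (cl bx ac wd clsPar mass)
open Vale.Agent.P315.H808 (Chain Along rW rW_of_lt FamOK2 MachRow2 FinalFam2 finalFam2_of ratOK_rW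
  W_eq_mass mass_lab_bounds)
open Vale.Agent.P315.H846 (Inst2 Cut2 q2 goodU)
open Vale.Agent.P315.H155 (famMPW famMach fam2)
open Vale.Agent.P315.H638 (ZT loT a0T b0T lightT)
open Vale.Agent.P315.H659 (toRnd FailReg pF)
open Vale.Agent.P315.H731 (av)
open H869.Units (Light)

section

variable {m ℓ μ B w0 J S' H Kc D1 n Cn q κr S : ℕ} {N : ℤ} {vis hid : Leaf} {S0 : ℕ → ℕ}
  {C : Chain (clsPar (20 * m) ℓ μ B w0 J S' H (Kc + 3) D1) vis hid n}

/-- Number of rounds in which the samples of the scale `s` have to be good. -/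
def nrW (K : Cut2 (q2 (20 * m) ℓ μ B w0 J S' H Kc D1 (famMach m μ B w0 Kc) n N Cn q) C)
    (o s : ℕ) : ℕ :=
  K.NB * 16 ^ (K.smax - s) * (16 ^ s * m ^ 2) + (K.lo + o + H + (16 ^ s * m ^ 2 : ℕ)).toNat

/-- The failure event of the top of the region number `a` of the scale `s` above the row `x`. -/
def failW (K : Cut2 (q2 (20 * m) ℓ μ B w0 J S' H Kc D1 (famMach m μ B w0 Kc) n N Cn q) C)
    (w : (q2 (20 * m) ℓ μ B w0 J S' H Kc D1 (famMach m μ B w0 Kc) n N Cn q).Seed) (o s a : ℕ)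
    (x : Fin ((q2 (20 * m) ℓ μ B w0 J S' H Kc D1 (famMach m μ B w0 Kc) n N Cn q).P.M ^
      (q2 (20 * m) ℓ μ B w0 J S' H Kc D1 (famMach m μ B w0 Kc) n N Cn q).n)) : Prop :=
  FailReg (famMPW m) (labL (20 * m) (Kc + 3)) (fun _ _ => labL_ne _ _ _ _) (20 * m) μ B w0
    (a * 2 ^ s + 2 ^ s) s
    (C.lab (a * 2 ^ s + 2 ^ s) ((x : ℕ) / (2 ^ (20 * m)) ^ (a * 2 ^ s + 2 ^ s)))
    (a0T C ((famMPW m).g s) s (a * 2 ^ s) ((x : ℕ) / (2 ^ (20 * m)) ^ (a * 2 ^ s + 2 ^ s)))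
    (b0T C ((famMPW m).g s) s (a * 2 ^ s) ((x : ℕ) / (2 ^ (20 * m)) ^ (a * 2 ^ s + 2 ^ s)))
    (nrW K o s)
    (2 * ((((2 ^ (20 * m)) ^ 2 ^ s : ℕ) : ℝ) * (ZT (20 * m) w0 (a * 2 ^ s)
      (C.lab (a * 2 ^ s + 2 ^ s) ((x : ℕ) / (2 ^ (20 * m)) ^ (a * 2 ^ s + 2 ^ s))) : ℕ)))
    ((((2 ^ (20 * m)) ^ 2 ^ s : ℕ) : ℝ) * (ZT (20 * m) w0 (a * 2 ^ s)
      (C.lab (a * 2 ^ s + 2 ^ s) ((x : ℕ) / (2 ^ (20 * m)) ^ (a * 2 ^ s + 2 ^ s))) : ℕ) *
        Par.dlm m s)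
    (hist (clsPar (20 * m) ℓ μ B w0 J S' H (Kc + 3) D1) (toRnd J w) vis hid
      (rd (clsPar (20 * m) ℓ μ B w0 J S' H (Kc + 3) D1) (famMach m μ B w0 Kc) (toRnd J w)
        vis hid) (a * 2 ^ s + 2 ^ s) ((x : ℕ) / (2 ^ (20 * m)) ^ (a * 2 ^ s + 2 ^ s))
      (C.lab (a * 2 ^ s + 2 ^ s) ((x : ℕ) / (2 ^ (20 * m)) ^ (a * 2 ^ s + 2 ^ s))) s)
    ((toRnd J w).coin (a * 2 ^ s + 2 ^ s) s)

/-- The number of own blocks against `nrW`. -/
theorem le_nrW {nb len off : ℕ} {j0 z : ℤ} (hoff : off < len) (hj : j0 * len - off ≤ z) :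
    ((nb : ℤ) + j0).toNat * len ≤ nb * len + (z + (len : ℕ)).toNat := by
  by_cases h : 0 ≤ (nb : ℤ) + j0
  · have h1 : ((((nb : ℤ) + j0).toNat * len : ℕ) : ℤ) = nb * len + j0 * len := by
      rw [Nat.cast_mul, Int.toNat_of_nonneg h]; ring
    have h2 := Int.self_le_toNat (z + (len : ℕ))
    have h3 : ((((nb : ℤ) + j0).toNat * len : ℕ) : ℤ) ≤
        ((nb * len + (z + (len : ℕ)).toNat : ℕ) : ℤ) := by
      rw [h1]
      push_cast
      have h4 : (off : ℤ) < len := by exact_mod_cast hoff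
      linarith
    exact_mod_cast h3
  · have h1 : ((nb : ℤ) + j0).toNat = 0 := Int.toNat_of_nonpos (by omega)
    rw [h1, Nat.zero_mul]
    exact Nat.zero_le _

theorem card_filter_inst (s : Finset ℕ) (p : ℕ → Prop) (i1 i2 : DecidablePred p) :
    (@Finset.filter _ p i1 s).card = (@Finset.filter _ p i2 s).card := by
  rw [Subsingleton.elim i1 i2]

open Classical in
/-- **The machine inequality of the single classes** for the machines of the family. -/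
theorem machRow2 {eps0 : ℝ} (F : FamOK2 m n S ℓ μ B w0 Kc κr)
    (hI : Inst2 (clsPar (20 * m) ℓ μ B w0 J S' H (Kc + 3) D1) (20 * m) w0 Kc κr vis hid n S0 C)
    (K : Cut2 (q2 (20 * m) ℓ μ B w0 J S' H Kc D1 (famMach m μ B w0 Kc) n N Cn q) C)
    [Nonempty (Fin ((q2 (20 * m) ℓ μ B w0 J S' H Kc D1 (famMach m μ B w0 Kc) n N Cn q).P.M ^
      (q2 (20 * m) ℓ μ B w0 J S' H Kc D1 (famMach m μ B w0 Kc) n N Cn q).n))]
    (hS' : K.smax < S') (hS : K.smax ≤ S) (hH : n ≤ H) (hHn : 16 ^ K.smax * m ^ 2 ≤ H - n)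
    (hD0 : K.D0 = m ^ 2) :
    MachRow2 eps0 5360 229 5200 m K (goodU (20 * m) n C.lab) (rW K) (failW K) := by
  have hm : 0 < m := by have := F.hm; omega
  have hg : ∀ s, 0 < (famMPW m).g s := fun s => by show 0 < 2 ^ _; positivity
  have hZ := fun w => H244.zfamF (g := (famMPW m).g) hI K w F.hμ hH (fun s _ _ => hg s)
    (fun s _ h => F.g_dvd_w0 (h.trans hS))
  refine ⟨fun w => H244.R2 K w (hZ w), fun w s h1 h2 => ?_, ?_⟩
  · rw [H244.R2_tau]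
    exact F.tau_le s
  intro w o s a x ho h1 h2 ha hnF l hl hlam
  have e1 : (a + 1) * 2 ^ s = a * 2 ^ s + 2 ^ s := by ring
  have ha2 : a * 2 ^ s + 2 ^ s < n := by rw [← e1]; exact ha
  have hlen0 : 0 < 16 ^ s * m ^ 2 := by positivity
  obtain ⟨off, j0, hoff, hj0⟩ := H838.exists_off
    (K.lo + o + H - (K.al w).S (a * 2 ^ s + 2 ^ s) x) hlen0
  have hlenD : 16 ^ s * m ^ 2 = (K.sys w).D s := by
    show _ = 16 ^ s * K.D0
    rw [hD0]
  have hi : (x : ℕ) / (2 ^ (20 * m)) ^ (a * 2 ^ s + 2 ^ s) <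
      (2 ^ (20 * m)) ^ (n - (a * 2 ^ s + 2 ^ s)) :=
    Along.quot_lt (M := 2 ^ (20 * m)) (by positivity) ha2.le x
  have hlenH : 16 ^ s * m ^ 2 ≤ H - n :=
    (Nat.mul_le_mul_right _ (Nat.pow_le_pow_right (by norm_num) h2)).trans hHn
  obtain ⟨hst, hact⟩ := H244.cls_R2 hI K w (hZ w) F.hμ hH h1 h2 ha2 (hg s)
    (F.g_dvd_w0 (h2.trans hS)) (o := o) (l := l) x (len := 16 ^ s * m ^ 2) (off := off)
    hlenH hoff hlenD hj0
  -- the ratio
  obtain ⟨f1, f2, f3⟩ := mass_lab_bounds hI ha2 hi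
  have hr8 : 1 / 8 ≤ rW K w s a x := by
    rw [rW_of_lt K w x ha, e1, H808.W_eq_mass hI, le_div_iff₀ (by exact_mod_cast f1)]
    have e4 : ((wd (20 * m) w0 (a * 2 ^ s + 2 ^ s) (cl (C.lab (a * 2 ^ s + 2 ^ s)
        ((x : ℕ) / (2 ^ (20 * m)) ^ (a * 2 ^ s + 2 ^ s)))) : ℕ) : ℝ) ≤
        8 * (mass (20 * m) S0 (a * 2 ^ s + 2 ^ s)
          ((x : ℕ) / (2 ^ (20 * m)) ^ (a * 2 ^ s + 2 ^ s)) : ℕ) := by
      exact_mod_cast f3
    linarith
  have hth := Par.thm_pos m s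
  have hlth : 3 / 32 * Par.thm m s < (1 / 2 : ℝ) ^ l := by
    have h5 := hlam.1
    have h6 : 3 / 4 * Par.thm m s * (1 / 8) ≤ 3 / 4 * Par.thm m s * rW K w s a x :=
      mul_le_mul_of_nonneg_left hr8 (by positivity)
    linarith
  have hdl : 72 * Par.dlm m s ≤ 1 := by
    have h5 := F.hdl s
    have h6 := F.hth s
    have h7 := Par.dlm_pos m s
    linarith
  -- good units
  set gd : ℕ → Prop := fun k => (a + 1) * 2 ^ s = n ∨
    ¬ Light (20 * m) (2 ^ s) (cl (C.lab ((a + 1) * 2 ^ s) (k / (2 ^ (20 * m)) ^ 2 ^ s)))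
      (C.lab (a * 2 ^ s) k) with hgd
  have hNR : ((((K.sys w).nb s : ℕ) : ℤ) + j0).toNat * (16 ^ s * m ^ 2) ≤ nrW K o s := by
    have h5 := le_nrW (nb := (K.sys w).nb s) (z := K.lo + o + H) hoff
      (by rw [hj0]; have : (0 : ℤ) ≤ ((K.al w).S (a * 2 ^ s + 2 ^ s) x : ℕ) := Int.natCast_nonneg _
          linarith)
    exact h5
  obtain ⟨Qv, err, hQ0, hQ, herr, hreg⟩ := Fin2.plugFam hI (toRnd J w) F.hm h1
    (h2.trans_lt hS') ha2 hi F.hμ (F.g_dvd_w0 (h2.trans hS)) (F.hth s) hdl hlth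
    (F.two_pow_le_wd (h2.trans hS) hlth _ _ _) (off := off) hoff (gd := gd)
    (fun u hu hg' => by
      have h5 : ((x : ℕ) / (2 ^ (20 * m)) ^ (a * 2 ^ s + 2 ^ s) * (2 ^ (20 * m)) ^ 2 ^ s + u) /
          (2 ^ (20 * m)) ^ 2 ^ s = (x : ℕ) / (2 ^ (20 * m)) ^ (a * 2 ^ s + 2 ^ s) := by
        rw [mul_comm, Nat.mul_add_div (by positivity), Nat.div_eq_of_lt hu, add_zero]
      rcases hg' with h6 | h6
      · exact absurd h6 (ne_of_lt ha)
      · rw [h5, e1] at h6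
        exact h6)
    (NR := nrW K o s) (N := ((((K.sys w).nb s : ℕ) : ℤ) + j0).toNat) (jc := j0.toNat)
    (by
      have h5 := hnF
      unfold failW FailReg at h5
      rw [Nat.add_sub_cancel] at h5
      exact h5)
    hNR
  refine ⟨Qv, err, hQ, herr, fun A hA => ?_⟩
  have key := Along.topW (K.al w) (H244.R2 K w (hZ w)) (C7 := 8)
    (good := goodU (20 * m) n C.lab) (s := s) (a := a) (gd := gd)
    ((Nat.le_div_iff_mul_le (by positivity)).2 ha.le)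
    (fun y => by
      have h5 : (y : ℕ) / (2 ^ (20 * m)) ^ (a * 2 ^ s) / (2 ^ (20 * m)) ^ 2 ^ s =
          (y : ℕ) / (2 ^ (20 * m)) ^ ((a + 1) * 2 ^ s) := by
        rw [Nat.div_div_eq_div_mul, ← pow_add, e1]
      show _ ↔ _ ∨ ¬ Light (20 * m) (2 ^ s) (cl (C.lab ((a + 1) * 2 ^ s)
        ((y : ℕ) / (2 ^ (20 * m)) ^ (a * 2 ^ s) / (2 ^ (20 * m)) ^ 2 ^ s))) _
      rw [h5]
      exact Iff.rfl)
    x (i := (x : ℕ) / (2 ^ (20 * m)) ^ (a * 2 ^ s + 2 ^ s)) rfl (H := H) (o := o) (off := off)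
    (j0 := j0) (len := 16 ^ s * m ^ 2) (nb := (K.sys w).nb s) hlenD hj0
    (cl := fun k => H295.clsR (H244.R2 K w (hZ w)) (rW K w) o s a l x k)
    (cN := 64 * (1 / 2) ^ l)
    (fun k _ hk => by
      have h5 : rW K w s a x * (H244.R2 K w (hZ w)).m o s a x k < (1 / 2 : ℝ) ^ l := hk.2
      have h6 : 0 ≤ (H244.R2 K w (hZ w)).m o s a x k := by
        by_contra hcon
        push Not at hcon
        have h7 : (1 / 2 : ℝ) ^ (l + 1) ≤
          rW K w s a x * (H244.R2 K w (hZ w)).m o s a x k := hk.1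
        have h8 : rW K w s a x * (H244.R2 K w (hZ w)).m o s a x k < 0 :=
          mul_neg_of_pos_of_neg (by linarith) hcon
        have h9 : (0 : ℝ) < (1 / 2) ^ (l + 1) := by positivity
        linarith
      have h7 : 1 / 8 * (H244.R2 K w (hZ w)).m o s a x k ≤
          rW K w s a x * (H244.R2 K w (hZ w)).m o s a x k := mul_le_mul_of_nonneg_right hr8 h6
      show 8 * (H244.R2 K w (hZ w)).m o s a x k ≤ 64 * (1 / 2) ^ l
      linarith)
    (fun k _ hk => hst k hk) (fun k _ j hj => hact k j hj) hlen0 (Q := Qv)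
    (err := err) hQ0
    (fun A' g1 g2 g3 _ => by
      refine (hreg A' g1 g2 g3).trans (le_of_eq ?_)
      exact congrArg₂ (· + ·) (congrArg₂ (· + ·) rfl
        (congrArg (fun z : ℕ => (1 + (z : ℝ)) * Qv) (card_filter_inst _ _ _ _))) rfl) A hA
  rw [← hlenD]
  exact key

end

section

variable {m k cd D1 n S ℓ μ B w0 Kc κr : ℕ} {vis hid : Leaf}
  {C : Chain (fam2 m k cd D1 n S ℓ μ B w0 Kc κr).P vis hid
    (fam2 m k cd D1 n S ℓ μ B w0 Kc κr).n}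

/-- **Probability of the failure event.** -/
theorem failW_prob (K : Cut2 (fam2 m k cd D1 n S ℓ μ B w0 Kc κr) C) (hw0 : 0 < w0) {o s a : ℕ}
    (x : Fin ((fam2 m k cd D1 n S ℓ μ B w0 Kc κr).P.M ^
      (fam2 m k cd D1 n S ℓ μ B w0 Kc κr).n)) (hs : s ≤ S) (ha : a * 2 ^ s + 2 ^ s < n) :
    av (fun w : (fam2 m k cd D1 n S ℓ μ B w0 Kc κr).Seed => ind (failW K w o s a x)) ≤
      pF 2 m s := by
  have hZ : 0 < wd (20 * m) w0 (a * 2 ^ s) (cl (C.lab (a * 2 ^ s + 2 ^ s)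
      ((x : ℕ) / (2 ^ (20 * m)) ^ (a * 2 ^ s + 2 ^ s)))) := H95.wd_pos hw0 _ _
  have hZr : (0 : ℝ) < (((2 ^ (20 * m)) ^ 2 ^ s : ℕ) : ℝ) * (ZT (20 * m) w0 (a * 2 ^ s)
      (C.lab (a * 2 ^ s + 2 ^ s) ((x : ℕ) / (2 ^ (20 * m)) ^ (a * 2 ^ s + 2 ^ s))) : ℕ) := by
    have h1 : (0 : ℝ) < ((ZT (20 * m) w0 (a * 2 ^ s) (C.lab (a * 2 ^ s + 2 ^ s)
      ((x : ℕ) / (2 ^ (20 * m)) ^ (a * 2 ^ s + 2 ^ s))) : ℕ) : ℝ) := by exact_mod_cast hZ
    positivity
  have hd := Par.dlm_pos m s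
  exact H659.failReg_prob (k := k) (cd := cd) (D1 := D1) (n := n) (S := S) (ℓ := ℓ) (κr := κr)
    vis hid (Cb := 2) (by norm_num) hs (by positivity) ha.le _ _ (by linarith)
    (mul_pos hZr hd) (by linarith)

end

/-- **`FinalFam2`.** -/
theorem finalFam2 : FinalFam2 5360 229 5200 2 := by
  refine finalFam2_of fun eps0 _ _ => Filter.Eventually.of_forall fun m => ?_
  intro k cd D1 n S ℓ μ B w0 Kc κr _ _ F vis hid S0 C hI K hne _ k2 _ k4 _
  refine ⟨failW K, ?_, ?_⟩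
  · intro o s a x _ _ hs ha
    have e1 : (a + 1) * 2 ^ s = a * 2 ^ s + 2 ^ s := by ring
    exact failW_prob K F.hw0 x (hs.trans k2.le) (by rw [← e1]; exact ha)
  · have hH : n + 16 ^ S * m ^ 2 ≤ famH m n S :=
      Nat.add_le_add_right (Nat.le_add_right _ _) _
    have hne2 : Nonempty (Fin ((clsPar (20 * m) ℓ μ B w0 (2 ^ k - 1) (S + 1) (famH m n S)
      (Kc + 3) D1).M ^ n)) := hne
    exact machRow2 F hI K (by rw [k2]; omega) k2.le (by omega) (by rw [k2]; omega) k4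

/-- **The query theorem of milestone 2.** -/
theorem stmtQT2 : H846.StmtQT2 fam2 :=
  H808.stmtQT2_of_final (by norm_num) (by norm_num) (by norm_num) (by norm_num) finalFam2

end Vale.Agent.P315.H763
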