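import Mathlib

/-! P315 (helper763): greedy minimisation of `⟨L, x⟩ + Σ x log x` over mixtures of pure strategies
(paths of a layered graph).  `T` greedy picks, the weight of an edge with count `c` is
`L + lam c`, `lam c ≈ log (c + 1) + const`.  No step sizes, no smoothing: only Gibbs' inequality and
`(a+b)! / (a! b!) ≤ (a+b)^(a+b) / (a^a b^b)`. -/

set_option autoImplicit false

namespace Vale.Agent.P315.H763

open Finset

/-- `log c! - c log c`. -/
noncomputable def gf (c : ℕ) : ℝ := Real.log (c.factorial) - c * Real.log c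

theorem gf_zero : gf 0 = 0 := by simp [gf]

/-- `g (a + b) ≤ g a + g b`. -/
theorem gf_add (a b : ℕ) : gf (a + b) ≤ gf a + gf b := by
  rcases Nat.eq_zero_or_pos a with rfl | ha
  · simp [gf_zero]
  rcases Nat.eq_zero_or_pos b with rfl | hb
  · simp [gf_zero]
  -- the term of the binomial theorem
  have h1 : a ^ a * b ^ b * (a + b).choose a ≤ (a + b) ^ (a + b) := by
    rw [add_pow]
    have h2 : a ^ a * b ^ (a + b - a) * ((a + b).choose a) ≤
        ∑ m ∈ range (a + b + 1), a ^ m * b ^ (a + b - m) * ((a + b).choose m) :=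
      Finset.single_le_sum (f := fun m => a ^ m * b ^ (a + b - m) * ((a + b).choose m))
        (fun _ _ => Nat.zero_le _) (by simp)
    simpa using h2
  have h3 : (a + b).choose a * a.factorial * b.factorial = (a + b).factorial := by
    have := Nat.choose_mul_factorial_mul_factorial (n := a + b) (k := a) (by omega)
    simpa using this
  have h4 : a ^ a * b ^ b * (a + b).factorial ≤
      (a + b) ^ (a + b) * (a.factorial * b.factorial) := by
    rw [← h3]
    calc a ^ a * b ^ b * ((a + b).choose a * a.factorial * b.factorial)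
        = a ^ a * b ^ b * (a + b).choose a * (a.factorial * b.factorial) := by ring
      _ ≤ _ := Nat.mul_le_mul_right _ h1
  have h5 : ((a : ℝ) ^ a * (b : ℝ) ^ b * ((a + b).factorial : ℝ)) ≤
      ((a : ℝ) + b) ^ (a + b) * ((a.factorial : ℝ) * b.factorial) := by exact_mod_cast h4
  have ha' : (0 : ℝ) < a := by exact_mod_cast ha
  have hb' : (0 : ℝ) < b := by exact_mod_cast hb
  have hfa : (0 : ℝ) < a.factorial := by exact_mod_cast a.factorial_pos
  have hfb : (0 : ℝ) < b.factorial := by exact_mod_cast b.factorial_pos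
  have hfab : (0 : ℝ) < (a + b).factorial := by exact_mod_cast (a + b).factorial_pos
  have h6 := Real.log_le_log (by positivity) h5
  rw [Real.log_mul (by positivity) hfab.ne', Real.log_mul (by positivity) (by positivity),
    Real.log_mul (by positivity) (by positivity), Real.log_mul hfa.ne' hfb.ne', Real.log_pow,
    Real.log_pow, Real.log_pow] at h6
  unfold gf
  push_cast at h6 ⊢
  linarith

theorem gf_sum {E : Type*} (s : Finset E) (c : E → ℕ) : gf (∑ e ∈ s, c e) ≤ ∑ e ∈ s, gf (c e) := by
  classical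
  induction s using Finset.induction_on with
  | empty => simp [gf_zero]
  | insert e s he ih =>
    rw [sum_insert he, sum_insert he]
    exact (gf_add _ _).trans (by linarith)

/-- Gibbs. -/
theorem gibbs {E : Type*} [Fintype E] (Y z : E → ℝ) (A : ℝ) (hY : ∀ e, 0 ≤ Y e)
    (hY1 : ∑ e, Y e = 1) (hz : ∀ e, 0 < z e) (hzA : ∑ e, z e = A) :
    ∑ e, Y e * Real.log (z e) ≤ ∑ e, Y e * Real.log (Y e) + Real.log A := by
  have hne : Nonempty E := by
    by_contra h
    rw [not_nonempty_iff] at h
    simp at hY1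
  have hA : 0 < A := by
    rw [← hzA]
    exact Finset.sum_pos (fun e _ => hz e) univ_nonempty
  have h1 : ∀ e, Y e * Real.log (z e) ≤ Y e * Real.log (Y e) + Y e * Real.log A +
      (z e / A - Y e) := by
    intro e
    rcases (hY e).eq_or_lt with h0 | h0
    · rw [← h0]
      have : 0 ≤ z e / A := div_nonneg (hz e).le hA.le
      simpa using this
    · have h2 := Real.log_le_sub_one_of_pos (x := z e / (Y e * A)) (by have := hz e; positivity)
      rw [Real.log_div (hz e).ne' (by positivity), Real.log_mul h0.ne' hA.ne'] at h2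
      have h3 := mul_le_mul_of_nonneg_left h2 h0.le
      have h4 : Y e * (z e / (Y e * A) - 1) = z e / A - Y e := by
        field_simp
      rw [h4] at h3
      linarith
  calc ∑ e, Y e * Real.log (z e)
      ≤ ∑ e, (Y e * Real.log (Y e) + Y e * Real.log A + (z e / A - Y e)) :=
        sum_le_sum fun e _ => h1 e
    _ = ∑ e, Y e * Real.log (Y e) + (∑ e, Y e) * Real.log A +
        ((∑ e, z e) / A - ∑ e, Y e) := by
        rw [sum_add_distrib, sum_add_distrib, sum_sub_distrib, sum_mul, sum_div]
    _ = _ := by rw [hY1, hzA, div_self hA.ne']; ring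

/-- `Σ_{t < T} log (t + 1) = log T!`. -/
theorem sum_log_one (T : ℕ) :
    ∑ t ∈ range T, Real.log ((t : ℝ) + 1) = Real.log (T.factorial) := by
  induction T with
  | zero => simp
  | succ T ih =>
    rw [sum_range_succ, ih, Nat.factorial_succ]
    have h1 : ((T : ℝ) + 1) ≠ 0 := by positivity
    have hf : (T.factorial : ℝ) ≠ 0 := by exact_mod_cast T.factorial_pos.ne'
    push_cast
    rw [Real.log_mul h1 hf]
    ring

/-- `Σ_{t < T} log (t + m) ≤ log T! + m log (T + m)`. -/
theorem sum_log_add (T : ℕ) (m : ℕ) (hm : 1 ≤ m) :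
    ∑ t ∈ range T, Real.log ((t : ℝ) + m) ≤
      Real.log (T.factorial) + m * Real.log ((T : ℝ) + m) := by
  induction m, hm using Nat.le_induction with
  | base =>
    have h := sum_log_one T
    have h1 : 0 ≤ Real.log ((T : ℝ) + 1) := Real.log_nonneg (by
      have : (0 : ℝ) ≤ T := by positivity
      linarith)
    simp only [Nat.cast_one, one_mul]
    linarith
  | succ m hm ih =>
    have hm' : (1 : ℝ) ≤ m := by exact_mod_cast hm
    have hT0 : (0 : ℝ) ≤ T := by positivity
    -- telescoping
    have h1 : ∑ t ∈ range T, Real.log ((t : ℝ) + ((m + 1 : ℕ) : ℝ)) -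
        ∑ t ∈ range T, Real.log ((t : ℝ) + m) = Real.log ((T : ℝ) + m) - Real.log m := by
      rw [← sum_sub_distrib]
      have h2 := Finset.sum_range_sub (fun t : ℕ => Real.log ((t : ℝ) + m)) T
      simp only [Nat.cast_zero, zero_add] at h2
      rw [← h2]
      refine sum_congr rfl fun t _ => ?_
      push_cast
      ring_nf
    have h3 : 0 ≤ Real.log (m : ℝ) := Real.log_nonneg hm'
    have h4 : Real.log ((T : ℝ) + m) ≤ Real.log ((T : ℝ) + ((m + 1 : ℕ) : ℝ)) :=
      Real.log_le_log (by positivity) (by push_cast; linarith)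
    have h5 : (m : ℝ) * Real.log ((T : ℝ) + m) ≤ m * Real.log ((T : ℝ) + ((m + 1 : ℕ) : ℝ)) :=
      mul_le_mul_of_nonneg_left h4 (by positivity)
    have h6 : 0 ≤ Real.log ((T : ℝ) + ((m + 1 : ℕ) : ℝ)) := Real.log_nonneg (by
      push_cast; linarith)
    have h7 : (((m + 1 : ℕ) : ℝ)) * Real.log ((T : ℝ) + ((m + 1 : ℕ) : ℝ)) =
        m * Real.log ((T : ℝ) + ((m + 1 : ℕ) : ℝ)) + Real.log ((T : ℝ) + ((m + 1 : ℕ) : ℝ)) := by
      push_cast; ring
    rw [h7]
    linarith

section greedy

set_option linter.unusedSectionVars false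

variable {ι E Q : Type*} [Fintype ι] [Fintype E] [DecidableEq E] [Fintype Q]

/-- The number of the first `t` picks which use edge `e` in row `i`. -/
def cnt (a : Q → ι → E) (g : ℕ → Q) (t : ℕ) (i : ι) (e : E) : ℕ :=
  ((range t).filter fun s => a (g s) i = e).card

theorem cnt_zero (a : Q → ι → E) (g : ℕ → Q) (i : ι) (e : E) : cnt a g 0 i e = 0 := by
  simp [cnt]

theorem cnt_succ (a : Q → ι → E) (g : ℕ → Q) (t : ℕ) (i : ι) (e : E) :
    cnt a g (t + 1) i e = cnt a g t i e + if a (g t) i = e then 1 else 0 := by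
  unfold cnt
  rw [range_add_one, filter_insert]
  split_ifs with h
  · rw [card_insert_of_notMem (by simp)]
  · rfl

theorem sum_cnt (a : Q → ι → E) (g : ℕ → Q) (t : ℕ) (i : ι) : ∑ e, cnt a g t i e = t := by
  induction t with
  | zero => simp [cnt_zero]
  | succ t ih =>
    simp only [cnt_succ, sum_add_distrib, ih, sum_ite_eq, mem_univ, if_true]

/-- The row marginals of a distribution `y` on the pure strategies. -/
def marg (a : Q → ι → E) (y : Q → ℝ) (i : ι) (e : E) : ℝ :=
  ∑ P, if a P i = e then y P else 0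

theorem marg_nonneg {a : Q → ι → E} {y : Q → ℝ} (hy : ∀ P, 0 ≤ y P) (i : ι) (e : E) :
    0 ≤ marg a y i e := sum_nonneg fun P _ => by split_ifs <;> simp [hy]

theorem sum_marg (a : Q → ι → E) (y : Q → ℝ) (i : ι) : ∑ e, marg a y i e = ∑ P, y P := by
  unfold marg
  rw [sum_comm]
  exact sum_congr rfl fun P _ => by simp

theorem sum_marg_mul (a : Q → ι → E) (y : Q → ℝ) (i : ι) (w : E → ℝ) :
    ∑ e, marg a y i e * w e = ∑ P, y P * w (a P i) := by
  unfold marg
  simp only [sum_mul, ite_mul, zero_mul]
  rw [sum_comm]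
  exact sum_congr rfl fun P _ => by simp

/-- The objective `Σ_i (⟨L_i, x_i⟩ + Σ_e x_i(e) log x_i(e))`. -/
noncomputable def obj (L : ι → E → ℝ) (x : ι → E → ℝ) : ℝ :=
  ∑ i, (∑ e, x i e * L i e + ∑ e, x i e * Real.log (x i e))

theorem cnt_le (a : Q → ι → E) (g : ℕ → Q) (t : ℕ) (i : ι) (e : E) : cnt a g t i e ≤ t := by
  unfold cnt
  exact (card_filter_le _ _).trans (by simp)

/-- Sum of the linear weights along the picks. -/
theorem sum_picks (a : Q → ι → E) (g : ℕ → Q) (T : ℕ) (i : ι) (w : E → ℝ) :
    ∑ t ∈ range T, w (a (g t) i) = ∑ e, (cnt a g T i e : ℝ) * w e := by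
  induction T with
  | zero => simp [cnt_zero]
  | succ T ih =>
    rw [sum_range_succ, ih]
    simp only [cnt_succ, Nat.cast_add, add_mul, sum_add_distrib]
    congr 1
    simp

theorem sum_log_cnt (a : Q → ι → E) (g : ℕ → Q) (T : ℕ) (i : ι) :
    ∑ t ∈ range T, Real.log ((cnt a g t i (a (g t) i) : ℝ) + 1) =
      ∑ e, Real.log ((cnt a g T i e).factorial) := by
  induction T with
  | zero => simp [cnt_zero]
  | succ T ih =>
    rw [sum_range_succ, ih]
    have h : ∀ e, Real.log (((cnt a g (T + 1) i e).factorial : ℕ) : ℝ) =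
        Real.log ((cnt a g T i e).factorial) +
          if a (g T) i = e then Real.log ((cnt a g T i e : ℝ) + 1) else 0 := by
      intro e
      rw [cnt_succ]
      split_ifs with h
      · rw [Nat.factorial_succ]
        push_cast
        rw [Real.log_mul (by positivity) (by
          exact_mod_cast (Nat.factorial_pos _).ne')]
        ring
      · simp
    simp only [h, sum_add_distrib, sum_ite_eq, mem_univ, if_true]

theorem greedy_near_min (a : Q → ι → E) (L : ι → E → ℝ) (lam : ℕ → ℝ) (C ε : ℝ) (T : ℕ)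
    (hT : 1 ≤ T) (hlam : ∀ j < T, |lam j - (Real.log ((j : ℝ) + 1) + C)| ≤ ε) (g : ℕ → Q)
    (hg : ∀ t < T, ∀ P, ∑ i, (L i (a (g t) i) + lam (cnt a g t i (a (g t) i))) ≤
      ∑ i, (L i (a P i) + lam (cnt a g t i (a P i))))
    (y : Q → ℝ) (hy : ∀ P, 0 ≤ y P) (hy1 : ∑ P, y P = 1) :
    obj L (fun i e => (cnt a g T i e : ℝ) / T) ≤ obj L (marg a y) +
      Fintype.card ι * (Fintype.card E * Real.log ((T : ℝ) + Fintype.card E) / T + 2 * ε) := by
  classical
  set m := Fintype.card E with hm
  set n := Fintype.card ι with hn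
  rcases isEmpty_or_nonempty ι with hι | hι
  · have : n = 0 := Fintype.card_eq_zero
    simp [obj, this]
  have hTpos : (0 : ℝ) < T := by exact_mod_cast hT
  have hm1 : 1 ≤ m := by
    have : Nonempty E := ⟨a (g 0) (Classical.arbitrary ι)⟩
    exact Fintype.card_pos
  have hcard : ∑ _i : ι, (1 : ℝ) = n := by simp [hn]
  -- one increment
  have hB : ∀ t < T, ∑ i, (L i (a (g t) i) + Real.log ((cnt a g t i (a (g t) i) : ℝ) + 1)) ≤
      obj L (marg a y) + n * Real.log ((t : ℝ) + m) + 2 * ε * n := by
    intro t ht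
    -- lower bound of the left side by lam
    have h1 : ∀ P, ∀ i, Real.log ((cnt a g t i (a P i) : ℝ) + 1) + C - ε ≤
        lam (cnt a g t i (a P i)) ∧ lam (cnt a g t i (a P i)) ≤
        Real.log ((cnt a g t i (a P i) : ℝ) + 1) + C + ε := by
      intro P i
      have := abs_le.mp (hlam (cnt a g t i (a P i)) ((cnt_le _ _ _ _ _).trans_lt ht))
      constructor <;> linarith [this.1, this.2]
    have h2 : ∑ i, (L i (a (g t) i) + Real.log ((cnt a g t i (a (g t) i) : ℝ) + 1)) +
        (C - ε) * n ≤ ∑ i, (L i (a (g t) i) + lam (cnt a g t i (a (g t) i))) := by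
      have : (C - ε) * n = ∑ _i : ι, (C - ε) := by
        rw [sum_const, card_univ, nsmul_eq_mul, mul_comm]
      rw [this, ← sum_add_distrib]
      exact sum_le_sum fun i _ => by linarith [(h1 (g t) i).1]
    have h3 : ∀ P, ∑ i, (L i (a P i) + lam (cnt a g t i (a P i))) ≤
        ∑ i, (L i (a P i) + Real.log ((cnt a g t i (a P i) : ℝ) + 1)) + (C + ε) * n := by
      intro P
      have : (C + ε) * n = ∑ _i : ι, (C + ε) := by
        rw [sum_const, card_univ, nsmul_eq_mul, mul_comm]
      rw [this, ← sum_add_distrib]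
      exact sum_le_sum fun i _ => by linarith [(h1 P i).2]
    -- average over y
    have h4 : ∑ i, (L i (a (g t) i) + lam (cnt a g t i (a (g t) i))) ≤
        ∑ P, y P * (∑ i, (L i (a P i) + Real.log ((cnt a g t i (a P i) : ℝ) + 1)) +
          (C + ε) * n) := by
      calc ∑ i, (L i (a (g t) i) + lam (cnt a g t i (a (g t) i)))
          = ∑ P, y P * ∑ i, (L i (a (g t) i) + lam (cnt a g t i (a (g t) i))) := by
            rw [← sum_mul, hy1, one_mul]
        _ ≤ _ := sum_le_sum fun P _ =>
            mul_le_mul_of_nonneg_left ((hg t ht P).trans (h3 P)) (hy P)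
    have h5 : ∑ P, y P * (∑ i, (L i (a P i) + Real.log ((cnt a g t i (a P i) : ℝ) + 1)) +
          (C + ε) * n) =
        ∑ i, (∑ e, marg a y i e * L i e +
          ∑ e, marg a y i e * Real.log ((cnt a g t i e : ℝ) + 1)) + (C + ε) * n := by
      have h6 : ∀ i, (∑ e, marg a y i e * L i e +
          ∑ e, marg a y i e * Real.log ((cnt a g t i e : ℝ) + 1)) =
          ∑ P, y P * (L i (a P i) + Real.log ((cnt a g t i (a P i) : ℝ) + 1)) := by
        intro i
        rw [sum_marg_mul a y i (L i), sum_marg_mul a y i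
          (fun e => Real.log ((cnt a g t i e : ℝ) + 1)), ← sum_add_distrib]
        exact sum_congr rfl fun P _ => by ring
      simp only [h6]
      rw [sum_comm]
      simp only [mul_add, mul_sum, sum_add_distrib]
      rw [← sum_mul, hy1, one_mul]
    -- Gibbs in every row
    have h7 : ∀ i, ∑ e, marg a y i e * Real.log ((cnt a g t i e : ℝ) + 1) ≤
        ∑ e, marg a y i e * Real.log (marg a y i e) + Real.log ((t : ℝ) + m) := by
      intro i
      refine gibbs (marg a y i) (fun e => (cnt a g t i e : ℝ) + 1) _ (marg_nonneg hy i)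
        (by rw [sum_marg, hy1]) (fun e => by positivity) ?_
      rw [sum_add_distrib]
      have := sum_cnt a g t i
      have h8 : (∑ e, (cnt a g t i e : ℝ)) = t := by exact_mod_cast this
      rw [h8]
      simp [hm]
    have h9 : ∑ i, (∑ e, marg a y i e * L i e +
          ∑ e, marg a y i e * Real.log ((cnt a g t i e : ℝ) + 1)) ≤
        obj L (marg a y) + n * Real.log ((t : ℝ) + m) := by
      have : (n : ℝ) * Real.log ((t : ℝ) + m) = ∑ _i : ι, Real.log ((t : ℝ) + m) := by
        simp [hn]
      rw [this, obj, ← sum_add_distrib]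
      exact sum_le_sum fun i _ => by linarith [h7 i]
    linarith [h2, h4, h5, h9]
  -- sum over t
  have hsum : ∑ t ∈ range T, ∑ i, (L i (a (g t) i) +
      Real.log ((cnt a g t i (a (g t) i) : ℝ) + 1)) ≤
      T * obj L (marg a y) + n * (Real.log (T.factorial) + m * Real.log ((T : ℝ) + m)) +
        2 * ε * n * T := by
    calc _ ≤ ∑ t ∈ range T, (obj L (marg a y) + n * Real.log ((t : ℝ) + m) + 2 * ε * n) :=
          sum_le_sum fun t ht => hB t (mem_range.mp ht)
      _ = T * obj L (marg a y) + n * ∑ t ∈ range T, Real.log ((t : ℝ) + m) +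
          2 * ε * n * T := by
          rw [sum_add_distrib, sum_add_distrib, ← mul_sum]
          simp only [sum_const, card_range, nsmul_eq_mul]
          ring
      _ ≤ _ := by
          have := mul_le_mul_of_nonneg_left (sum_log_add T m hm1) (Nat.cast_nonneg (α := ℝ) n)
          linarith
  have hleft : ∑ t ∈ range T, ∑ i, (L i (a (g t) i) +
      Real.log ((cnt a g t i (a (g t) i) : ℝ) + 1)) =
      ∑ i, (∑ e, (cnt a g T i e : ℝ) * L i e + ∑ e, Real.log ((cnt a g T i e).factorial)) := by
    rw [sum_comm]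
    refine sum_congr rfl fun i _ => ?_
    rw [sum_add_distrib, sum_picks, sum_log_cnt]
  -- every row of the objective
  have hrow : ∀ i, T * (∑ e, (cnt a g T i e : ℝ) / T * L i e +
      ∑ e, (cnt a g T i e : ℝ) / T * Real.log ((cnt a g T i e : ℝ) / T)) ≤
      ∑ e, (cnt a g T i e : ℝ) * L i e + ∑ e, Real.log ((cnt a g T i e).factorial) -
        Real.log (T.factorial) := by
    intro i
    have h1 := gf_sum univ (fun e => cnt a g T i e)
    rw [sum_cnt] at h1
    unfold gf at h1
    rw [sum_sub_distrib] at h1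
    have h2 : T * ∑ e, (cnt a g T i e : ℝ) / T * Real.log ((cnt a g T i e : ℝ) / T) =
        ∑ e, (cnt a g T i e : ℝ) * Real.log (cnt a g T i e) - T * Real.log T := by
      have h3 : ∀ e, T * ((cnt a g T i e : ℝ) / T * Real.log ((cnt a g T i e : ℝ) / T)) =
          (cnt a g T i e : ℝ) * Real.log (cnt a g T i e) -
            (cnt a g T i e : ℝ) * Real.log T := by
        intro e
        rcases Nat.eq_zero_or_pos (cnt a g T i e) with h0 | h0
        · rw [h0]; simp
        · have h0' : (cnt a g T i e : ℝ) ≠ 0 := by exact_mod_cast h0.ne'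
          rw [Real.log_div h0' hTpos.ne']
          field_simp
      rw [mul_sum]
      simp only [h3]
      rw [sum_sub_distrib, ← sum_mul]
      congr 2
      have := sum_cnt a g T i
      exact_mod_cast this
    have h4 : T * ∑ e, (cnt a g T i e : ℝ) / T * L i e = ∑ e, (cnt a g T i e : ℝ) * L i e := by
      rw [mul_sum]
      exact sum_congr rfl fun e _ => by field_simp
    rw [mul_add, h2, h4]
    linarith
  have hfin : T * obj L (fun i e => (cnt a g T i e : ℝ) / T) ≤
      T * obj L (marg a y) + n * (m * Real.log ((T : ℝ) + m)) + 2 * ε * n * T := by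
    have h1 : T * obj L (fun i e => (cnt a g T i e : ℝ) / T) ≤
        ∑ i, (∑ e, (cnt a g T i e : ℝ) * L i e + ∑ e, Real.log ((cnt a g T i e).factorial)) -
          n * Real.log (T.factorial) := by
      have : (n : ℝ) * Real.log (T.factorial) = ∑ _i : ι, Real.log (T.factorial) := by
        simp [hn]
      rw [this, ← sum_sub_distrib, obj, mul_sum]
      exact sum_le_sum fun i _ => hrow i
    rw [hleft] at hsum
    linarith
  have hdiv : obj L (fun i e => (cnt a g T i e : ℝ) / T) ≤
      (T * obj L (marg a y) + n * (m * Real.log ((T : ℝ) + m)) + 2 * ε * n * T) / T := by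
    rw [le_div_iff₀ hTpos]
    linarith
  refine hdiv.trans (le_of_eq ?_)
  field_simp
  ring

end greedy

end Vale.Agent.P315.H763
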