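import Vale.Agent.P315.H763.GreedyW
import Vale.Agent.P315.H330.BlockW

/-! P315 (helper763): `SolvedW` (linear costs `cap⁻¹ D - a log y`) gives `H330.W.SolvedW`; scaling
of near-greedy runs. -/

set_option autoImplicit false
set_option linter.unusedSectionVars false

namespace Vale.Agent.P315.H763

open Finset

section

variable {ι E : Type*} [Fintype ι] [Fintype E] [DecidableEq E]

/-- Scaling of weights and costs. -/
theorem GreedyW.scale {a L : ι → E → ℝ} {PP : Set (ι → E)} {T : ℕ} {η : ℝ} {p : ℕ → ι → E}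
    (hp : GreedyW a L PP T η p) {k : ℝ} (hk : 0 ≤ k) :
    GreedyW (fun i e => k * a i e) (fun i e => k * L i e) PP T (k * η) p := by
  have key : ∀ t (q : ι → E), ∑ i, prW (fun i e => k * a i e) (fun i e => k * L i e) p t i (q i) =
      k * ∑ i, prW a L p t i (q i) := by
    intro t q
    rw [Finset.mul_sum]
    refine Finset.sum_congr rfl fun i _ => ?_
    unfold prW
    ring
  refine ⟨hp.mem, fun t ht q hq => ?_⟩
  rw [key, key, ← mul_add]
  exact mul_le_mul_of_nonneg_left (hp.min t ht q hq) hk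

/-- Perturbation of the linear costs. -/
theorem GreedyW.perturb {a L L' : ι → E → ℝ} {PP : Set (ι → E)} {T : ℕ} {η δ : ℝ}
    {p : ℕ → ι → E} (hp : GreedyW a L PP T η p) (hL : ∀ i e, |L i e - L' i e| ≤ δ) :
    GreedyW a L' PP T (η + Fintype.card ι * (2 * δ)) p := by
  have key : ∀ t (q : ι → E), ∑ i, prW a L' p t i (q i) ≤ ∑ i, prW a L p t i (q i) +
      Fintype.card ι * δ ∧ ∑ i, prW a L p t i (q i) ≤ ∑ i, prW a L' p t i (q i) +
      Fintype.card ι * δ := by
    intro t q
    have hc : (Fintype.card ι : ℝ) * δ = ∑ _i : ι, δ := by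
      rw [Finset.sum_const, Finset.card_univ, nsmul_eq_mul]
    rw [hc, ← Finset.sum_add_distrib, ← Finset.sum_add_distrib]
    constructor <;> refine Finset.sum_le_sum fun i _ => ?_ <;>
    · have := abs_le.mp (hL i (q i))
      unfold prW
      linarith [this.1, this.2]
  refine ⟨hp.mem, fun t ht q hq => ?_⟩
  have h1 := hp.min t ht q hq
  have h2 := (key t (p t)).1
  have h3 := (key t q).2
  linarith

/-- The interface of `H330.W`. -/
theorem SolvedW.toBlock {PP : Set (ι → E)} {a D y xh q : ι → E → ℝ} {cap e1 e2 : ℝ}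
    (h : SolvedW PP a (fun i e => cap⁻¹ * D i e - a i e * Real.log (y i e)) xh q e1 e2)
    (hy : ∀ i e, 0 < y i e) (ha : ∀ i e, 0 ≤ a i e) :
    H330.W.SolvedW PP a cap D y xh q (e1 + e2) e2 := by
  refine ⟨h.xh_nonneg, h.q_pos, h.q_le, fun p hp => ?_⟩
  obtain ⟨r, hr0, hr1, hqr⟩ := h.q_le
  have h1 := h.opt p hp
  have hmass : H330.W.mass a q ≤ H330.W.mass a xh + e2 := by
    have h2 : H330.W.mass a q ≤ H330.W.mass a xh + H330.W.mass a r := by
      unfold H330.W.mass
      rw [← Finset.sum_add_distrib]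
      refine Finset.sum_le_sum fun i _ => ?_
      rw [← Finset.sum_add_distrib]
      refine Finset.sum_le_sum fun e _ => ?_
      rw [← mul_add]
      exact mul_le_mul_of_nonneg_left (hqr i e) (ha i e)
    have h3 : H330.W.mass a r ≤ e2 := hr1
    linarith
  have hg : ∑ i, ∑ e, xh i e * (a i e * Real.log (y i e)) ≤
      ∑ i, ∑ e, a i e * (xh i e * Real.log (xh i e)) - H330.W.mass a xh + H330.W.mass a y := by
    unfold H330.W.mass
    rw [← Finset.sum_sub_distrib, ← Finset.sum_add_distrib]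
    exact Finset.sum_le_sum fun i _ => gibbsW (a i) (xh i) (y i) (ha i) (h.xh_nonneg i) (hy i)
  have e1' : ∑ i, ∑ e, (cap⁻¹ * D i e - a i e * Real.log (y i e)) * xh i e =
      cap⁻¹ * H330.pair D xh - ∑ i, ∑ e, xh i e * (a i e * Real.log (y i e)) := by
    unfold H330.pair
    rw [Finset.mul_sum, ← Finset.sum_sub_distrib]
    refine Finset.sum_congr rfl fun i _ => ?_
    rw [Finset.mul_sum, ← Finset.sum_sub_distrib]
    exact Finset.sum_congr rfl fun e _ => by ring
  have e2' : ∑ i, (cap⁻¹ * D i (p i) - a i (p i) * Real.log (y i (p i))) =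
      cap⁻¹ * H330.pv D p - ∑ i, a i (p i) * Real.log (y i (p i)) := by
    unfold H330.pv
    rw [Finset.mul_sum, ← Finset.sum_sub_distrib]
  have e3 : ∀ z : ι → E → ℝ, ∑ i, a i (p i) * (-Real.log (z i (p i)) - 1) =
      -∑ i, a i (p i) * Real.log (z i (p i)) - ∑ i, a i (p i) := by
    intro z
    rw [← Finset.sum_neg_distrib, ← Finset.sum_sub_distrib]
    exact Finset.sum_congr rfl fun i _ => by ring
  rw [e1', e2'] at h1
  unfold H330.W.potW
  rw [e3, e3]
  linarith

end

end Vale.Agent.P315.H763
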