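import Vale.Agent.P315.H763.PlugTop
import Vale.Agent.P315.H638.PathW

/-!
P315, milestone 2 (helper763): the weighted machine inequality of one top of an instance
(`plugTop`) with the comparison route and the coarse ends of `H638/PathW`.
-/

set_option autoImplicit false

open Finset

namespace Vale.Agent.P315.H763

open H155 H220 H801 H808 Vale.Agent.P315.C
open H95 (cl bx ac wd clsPar mass)
open H638 (lhsEW VW eW)
open H846 (Inst2)
open H869.Units (Light wt)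

section

variable {m ℓ μ B w0 J S H Kc D1 κr n : ℕ} {vis hid : Leaf} {S0 : ℕ → ℕ}

open Classical in
/-- **The weighted machine inequality of one top**, one class `l`, one offset `o`; no data of the
comparison path are left. -/
theorem plugRoute (X : MPW) {C : Chain (clsPar m ℓ μ B w0 J S H (Kc + 3) D1) vis hid n}
    (hI : Inst2 (clsPar m ℓ μ B w0 J S H (Kc + 3) D1) m w0 Kc κr vis hid n S0 C) (ω : Rnd)
    (hm : 0 < m) {s a i : ℕ} (hs1 : 1 ≤ s) (hsS : s < S) (htop : a * 2 ^ s + 2 ^ s < n)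
    (hi : i < (2 ^ m) ^ (n - (a * 2 ^ s + 2 ^ s))) (hμ : 0 < μ) (hg : 128 ≤ X.g s)
    (hgd : μ * X.g s ∣ w0)
    -- the numbers of the machine
    {mc : Mach} (hmc : mc = machW X (labL m (Kc + 3)) m μ B w0)
    {K Z lo ca ta : ℕ} {D : ℕ → ℕ → ℕ → ℕ → ℕ → ℕ} (hK : K = (2 ^ m) ^ 2 ^ s)
    (hta : ta = C.lab (a * 2 ^ s + 2 ^ s) i) (hca : ca = cl ta)
    (hZ : Z = wd m w0 (a * 2 ^ s) ca) (hlo : lo = bx ta * (K * Z))
    (hD : D = hist (clsPar m ℓ μ B w0 J S H (Kc + 3) D1) ω vis hid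
      (rd (clsPar m ℓ μ B w0 J S H (Kc + 3) D1) mc ω vis hid) (a * 2 ^ s + 2 ^ s) i ta s)
    (hhl : 2 ^ s ≤ X.Dl s) (hSh : 0 < X.Sh s) (hRh : 0 < X.Rh s) (hC : 0 < X.C)
    {a0 b0 l o : ℕ}
    (ha0 : a0 = H638.cnW K lo (Z / X.g s) (H638.zT C s (a * 2 ^ s) i 0))
    (hb0 : b0 = H638.cnW K lo (Z / X.g s) (H638.zT C s (a * 2 ^ s) i ((2 ^ m) ^ 2 ^ s)))
    (hl : l < X.NL s) (ho : o < X.Dl s) (hR : 2 ^ (l + 3) ≤ X.R s) (hlZ : 2 ^ l ≤ Z) {s' : ℕ}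
    (hs' : 0 < s') (hsT : s' < X.T s) {dl cN : ℝ} {NR N jc : ℕ} {gd : ℕ → Prop}
    (hgood : ∀ u < K, gd (i * K + u) → ¬ Light m (2 ^ s) ca (C.lab (a * 2 ^ s) (i * K + u)))
    (hdl : 0 ≤ dl) (hcN0 : 0 ≤ cN) (hcN : (cN + 8 / X.g s) * 2 ^ l ≤ X.C)
    -- outside the failure event
    (hF : ¬ H659.FailTopWA K (2 ^ s) (m * 2 ^ s) Z (X.g s) (X.NL s) (X.Dl s) (X.R s) (X.T s)
      (X.Sh s) (X.Rh s) X.C μ B lo ca (labL m (Kc + 3) s ta) (labL_ne _ _ _ _) a0 b0 (X.Sm s) NR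
      (2 * ((K : ℝ) * Z)) ((K : ℝ) * Z * dl) D (ω.coin (a * 2 ^ s + 2 ^ s) s))
    (hNR : N * X.Dl s ≤ NR)
    (A' : ℕ → Prop)
    (h1 : ∀ j, A' j → actB K Z (X.g s) (X.Dl s) μ B lo a0 b0 l o (labL m (Kc + 3) s ta) D j)
    (h2 : ∀ j, A' j → jc ≤ j) (h3 : ∀ j, A' j → o ≤ j * X.Dl s) :
    ∑ j ∈ (range N).filter A',
        lhsEW ((C.along mc ω hI.pt hI.hid_le).uD s a i) ((C.along mc ω hI.pt hI.hid_le).uW s a i)
          (fun u => gd (i * (2 ^ m) ^ 2 ^ s + u)) cN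
          ((C.along mc ω hI.pt hI.hid_le).uC H s a i) (2 ^ s) (X.Dl s) (j * X.Dl s - o) ≤
      2 * ∑ j ∈ (range N).filter A', ∑ i' ∈ range (X.Dl s),
        (VW ((C.along mc ω hI.pt hI.hid_le).uD s a i) ((C.along mc ω hI.pt hI.hid_le).uW s a i)
            ((C.along mc ω hI.pt hI.hid_le).uC H s a i (j * X.Dl s - o + i')) -
          eW ((C.along mc ω hI.pt hI.hid_le).uD s a i) ((C.along mc ω hI.pt hI.hid_le).uW s a i)
            ((C.along mc ω hI.pt hI.hid_le).tC H s a i (j * X.Dl s - o + i')))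
      + (1 + (((range N).filter fun j =>
          (actB K Z (X.g s) (X.Dl s) μ B lo a0 b0 l o (labL m (Kc + 3) s ta) D j ∧ jc ≤ j) ∧
            ¬ A' j).card : ℝ)) *
        (2 ^ s * (80 * (X.C + 1) * (((m * 2 ^ s : ℕ) : ℝ) +
          2 * (Nat.size (pW K (X.g s) (labL m (Kc + 3) s ta)) : ℝ)) * (1 / 2) ^ l))
      + (((range N).filter A').card : ℝ) * (X.Dl s * (256 / X.g s + 16 / (K : ℝ) ^ 3 + 16 * dl
          + 16 * (X.C + 1) * (1 / 2) ^ l *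
            (((2 ^ (m * 2 ^ s) : ℕ) : ℝ) *
                errW (Fintype.card (Fin (pW K (X.g s) (labL m (Kc + 3) s ta)) ×
                  Fin (pW K (X.g s) (labL m (Kc + 3) s ta)))) (X.T s) s'
              + (X.T s / s' + 1) * etaW (m * 2 ^ s) (X.T s) (X.Sh s) (X.Rh s)
                  (pW K (X.g s) (labL m (Kc + 3) s ta))
              + 3 * (((2 ^ (m * 2 ^ s) : ℕ) : ℝ) *
                (Fintype.card (Fin (pW K (X.g s) (labL m (Kc + 3) s ta)) ×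
                  Fin (pW K (X.g s) (labL m (Kc + 3) s ta))) / X.T s))))) := by
  have hg0 : 0 < X.g s := by omega
  obtain ⟨xs, hRt⟩ := H638.exists_routeW hI (g := X.g s) htop.le hi hμ hg0 hgd
  subst hK hmc
  have hN := hRt.net
  rw [← hta] at hN
  have hZe : H638.ZT m w0 (a * 2 ^ s) ta = Z := by rw [hZ, hca]
  have hloe : H638.loT m w0 s (a * 2 ^ s) ta = lo := by rw [hlo, hZ, hca]
  rw [hZe, hloe] at hN
  have hgZ : X.g s ∣ Z := ⟨_, hN.hZ⟩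
  have hZ0 : 0 < Z := by rw [hZ]; exact H95.wd_pos hI.path.w0_pos _ _
  have hη : ((Z / X.g s : ℕ) : ℝ) = (Z : ℝ) / X.g s := Nat.cast_div hgZ (by positivity)
  have e3 : (2 ^ m) ^ (a * 2 ^ s + 2 ^ s) = (2 ^ m) ^ 2 ^ s * (2 ^ m) ^ (a * 2 ^ s) := by
    rw [add_comm (a * 2 ^ s), pow_add]
  have hz0 : H638.zT C s (a * 2 ^ s) i 0 = C.pos (i * (2 ^ m) ^ (a * 2 ^ s + 2 ^ s)) := by
    unfold H638.zT
    congr 1
    rw [e3]; ring
  have hzK : H638.zT C s (a * 2 ^ s) i ((2 ^ m) ^ 2 ^ s) =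
      C.pos ((i + 1) * (2 ^ m) ^ (a * 2 ^ s + 2 ^ s)) := by
    unfold H638.zT
    congr 1
    rw [e3]; ring
  have ha : a0 ≤ 2 * X.g s := by rw [ha0]; exact hN.cn_num (Nat.zero_le _)
  have hb : b0 ≤ 2 * X.g s := by rw [hb0]; exact hN.cn_num le_rfl
  have hgr : (128 : ℝ) ≤ X.g s := by exact_mod_cast hg
  have hgr0 : (0 : ℝ) < X.g s := by linarith
  have hZr : (0 : ℝ) < Z := by exact_mod_cast hZ0
  have hK4 : (4 : ℝ) ≤ (((2 ^ m) ^ 2 ^ s : ℕ) : ℝ) := by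
    have h5 : 4 ≤ (2 ^ m) ^ 2 ^ s := by
      rw [← pow_mul]
      have h6 : 2 ≤ m * 2 ^ s := by
        calc 2 = 1 * 2 ^ 1 := rfl
          _ ≤ m * 2 ^ s := Nat.mul_le_mul hm (Nat.pow_le_pow_right (by norm_num) hs1)
      calc 4 = 2 ^ 2 := rfl
        _ ≤ _ := Nat.pow_le_pow_right (by norm_num) h6
    exact_mod_cast h5
  -- the ends
  have he : 2 * Nat.dist (C.pos (i * (2 ^ m) ^ (a * 2 ^ s + 2 ^ s)))
        (posN μ B lo Z (X.g s) (a0 * (2 ^ m) ^ 2 ^ s)) +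
      2 * Nat.dist (posN μ B lo Z (X.g s) (b0 * (2 ^ m) ^ 2 ^ s))
        (C.pos ((i + 1) * (2 ^ m) ^ (a * 2 ^ s + 2 ^ s))) ≤
      4 * ((2 ^ m) ^ 2 ^ s * (Z / X.g s)) := by
    have h5 := hN.dist_zero
    have h6 := hN.dist_last
    rw [H638.NetW.FW_zero, ← ha0, posX_of_le (mul_le_aux ha), hz0, Nat.dist_comm] at h5
    rw [H638.NetW.FW_last, ← hb0, posX_of_le (mul_le_aux hb), hzK] at h6
    omega
  have hKZW := H638.KZ_le_W hI (i := i) (machW X (labL m (Kc + 3)) m μ B w0) ω htop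
  rw [← hta, hZe] at hKZW
  have heW : ((4 * ((2 ^ m) ^ 2 ^ s * (Z / X.g s)) : ℕ) : ℝ) ≤
      (C.along (machW X (labL m (Kc + 3)) m μ B w0) ω hI.pt hI.hid_le).W (a * 2 ^ s + 2 ^ s) i *
        (32 / X.g s) := by
    have h5 : ((4 * ((2 ^ m) ^ 2 ^ s * (Z / X.g s)) : ℕ) : ℝ) =
        4 * ((((2 ^ m) ^ 2 ^ s : ℕ) : ℝ) * Z) / X.g s := by
      rw [Nat.cast_mul, Nat.cast_mul, hη]
      push_cast
      ring
    rw [h5, ← mul_div_assoc]
    refine div_le_div_of_nonneg_right ?_ hgr0.le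
    linarith
  have hrt1 : 64 / (X.g s : ℝ) + 8 / (((2 ^ m) ^ 2 ^ s : ℕ) : ℝ) ^ 3 ≤ 1 := by
    have h5 : 64 / (X.g s : ℝ) ≤ 1 / 2 := by
      rw [div_le_div_iff₀ hgr0 (by norm_num)]; linarith
    have h6 : 8 / (((2 ^ m) ^ 2 ^ s : ℕ) : ℝ) ^ 3 ≤ 8 / 4 ^ 3 :=
      div_le_div_of_nonneg_left (by norm_num) (by norm_num)
        (pow_le_pow_left₀ (by norm_num) hK4 3)
    norm_num at h6 ⊢
    linarith
  have hkx : ∀ u < (2 ^ m) ^ 2 ^ s, kxW (m * 2 ^ s) ca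
      (labX ((2 ^ m) ^ 2 ^ s) (X.g s) (labL m (Kc + 3) s ta)
        (H638.FW ((2 ^ m) ^ 2 ^ s) (X.g s) lo (Z / X.g s) (labL m (Kc + 3) s ta)
          (H638.zT C s (a * 2 ^ s) i) xs (u + 2))) =
      cl (C.lab (a * 2 ^ s) (i * (2 ^ m) ^ 2 ^ s + u)) - ca := by
    intro u hu
    rw [hN.lab_mid hu]
    have h5 := hRt.wt_eq u hu
    have h6 := hRt.cl_le u hu
    rw [← hta, ← hca] at h5 h6
    have h7 : cl (xs u) - ca = cl (C.lab (a * 2 ^ s) (i * (2 ^ m) ^ 2 ^ s + u)) - ca :=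
      Nat.pow_right_injective (le_refl 2) h5
    unfold kxW
    rw [← h7]
    refine min_eq_left ?_
    have h8 : m * 2 ^ s = 2 ^ s * m := Nat.mul_comm _ _
    omega
  have key := plugTop X hI ω hm hs1 hsS htop hi (mc := machW X (labL m (Kc + 3)) m μ B w0) rfl
    (K := (2 ^ m) ^ 2 ^ s) (Z := Z) (lo := lo) (ca := ca) (ta := ta) (D := D) rfl hta hca hZ hlo
    hD hhl hSh hRh hC ha hb hl ho hR hlZ hs' hsT
    (f := H638.FW ((2 ^ m) ^ 2 ^ s) (X.g s) lo (Z / X.g s) (labL m (Kc + 3) s ta)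
      (H638.zT C s (a * 2 ^ s) i) xs)
    (rt := 64 / (X.g s : ℝ) + 8 / (((2 ^ m) ^ 2 ^ s : ℕ) : ℝ) ^ 3)
    (r0 := 4 * ((Z / X.g s : ℕ) : ℝ)) (e2 := 32 / (X.g s : ℝ)) (dl := dl) (cN := cN)
    (e := 4 * ((2 ^ m) ^ 2 ^ s * (Z / X.g s))) (NR := NR) (N := N) (jc := jc) (gd := gd)
    (fun r _ => hN.FW_lt r) (by rw [H638.NetW.FW_zero, ← ha0]) (by rw [H638.NetW.FW_last, ← hb0])
    (by positivity) hrt1 (by positivity) (by positivity)
    (by rw [div_le_one hgr0]; linarith) hdl hcN0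
    (fun t => by
      have h5 := hRt.sum_le hI (mc := machW X (labL m (Kc + 3)) m μ B w0) (ω := ω) htop hi t
      rw [← hta, hZe, hloe, ← hD] at h5
      exact h5)
    (fun t u hu hgu => by
      have h5 := hRt.unit hI (mc := machW X (labL m (Kc + 3)) m μ B w0) (ω := ω) htop.le hi t hu
        (by
          have h6 := hgood u hu hgu
          unfold H638.lightT
          rw [← hta, ← hca]
          exact h6)
      rw [← hta, hZe, hloe, ← hD] at h5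
      exact h5) hkx
    (by
      have h5 : (cN * Z + 2 * (4 * ((Z / X.g s : ℕ) : ℝ))) * 2 ^ l =
          (cN + 8 / X.g s) * 2 ^ l * Z := by
        rw [hη]; ring
      rw [h5]
      exact mul_le_mul_of_nonneg_right hcN hZr.le) he heW hF hNR A' h1 h2 h3
  have h6 : 2 * (64 / (X.g s : ℝ) + 8 / (((2 ^ m) ^ 2 ^ s : ℕ) : ℝ) ^ 3) +
      16 * (4 * ((Z / X.g s : ℕ) : ℝ)) / Z + 2 * (8 * dl + 32 / (X.g s : ℝ)) =
      256 / (X.g s : ℝ) + 16 / (((2 ^ m) ^ 2 ^ s : ℕ) : ℝ) ^ 3 + 16 * dl := by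
    rw [hη]
    field_simp
    ring
  rw [h6] at key
  exact key

end

end Vale.Agent.P315.H763
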