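import Vale.Agent.P315.H68.CertHalf
import Vale.Agent.P315.H838.Ident
import Vale.Agent.P315.H95.LightFree
import Vale.Agent.P315.H869.Units
import Vale.Agent.P315.H244.WT

/-!
P315, milestone 2 (helper763): the weighted machine inequality of one top of an instance
(`H846.Inst2`), for the concrete machines. What is left as data is the comparison path `f` through
the nodes of the machine.
-/

set_option autoImplicit false

open Finset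

namespace Vale.Agent.P315.H763

open H155 H220 H801 H808 Vale.Agent.P315.C
open H95 (cl bx ac wd clsPar mass)
open H782 (val xx)
open H638 (lhsEW VW eW)
open H846 (Inst2)

section

variable {m ℓ μ B w0 J S H Kc D1 κr n : ℕ} {vis hid : Leaf} {S0 : ℕ → ℕ}

theorem ed_of_pt {P : Par} (h0 : ∃ p, P.μ ∣ p ∧ p ≤ P.B ∧ P.adm p p) :
    ∃ p q, H140.Ed P p q := by
  obtain ⟨p, h1, h2, h3⟩ := h0
  exact ⟨p, p, h1, h1, h2, h2, h3⟩

theorem hidLe_of {P : Par} (h : ∀ i p q, P.adm p q → hid i p q ≤ vis i p q) :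
    HidLe P vis hid := fun i p q hp => h i p q hp.2.2.2.2

theorem penOK_clsPar : PenOK (clsPar m ℓ μ B w0 J S H Kc D1) := by
  intro j e a x hx
  obtain ⟨a', h1, h2⟩ := mem_desc_succ.1 hx
  exact ⟨a', h1, h2, (H95.pen_add h1 h2).le⟩

/-- Weights are masses. -/
theorem W_eq_mass {P : Par} (hM : P.M = 2 ^ m) (C : Chain P vis hid n) (mc : Mach) (ω : Rnd)
    (h0 : ∃ p, P.μ ∣ p ∧ p ≤ P.B ∧ P.adm p p)
    (hle : ∀ i p q, P.adm p q → hid i p q ≤ vis i p q) (hw : ∀ i, C.w i = S0 i) (j i : ℕ) :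
    (C.along mc ω h0 hle).W j i = ((mass m S0 j i : ℕ) : ℝ) := by
  show ∑ r ∈ range (P.M ^ j), C.w (i * P.M ^ j + r) = _
  unfold mass
  push_cast
  rw [hM]
  exact sum_congr rfl fun r _ => hw _

open Classical in
/-- **The weighted machine inequality of one top**, one class `l`, one offset `o`. -/
theorem plugTop (X : MPW) {C : Chain (clsPar m ℓ μ B w0 J S H (Kc + 3) D1) vis hid n}
    (hI : Inst2 (clsPar m ℓ μ B w0 J S H (Kc + 3) D1) m w0 Kc κr vis hid n S0 C) (ω : Rnd)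
    (hm : 0 < m) {s a i : ℕ} (hs1 : 1 ≤ s) (hsS : s < S) (htop : a * 2 ^ s + 2 ^ s < n)
    (hi : i < (2 ^ m) ^ (n - (a * 2 ^ s + 2 ^ s)))
    -- the numbers of the machine
    {mc : Mach} (hmc : mc = machW X (labL m (Kc + 3)) m μ B w0)
    {K Z lo ca ta : ℕ} {D : ℕ → ℕ → ℕ → ℕ → ℕ → ℕ} (hK : K = (2 ^ m) ^ 2 ^ s)
    (hta : ta = C.lab (a * 2 ^ s + 2 ^ s) i) (hca : ca = cl ta)
    (hZ : Z = wd m w0 (a * 2 ^ s) ca) (hlo : lo = bx ta * (K * Z))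
    (hD : D = hist (clsPar m ℓ μ B w0 J S H (Kc + 3) D1) ω vis hid
      (rd (clsPar m ℓ μ B w0 J S H (Kc + 3) D1) mc ω vis hid) (a * 2 ^ s + 2 ^ s) i ta s)
    (hhl : 2 ^ s ≤ X.Dl s) (hSh : 0 < X.Sh s) (hRh : 0 < X.Rh s) (hC : 0 < X.C)
    {a0 b0 l o : ℕ} (ha : a0 ≤ 2 * X.g s) (hb : b0 ≤ 2 * X.g s) (hl : l < X.NL s)
    (ho : o < X.Dl s) (hR : 2 ^ (l + 3) ≤ X.R s) (hlZ : 2 ^ l ≤ Z) {s' : ℕ} (hs' : 0 < s')
    (hsT : s' < X.T s)
    -- the comparison path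
    {f : ℕ → ℕ} {rt r0 e2 dl cN : ℝ} {e NR N jc : ℕ} {gd : ℕ → Prop}
    (hf : ∀ r, r ≤ K + 2 → f r < pW K (X.g s) (labL m (Kc + 3) s ta)) (f0 : f 0 = a0 * K)
    (fK : f (K + 2) = b0 * K) (hrt : 0 ≤ rt) (hrt1 : rt ≤ 1) (hr0 : 0 ≤ r0) (he20 : 0 ≤ e2)
    (he2 : e2 ≤ 1) (hdl : 0 ≤ dl) (hcN0 : 0 ≤ cN)
    (hsum : ∀ t : ℕ, ∑ r ∈ range (K + 2),
        (nodeW K Z (X.g s) μ B lo (labL m (Kc + 3) s ta) D t r (f r) (f (r + 1)) : ℝ) ≤
      ∑ u ∈ range K, (C.along mc ω hI.pt hI.hid_le).C (a * 2 ^ s) (i * K + u)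
          ((t : ℤ) - H - (C.along mc ω hI.pt hI.hid_le).US (a * 2 ^ s) (2 ^ s) (i * K + u)) +
        (C.along mc ω hI.pt hI.hid_le).W (a * 2 ^ s + 2 ^ s) i * rt)
    (hr : ∀ t u : ℕ, u < K → gd (i * K + u) →
      |(nodeW K Z (X.g s) μ B lo (labL m (Kc + 3) s ta) D t (u + 1) (f (u + 1)) (f (u + 2)) : ℝ) -
        (C.along mc ω hI.pt hI.hid_le).C (a * 2 ^ s) (i * K + u)
          ((t : ℤ) - H - (C.along mc ω hI.pt hI.hid_le).US (a * 2 ^ s) (2 ^ s) (i * K + u))| ≤ r0)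
    (hkx : ∀ u < K, kxW (m * 2 ^ s) ca (labX K (X.g s) (labL m (Kc + 3) s ta) (f (u + 2))) =
      cl (C.lab (a * 2 ^ s) (i * K + u)) - ca)
    (hcN : (cN * Z + 2 * r0) * 2 ^ l ≤ (X.C : ℝ) * Z)
    (he : 2 * Nat.dist (C.pos (i * (2 ^ m) ^ (a * 2 ^ s + 2 ^ s)))
        (posN μ B lo Z (X.g s) (a0 * K)) +
      2 * Nat.dist (posN μ B lo Z (X.g s) (b0 * K))
        (C.pos ((i + 1) * (2 ^ m) ^ (a * 2 ^ s + 2 ^ s))) ≤ e)
    (heW : (e : ℝ) ≤ (C.along mc ω hI.pt hI.hid_le).W (a * 2 ^ s + 2 ^ s) i * e2)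
    -- outside the failure event
    (hF : ¬ H659.FailTopWA K (2 ^ s) (m * 2 ^ s) Z (X.g s) (X.NL s) (X.Dl s) (X.R s) (X.T s)
      (X.Sh s) (X.Rh s) X.C μ B lo ca (labL m (Kc + 3) s ta) (labL_ne _ _ _ _) a0 b0 (X.Sm s) NR
      (2 * ((K : ℝ) * Z)) ((K : ℝ) * Z * dl) D (ω.coin (a * 2 ^ s + 2 ^ s) s))
    (hNR : N * X.Dl s ≤ NR)
    (A' : ℕ → Prop)
    (h1 : ∀ j, A' j → actB K Z (X.g s) (X.Dl s) μ B lo a0 b0 l o (labL m (Kc + 3) s ta) D j)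
    (h2 : ∀ j, A' j → jc ≤ j) (h3 : ∀ j, A' j → o ≤ j * X.Dl s) :
    ∑ j ∈ (range N).filter A',
        lhsEW ((C.along mc ω hI.pt hI.hid_le).uD s a i) ((C.along mc ω hI.pt hI.hid_le).uW s a i)
          (fun u => gd (i * (2 ^ m) ^ 2 ^ s + u)) cN
          ((C.along mc ω hI.pt hI.hid_le).uC H s a i) (2 ^ s) (X.Dl s) (j * X.Dl s - o) ≤
      2 * ∑ j ∈ (range N).filter A', ∑ i' ∈ range (X.Dl s),
        (VW ((C.along mc ω hI.pt hI.hid_le).uD s a i) ((C.along mc ω hI.pt hI.hid_le).uW s a i)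
            ((C.along mc ω hI.pt hI.hid_le).uC H s a i (j * X.Dl s - o + i')) -
          eW ((C.along mc ω hI.pt hI.hid_le).uD s a i) ((C.along mc ω hI.pt hI.hid_le).uW s a i)
            ((C.along mc ω hI.pt hI.hid_le).tC H s a i (j * X.Dl s - o + i')))
      + (1 + (((range N).filter fun j =>
          (actB K Z (X.g s) (X.Dl s) μ B lo a0 b0 l o (labL m (Kc + 3) s ta) D j ∧ jc ≤ j) ∧
            ¬ A' j).card : ℝ)) *
        (2 ^ s * (80 * (X.C + 1) * (((m * 2 ^ s : ℕ) : ℝ) +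
          2 * (Nat.size (pW K (X.g s) (labL m (Kc + 3) s ta)) : ℝ)) * (1 / 2) ^ l))
      + (((range N).filter A').card : ℝ) * (X.Dl s * (2 * rt + 16 * r0 / Z + 2 * (8 * dl + e2)
          + 16 * (X.C + 1) * (1 / 2) ^ l *
            (((2 ^ (m * 2 ^ s) : ℕ) : ℝ) *
                errW (Fintype.card (Fin (pW K (X.g s) (labL m (Kc + 3) s ta)) ×
                  Fin (pW K (X.g s) (labL m (Kc + 3) s ta)))) (X.T s) s'
              + (X.T s / s' + 1) * etaW (m * 2 ^ s) (X.T s) (X.Sh s) (X.Rh s)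
                  (pW K (X.g s) (labL m (Kc + 3) s ta))
              + 3 * (((2 ^ (m * 2 ^ s) : ℕ) : ℝ) *
                (Fintype.card (Fin (pW K (X.g s) (labL m (Kc + 3) s ta)) ×
                  Fin (pW K (X.g s) (labL m (Kc + 3) s ta))) / X.T s))))) := by
  subst hK hmc
  have hLB : labL m (Kc + 3) s ta ≠ [] := labL_ne _ _ _ _
  have hE := ed_of_pt hI.pt
  have hle := hidLe_of hI.hid_le
  have hw0 := hI.path.w0_pos
  have hta' : ta = H95.lab m w0 S0 C.pos n κr (a * 2 ^ s + 2 ^ s) i := by rw [hta, hI.lab]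
  have hZ0 : 0 < Z := by rw [hZ]; exact H95.wd_pos hw0 _ _
  have hK2 : 2 ≤ (2 ^ m) ^ 2 ^ s := by
    rw [← pow_mul]
    calc 2 = 2 ^ 1 := rfl
      _ ≤ _ := Nat.pow_le_pow_right (by norm_num) (Nat.mul_pos hm (by positivity))
  have hKpos : 0 < (2 ^ m) ^ 2 ^ s := by omega
  have hj : a * 2 ^ s ≤ n := (Nat.le_add_right _ _).trans htop.le
  have hui : ∀ u, u < (2 ^ m) ^ 2 ^ s → i * (2 ^ m) ^ 2 ^ s + u < (2 ^ m) ^ (n - a * 2 ^ s) :=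
    fun u hu => H869.Units.unit_lt htop.le hi hu
  have hDanti : ∀ κ m x u v, D (κ + 1) m x u v ≤ D κ m x u v := by
    intro κ m' x u v
    rw [hD]
    exact hist_anti hE hle (Nat.le_succ κ) _ _ _ _ _ _ _ _
  -- the weights
  have hWm := W_eq_mass (P := clsPar m ℓ μ B w0 J S H (Kc + 3) D1) rfl C
    (machW X (labL m (Kc + 3)) m μ B w0) ω hI.pt hI.hid_le hI.w
  have hCm := fun (j i' : ℕ) (hj' : j ≤ n) (hi' : i' < (2 ^ m) ^ (n - j)) =>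
    H95.along_C_mem (mc := machW X (labL m (Kc + 3)) m μ B w0) (ω := ω) C hI.pt hI.hid_le
      hI.lower (j := j) (i := i') hj' hi'
  obtain ⟨A, hA⟩ : ∃ A, A = C.along (machW X (labL m (Kc + 3)) m μ B w0) ω hI.pt hI.hid_le :=
    ⟨_, rfl⟩
  have hW1 : (((2 ^ m) ^ 2 ^ s : ℕ) : ℝ) * Z ≤ 8 * A.W (a * 2 ^ s + 2 ^ s) i := by
    rw [hA, hWm, hZ, hca, hta']
    exact_mod_cast H869.Units.le_top_mass hI.path htop
  have hW2 : A.W (a * 2 ^ s + 2 ^ s) i ≤ (((2 ^ m) ^ 2 ^ s : ℕ) : ℝ) * Z := by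
    rw [hA, hWm, hZ, hca, hta']
    exact_mod_cast H869.Units.top_mass_le hI.path htop.le hi
  rw [← hA] at heW ⊢
  have hwu' : ∀ u, u < (2 ^ m) ^ 2 ^ s → A.W (a * 2 ^ s) (i * (2 ^ m) ^ 2 ^ s + u) ≤
      (2 : ℝ) ^ kxW (m * 2 ^ s) ca
        (labX ((2 ^ m) ^ 2 ^ s) (X.g s) (labL m (Kc + 3) s ta) (f (u + 2))) * Z := by
    intro u hu
    rw [hA, hWm, hkx u hu, hI.lab, hZ]
    exact_mod_cast H869.Units.unit_mass_le hI.path hj (hui u hu) ca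
  have hwt' : ∑ u ∈ range ((2 ^ m) ^ 2 ^ s), 2 ^ kxW (m * 2 ^ s) ca
      (labX ((2 ^ m) ^ 2 ^ s) (X.g s) (labL m (Kc + 3) s ta) (f (u + 2))) ≤
      9 * (2 ^ m) ^ 2 ^ s := by
    refine le_trans (le_of_eq (Finset.sum_congr rfl fun u hu => ?_))
      (H869.Units.sum_wt_le hI.path (e := 2 ^ s) (by positivity) htop.le hi)
    rw [hkx u (mem_range.1 hu), hI.lab, hca, hta']
    rfl
  have hsumW : ∑ u : Fin ((2 ^ m) ^ 2 ^ s), A.uW s a i u = A.W (a * 2 ^ s + 2 ^ s) i := A.sum_uW s a i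
  have hsumD : ∑ u : Fin ((2 ^ m) ^ 2 ^ s), A.uD s a i u = A.DE (a * 2 ^ s + 2 ^ s) i := A.sum_uD s a i
  have hCtop : ∀ b : ℤ, A.DE (a * 2 ^ s + 2 ^ s) i ≤ A.C (a * 2 ^ s + 2 ^ s) i b ∧
      A.C (a * 2 ^ s + 2 ^ s) i b ≤ A.DE (a * 2 ^ s + 2 ^ s) i + A.W (a * 2 ^ s + 2 ^ s) i := by
    intro b
    rw [hA]
    exact hCm _ _ htop.le hi b
  have hCun : ∀ u, u < (2 ^ m) ^ 2 ^ s → ∀ b : ℤ,
      A.DE (a * 2 ^ s) (i * (2 ^ m) ^ 2 ^ s + u) ≤ A.C (a * 2 ^ s) (i * (2 ^ m) ^ 2 ^ s + u) b ∧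
      A.C (a * 2 ^ s) (i * (2 ^ m) ^ 2 ^ s + u) b ≤
        A.DE (a * 2 ^ s) (i * (2 ^ m) ^ 2 ^ s + u) +
          A.W (a * 2 ^ s) (i * (2 ^ m) ^ 2 ^ s + u) := by
    intro u hu b
    rw [hA]
    exact hCm _ _ hj (hui u hu) b
  have hWp : 0 < A.W (a * 2 ^ s + 2 ^ s) i := A.W_pos (show 0 < 2 ^ m by positivity) _ _
  have hCcR : ∀ b : ℤ, A.C (a * 2 ^ s + 2 ^ s) i b =
      ((cR (clsPar m ℓ μ B w0 J S H (Kc + 3) D1) (machW X (labL m (Kc + 3)) m μ B w0) ω vis hid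
        (a * 2 ^ s + 2 ^ s) i ta b
        (C.pos (i * (2 ^ m) ^ (a * 2 ^ s + 2 ^ s)))
        (C.pos ((i + 1) * (2 ^ m) ^ (a * 2 ^ s + 2 ^ s))) : ℕ) : ℝ) := by
    intro b
    rw [hA, hta]; rfl
  -- the value of the net pair
  have hpW := pW_pos (K := (2 ^ m) ^ 2 ^ s) (g := X.g s) hLB
  have hz2 : ∀ t : ℕ, A.DE (a * 2 ^ s + 2 ^ s) i - A.W (a * 2 ^ s + 2 ^ s) i * e2 ≤
      (WD ((2 ^ m) ^ 2 ^ s + 2) (pW ((2 ^ m) ^ 2 ^ s) (X.g s) (labL m (Kc + 3) s ta))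
        (a0 * (2 ^ m) ^ 2 ^ s) (b0 * (2 ^ m) ^ 2 ^ s)
        (nodeW ((2 ^ m) ^ 2 ^ s) Z (X.g s) μ B lo (labL m (Kc + 3) s ta) D t) : ℝ) := by
    intro t
    have h5 := H244.cR_le_WT (P := clsPar m ℓ μ B w0 J S H (Kc + 3) D1)
      (mc := machW X (labL m (Kc + 3)) m μ B w0) (ω := ω) (vis := vis) (hid := hid)
      (by show 0 < 2 ^ m; positivity) penOK_clsPar hE hle (j := a * 2 ^ s + 2 ^ s) (i := i)
      (a := ta) (s := s) (Nat.le_add_left _ _)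
      (node_lt_pW (K := (2 ^ m) ^ 2 ^ s) (g := X.g s) hLB ha)
      (node_lt_pW (K := (2 ^ m) ^ 2 ^ s) (g := X.g s) hLB hb)
      (lb := labX ((2 ^ m) ^ 2 ^ s) (X.g s) (labL m (Kc + 3) s ta))
      (zp := posX ((2 ^ m) ^ 2 ^ s) Z (X.g s) μ B lo)
      (fun g' _ => labL_desc s _ ta _ (labX_mem hLB _ _ _)) ((t : ℤ) - H)
      (C.pos (i * (2 ^ m) ^ (a * 2 ^ s + 2 ^ s)))
      (C.pos ((i + 1) * (2 ^ m) ^ (a * 2 ^ s + 2 ^ s)))
    have h6 := (hCtop ((t : ℤ) - H)).1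
    rw [posX_of_le (mul_le_aux ha), posX_of_le (mul_le_aux hb)] at h5
    have h7 := hCcR ((t : ℤ) - H)
    have h8 : WD ((2 ^ m) ^ 2 ^ s + 2) (pW ((2 ^ m) ^ 2 ^ s) (X.g s) (labL m (Kc + 3) s ta))
        (a0 * (2 ^ m) ^ 2 ^ s) (b0 * (2 ^ m) ^ 2 ^ s)
        (nodeW ((2 ^ m) ^ 2 ^ s) Z (X.g s) μ B lo (labL m (Kc + 3) s ta) D t) =
        H244.WT (clsPar m ℓ μ B w0 J S H (Kc + 3) D1) (machW X (labL m (Kc + 3)) m μ B w0) ω vis
          hid (a * 2 ^ s + 2 ^ s) i ta s (pW ((2 ^ m) ^ 2 ^ s) (X.g s) (labL m (Kc + 3) s ta))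
          (a0 * (2 ^ m) ^ 2 ^ s) (b0 * (2 ^ m) ^ 2 ^ s)
          (labX ((2 ^ m) ^ 2 ^ s) (X.g s) (labL m (Kc + 3) s ta))
          (posX ((2 ^ m) ^ 2 ^ s) Z (X.g s) μ B lo) ((t : ℤ) - H) := by
      rw [hD]; rfl
    have h9 : cR (clsPar m ℓ μ B w0 J S H (Kc + 3) D1) (machW X (labL m (Kc + 3)) m μ B w0) ω vis
        hid (a * 2 ^ s + 2 ^ s) i ta ((t : ℤ) - H)
        (C.pos (i * (2 ^ m) ^ (a * 2 ^ s + 2 ^ s)))
        (C.pos ((i + 1) * (2 ^ m) ^ (a * 2 ^ s + 2 ^ s))) ≤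
        WD ((2 ^ m) ^ 2 ^ s + 2) (pW ((2 ^ m) ^ 2 ^ s) (X.g s) (labL m (Kc + 3) s ta))
        (a0 * (2 ^ m) ^ 2 ^ s) (b0 * (2 ^ m) ^ 2 ^ s)
        (nodeW ((2 ^ m) ^ 2 ^ s) Z (X.g s) μ B lo (labL m (Kc + 3) s ta) D t) + e := by
      rw [h8]
      refine h5.trans ?_
      rw [add_assoc]
      exact Nat.add_le_add_left he _
    have h10 := (Nat.cast_le (α := ℝ)).2 h9
    rw [← h7] at h10
    push_cast at h10
    linarith
  rw [← hA] at hsum hr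
  have hKZ0 : (0 : ℝ) ≤ (((2 ^ m) ^ 2 ^ s : ℕ) : ℝ) * Z := by positivity
  have key := plugW (K := (2 ^ m) ^ 2 ^ s) (h := 2 ^ s) (wm := m * 2 ^ s) (Z := Z) (g := X.g s)
    (NL := X.NL s) (Dl := X.Dl s) (R := X.R s) (T := X.T s) (Sh := X.Sh s) (Rh := X.Rh s)
    (Cc := X.C) (μ := μ) (B := B) (lo := lo) (ca := ca) (a0 := a0) (b0 := b0) (l := l) (o := o)
    hLB hDanti hK2 (by positivity) hhl hZ0 hlZ hSh hRh hC ha hb hl ho hR hs' hsT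
    (cU := A.uC H s a i) (cR := A.tC H s a i) (DU := A.uD s a i) (w := A.uW s a i)
    (gd := fun u => gd (i * (2 ^ m) ^ 2 ^ s + u))
    (fun u t t' ht => A.anti _ _ hj (hui u u.2) (by omega))
    (A.uW_pos (show 0 < 2 ^ m by positivity) s a i)
    (fun t u => (hCun u u.2 _).1) (fun t => by rw [hsumD]; exact (hCtop _).1)
    (fun u => (hCun u u.2 _).2)
    (fun t => by
      have h6 := A.H1_units (a * 2 ^ s) (2 ^ s) i ((t : ℤ) - H) htop.le hi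
      exact h6.trans (le_of_eq (Fin.sum_univ_eq_sum_range
        (fun u => A.C (a * 2 ^ s) (i * (2 ^ m) ^ 2 ^ s + u)
          ((t : ℤ) - H - A.US (a * 2 ^ s) (2 ^ s) (i * (2 ^ m) ^ 2 ^ s + u)))
        ((2 ^ m) ^ 2 ^ s)).symm))
    (by rw [hsumW]; exact hW1) (by rw [hsumW]; exact hW2) (f := f) hf f0 fK
    (rt := rt) (r0 := r0) (e2 := e2) (d := 8 * dl + e2) (cN := cN) hrt hrt1 hr0 he2
    (by positivity) hcN0
    (fun t => by
      rw [hsumW]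
      refine (hsum t).trans (le_of_eq ?_)
      rw [← Fin.sum_univ_eq_sum_range (fun u => A.C (a * 2 ^ s) (i * (2 ^ m) ^ 2 ^ s + u)
        ((t : ℤ) - H - A.US (a * 2 ^ s) (2 ^ s) (i * (2 ^ m) ^ 2 ^ s + u)))
        ((2 ^ m) ^ 2 ^ s)]
      rfl)
    (fun t u hu => hr t u u.2 hu) (fun u => hwu' u u.2) hwt' hcN
    (fun t => by rw [hsumW, hsumD]; exact hz2 t) (A := A') (jc := jc) (N := N) h1 h2 h3
    (fun t r ht hr' hact hrk => by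
      rw [hsumW]
      have hcert := H68.certW (K := (2 ^ m) ^ 2 ^ s) (h := 2 ^ s) (wm := m * 2 ^ s) (Z := Z)
        (g := X.g s) (NL := X.NL s) (Dl := X.Dl s) (R := X.R s) (T := X.T s) (Sh := X.Sh s)
        (Rh := X.Rh s) (Cc := X.C) (μ := μ) (B := B) (lo := lo) (ca := ca) hLB (D := D)
        (coin := ω.coin (a * 2 ^ s + 2 ^ s) s)
        (CR := fun κ u v => cR (clsPar m ℓ μ B w0 J S H (Kc + 3) D1)
          (machW X (labL m (Kc + 3)) m μ B w0) ω vis hid (a * 2 ^ s + 2 ^ s) i ta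
          ((κ : ℤ) - H) u v) (cnt := X.cnt s)
        (fun q hq κ => by
          have h7 := cR_le_storedW (m := m) (ℓ := ℓ) (μ := μ) (B := B) (w0 := w0) (J := J)
            (S := S) (H := H) (Kc := Kc + 3) (D1 := D1) X (LB := labL m (Kc + 3))
            (labL_ne m (Kc + 3)) (ω := ω) hE hle (j := a * 2 ^ s + 2 ^ s) (i := i) (a := ta)
            (s := s) (q := q) (κ := κ) (b := (κ : ℤ) - H)
            (Nat.lt_of_lt_of_le (by positivity) (Nat.le_add_left _ _)) hsS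
            (Dvd.intro_left (a + 1) (by ring)) hq (by omega) (by omega) hD
            (K := (2 ^ m) ^ 2 ^ s) (Z := Z) (lo := lo) rfl (by rw [Nat.add_sub_cancel, hZ, hca])
            hlo
          rw [← hca] at h7
          exact h7) (fun κ u u' v v' => cR_lip hE _ _ _ _ _ _ _ _)
        (a0 := a0) (b0 := b0) (p0 := C.pos (i * (2 ^ m) ^ (a * 2 ^ s + 2 ^ s)))
        (p1 := C.pos ((i + 1) * (2 ^ m) ^ (a * 2 ^ s + 2 ^ s))) (e := e) ha hb he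
        (Sm := X.Sm s) (NR := NR) (Bd := 2 * ((((2 ^ m) ^ 2 ^ s : ℕ) : ℝ) * Z))
        (d := (((2 ^ m) ^ 2 ^ s : ℕ) : ℝ) * Z * dl)
        (by unfold MPW.cnt; rw [if_neg (by omega)]) (by omega)
        (mul_nonneg hKZ0 hdl)
        (fun κ => by
          have h8 := (hCtop ((κ : ℤ) - H)).2
          rw [hCcR] at h8
          have h9 := hz2 (κ + 2 ^ s)
          have h10 : A.W (a * 2 ^ s + 2 ^ s) i * e2 ≤ A.W (a * 2 ^ s + 2 ^ s) i := by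
            calc _ ≤ A.W (a * 2 ^ s + 2 ^ s) i * 1 := mul_le_mul_of_nonneg_left he2 hWp.le
              _ = _ := mul_one _
          linarith) hF hl ho hr' (lt_of_lt_of_le ht hNR) hact hrk
      have h11 : A.tC H s a i t = A.C (a * 2 ^ s + 2 ^ s) i ((t : ℤ) - H) := rfl
      rw [h11, hCcR]
      refine hcert.trans (add_le_add le_rfl ?_)
      have h12 : (((2 ^ m) ^ 2 ^ s : ℕ) : ℝ) * Z * dl ≤ 8 * A.W (a * 2 ^ s + 2 ^ s) i * dl :=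
        mul_le_mul_of_nonneg_right hW1 hdl
      linarith)
  have h4 : ((2 ^ s : ℕ) : ℝ) = 2 ^ s := by push_cast; rfl
  rw [h4] at key
  exact key

end

end Vale.Agent.P315.H763
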