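import Vale.Agent.P315.H519.Runs
import Vale.Agent.P315.H330.BlockW
import Vale.Agent.P315.H763.GreedyW

/-!
P315 (helper763): weighted form of the start-block machine (519's `Runs.lean`): edge weights `a`,
caps `cap * a`, look-ahead arrays `D'`, prior `y0`, arbitrary path sets, absolute units.
-/

set_option autoImplicit false
set_option linter.unusedSectionVars false

open Finset

namespace Vale.Agent.P315.H763

open Vale.Agent.P315.H330
open Vale.Agent.P315.H330.W (mass potW wclW wt)
open Vale.Agent.P315.H519 (blk win sum_runs sum_block flg pair_sum_left anti_nat)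

variable {I E : Type*} [Fintype I] [Fintype E]

/-- Weighted regulariser `Σ a (x log x - x)`. -/
noncomputable def entW (a x : I → E → ℝ) : ℝ :=
  ∑ i, ∑ e, a i e * (x i e * Real.log (x i e)) - mass a x

lemma coordW {a x y s : ℝ} (ha : 0 < a) (hx : 0 ≤ x) (hy : 0 ≤ y) (hxy : y = 0 → x = 0)
    (hs0 : 0 ≤ s) (hs1 : s ≤ a) :
    a * x - a * y - 2 * (s * y) ≤ a * (x * Real.log x) - a * (x * Real.log y) - s * x := by
  have h := coord_gibbs hx hy hxy (div_nonneg hs0 ha.le) ((div_le_one ha).2 hs1)
  have h2 := mul_le_mul_of_nonneg_left h ha.le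
  have e1 : a * (x - y * (1 + 2 * (s / a))) = a * x - a * y - 2 * (s * y) := by
    field_simp
    ring
  have e2 : a * (x * Real.log x - x * Real.log y - s / a * x) =
      a * (x * Real.log x) - a * (x * Real.log y) - s * x := by
    field_simp
  rw [e1, e2] at h2
  exact h2

lemma mass_comb (a x y : I → E → ℝ) (b c : ℝ) :
    mass a (fun i e => b * x i e + c * y i e) = b * mass a x + c * mass a y := by
  simp only [mass, Finset.mul_sum, ← Finset.sum_add_distrib]
  refine Finset.sum_congr rfl fun i _ => Finset.sum_congr rfl fun e _ => ?_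
  ring

lemma mass_nonneg {a x : I → E → ℝ} (ha : ∀ i e, 0 < a i e) (hx : ∀ i e, 0 ≤ x i e) :
    0 ≤ mass a x :=
  Finset.sum_nonneg fun i _ => Finset.sum_nonneg fun e _ => mul_nonneg (ha i e).le (hx i e)

/-- The key inequality, weighted. -/
theorem keyW {X : Set (I → E → ℝ)} {a : I → E → ℝ} {Bm : ℝ} (ha : ∀ i e, 0 < a i e)
    (hX : ∀ x ∈ X, (∀ i e, 0 ≤ x i e) ∧ mass a x ≤ Bm)
    (hconv : ∀ x ∈ X, ∀ y ∈ X, ∀ a : ℝ, 0 ≤ a → a ≤ 1 →
      (fun i e => (1 - a) * x i e + a * y i e) ∈ X)
    {L xh : I → E → ℝ} {tau : ℝ} (hxh : xh ∈ X)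
    (hmin : ∀ y ∈ X, pair L xh + entW a xh ≤ pair L y + entW a y + tau)
    {s : I → E → ℝ} (hs0 : ∀ i e, 0 ≤ s i e) (hs1 : ∀ i e, s i e ≤ a i e)
    {x : I → E → ℝ} (hx : x ∈ X) {th : ℝ} (hth0 : 0 < th) (hth1 : th ≤ 1 / 2) :
    pair L xh + entW a xh - 2 * pair s xh - (5 * th * Bm + tau / th) ≤
      pair L x + entW a x - pair s x := by
  set y : I → E → ℝ := fun i e => (1 - th) * xh i e + th * x i e with hy
  have hyX : y ∈ X := hconv xh hxh x hx th hth0.le (by linarith)
  have sx := (hX x hx).1
  have sxh := (hX xh hxh).1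
  have sy := (hX y hyX).1
  have hyx : ∀ i e, y i e = 0 → x i e = 0 := by
    intro i e h
    have h1 : 0 ≤ (1 - th) * xh i e := mul_nonneg (by linarith) (sxh i e)
    have h2 : 0 ≤ th * x i e := mul_nonneg hth0.le (sx i e)
    have h3 : th * x i e = 0 := by
      have : (1 - th) * xh i e + th * x i e = 0 := h
      linarith
    rcases mul_eq_zero.1 h3 with h4 | h4
    · exact absurd h4 hth0.ne'
    · exact h4
  have hyxh : ∀ i e, y i e = 0 → xh i e = 0 := by
    intro i e h
    have h1 : 0 ≤ (1 - th) * xh i e := mul_nonneg (by linarith) (sxh i e)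
    have h2 : 0 ≤ th * x i e := mul_nonneg hth0.le (sx i e)
    have h3 : (1 - th) * xh i e = 0 := by
      have : (1 - th) * xh i e + th * x i e = 0 := h
      linarith
    rcases mul_eq_zero.1 h3 with h4 | h4
    · exact absurd h4 (by linarith)
    · exact h4
  set Cx : ℝ := ∑ i, ∑ e, a i e * (x i e * Real.log (y i e)) with hCx
  set Ch : ℝ := ∑ i, ∑ e, a i e * (xh i e * Real.log (y i e)) with hCh
  set Ex : ℝ := ∑ i, ∑ e, a i e * (x i e * Real.log (x i e)) with hEx
  set Eh : ℝ := ∑ i, ∑ e, a i e * (xh i e * Real.log (xh i e)) with hEh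
  set Ey : ℝ := ∑ i, ∑ e, a i e * (y i e * Real.log (y i e)) with hEy
  have hentxy : Ey = (1 - th) * Ch + th * Cx := by
    simp only [hEy, hCx, hCh, Finset.mul_sum, ← Finset.sum_add_distrib]
    refine Finset.sum_congr rfl fun i _ => Finset.sum_congr rfl fun e _ => ?_
    rw [show y i e = (1 - th) * xh i e + th * x i e from rfl]
    ring
  have hMy : mass a y = (1 - th) * mass a xh + th * mass a x := mass_comb a xh x _ _
  -- tangent inequality
  have ht : Ch ≤ Eh - mass a xh + mass a y := by
    have h' : ∑ i, ∑ e, (a i e * xh i e - a i e * y i e - 2 * (0 * y i e)) ≤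
        ∑ i, ∑ e, (a i e * (xh i e * Real.log (xh i e)) - a i e * (xh i e * Real.log (y i e))
          - 0 * xh i e) :=
      Finset.sum_le_sum fun i _ => Finset.sum_le_sum fun e _ =>
        coordW (ha i e) (sxh i e) (sy i e) (hyxh i e) le_rfl (ha i e).le
    simp only [zero_mul, mul_zero, sub_zero, Finset.sum_sub_distrib] at h'
    have e1 : mass a xh = ∑ i, ∑ e, a i e * xh i e := rfl
    have e2 : mass a y = ∑ i, ∑ e, a i e * y i e := rfl
    linarith
  -- Gibbs for x
  have hg : mass a x - mass a y - 2 * pair s y ≤ Ex - Cx - pair s x := by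
    have h' : ∑ i, ∑ e, (a i e * x i e - a i e * y i e - 2 * (s i e * y i e)) ≤
        ∑ i, ∑ e, (a i e * (x i e * Real.log (x i e)) - a i e * (x i e * Real.log (y i e))
          - s i e * x i e) :=
      Finset.sum_le_sum fun i _ => Finset.sum_le_sum fun e _ =>
        coordW (ha i e) (sx i e) (sy i e) (hyx i e) (hs0 i e) (hs1 i e)
    simp only [Finset.sum_sub_distrib, ← Finset.mul_sum] at h'
    exact h'
  -- xh is close to y
  have hlog1 : -(2 * th) ≤ Real.log (1 - th) := by
    have h := Real.one_sub_inv_le_log_of_pos (x := 1 - th) (by linarith)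
    have h1 : (1 - th)⁻¹ ≤ 1 + 2 * th := by
      rw [inv_le_comm₀ (by linarith) (by linarith)]
      rw [inv_le_iff_one_le_mul₀ (by linarith)]
      nlinarith
    linarith
  have hc : Eh - Ch ≤ 2 * th * mass a xh := by
    have h : ∀ i e, a i e * (xh i e * Real.log (xh i e)) - a i e * (xh i e * Real.log (y i e)) ≤
        2 * th * (a i e * xh i e) := by
      intro i e
      rcases eq_or_lt_of_le (sxh i e) with h0 | hpos
      · rw [← h0]; simp
      · have hle : (1 - th) * xh i e ≤ y i e := by
          have : 0 ≤ th * x i e := mul_nonneg hth0.le (sx i e)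
          show (1 - th) * xh i e ≤ (1 - th) * xh i e + th * x i e
          linarith
        have hpos' : 0 < (1 - th) * xh i e := mul_pos (by linarith) hpos
        have hl := Real.log_le_log hpos' hle
        rw [Real.log_mul (by linarith) hpos.ne'] at hl
        have : xh i e * (Real.log (xh i e) - Real.log (y i e)) ≤ xh i e * (2 * th) :=
          mul_le_mul_of_nonneg_left (by linarith) hpos.le
        have := mul_le_mul_of_nonneg_left this (ha i e).le
        linarith
    have h' : ∑ i, ∑ e, (a i e * (xh i e * Real.log (xh i e))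
        - a i e * (xh i e * Real.log (y i e))) ≤ ∑ i, ∑ e, 2 * th * (a i e * xh i e) :=
      Finset.sum_le_sum fun i _ => Finset.sum_le_sum fun e _ => h i e
    simp only [Finset.sum_sub_distrib, ← Finset.mul_sum] at h'
    exact h'
  -- minimality
  have hm := hmin y hyX
  have hLy : pair L y = (1 - th) * pair L xh + th * pair L x := pair_comb_right L xh x _ _
  have hsyy : pair s y = (1 - th) * pair s xh + th * pair s x := pair_comb_right s xh x _ _
  have hsx1 : pair s x ≤ mass a x :=
    Finset.sum_le_sum fun i _ => Finset.sum_le_sum fun e _ =>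
      mul_le_mul_of_nonneg_right (hs1 i e) (sx i e)
  have hsxh0 : 0 ≤ pair s xh := pair_nonneg sxh hs0
  have hMx := (hX x hx).2
  have hMh := (hX xh hxh).2
  have hMx0 := mass_nonneg ha sx
  have hMh0 := mass_nonneg ha sxh
  have eh : entW a xh = Eh - mass a xh := rfl
  have ey : entW a y = Ey - mass a y := rfl
  have ex : entW a x = Ex - mass a x := rfl
  have h5 : -tau ≤ th * ((pair L x - pair L xh) + (Cx - Ch)) := by
    rw [hLy, eh, ey, hentxy] at hm
    rw [hMy] at ht hm
    linarith [hm, ht]
  have h6 : -(tau / th) ≤ (pair L x - pair L xh) + (Cx - Ch) := by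
    have h7 : -tau / th ≤ (th * ((pair L x - pair L xh) + (Cx - Ch))) / th :=
      div_le_div_of_nonneg_right h5 hth0.le
    rw [mul_div_cancel_left₀ _ hth0.ne'] at h7
    rw [neg_div] at h7
    exact h7
  have h8 : pair s y ≤ pair s xh + th * mass a x := by
    rw [hsyy]
    nlinarith [mul_le_mul_of_nonneg_left hsx1 hth0.le, mul_nonneg hth0.le hsxh0]
  rw [eh, ex]
  rw [hMy] at hg
  have h9 : th * mass a x ≤ th * Bm := mul_le_mul_of_nonneg_left hMx hth0.le
  have h10 : th * mass a xh ≤ th * Bm := mul_le_mul_of_nonneg_left hMh hth0.le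
  have h11 : 0 ≤ th * mass a xh := mul_nonneg hth0.le hMh0
  linarith [hg, hc, h6, h8, h9, h10, h11]

/-- linear costs of round `t` (history = the rounds `j < t` with `flag j`), prior `y0` -/
noncomputable def LfW (D D' : ℕ → I → E → ℝ) (cap : ℝ) (a y0 : I → E → ℝ) (flag : ℕ → Prop)
    [DecidablePred flag] (t : ℕ) : I → E → ℝ :=
  fun i e => cap⁻¹ * (2 * (∑ j ∈ (range t).filter flag, D j i e + D t i e)
    - ∑ j ∈ (range t).filter flag, wclW cap a (D j) (D' j) i e) - a i e * Real.log (y0 i e)

/-- prior term -/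
noncomputable def prior (a y0 x : I → E → ℝ) : ℝ := ∑ i, ∑ e, a i e * Real.log (y0 i e) * x i e

lemma pair_LfW (D D' : ℕ → I → E → ℝ) (cap : ℝ) (a y0 : I → E → ℝ) (flag : ℕ → Prop)
    [DecidablePred flag] (t : ℕ) (x : I → E → ℝ) :
    pair (LfW D D' cap a y0 flag t) x =
      cap⁻¹ * (2 * (∑ j ∈ (range t).filter flag, pair (D j) x + pair (D t) x)
        - ∑ j ∈ (range t).filter flag, pair (wclW cap a (D j) (D' j)) x) - prior a y0 x := by
  rw [← pair_sum_left, ← pair_sum_left, ← pair_add_left, ← pair_smul_left, ← pair_sub_left,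
    ← pair_smul_left]
  have h := pair_sub_left (fun i e => cap⁻¹ * (2 * (∑ j ∈ (range t).filter flag, D j i e + D t i e)
    - ∑ j ∈ (range t).filter flag, wclW cap a (D j) (D' j) i e))
    (fun i e => a i e * Real.log (y0 i e)) x
  exact h

/-- relative entropy to the prior -/
lemma reg_nonneg {a y0 x : I → E → ℝ} (ha : ∀ i e, 0 < a i e) (hy0 : ∀ i e, 0 < y0 i e)
    (hx : ∀ i e, 0 ≤ x i e) : 0 ≤ entW a x - prior a y0 x + mass a y0 := by
  have h' : ∑ i, ∑ e, (a i e * x i e - a i e * y0 i e - 2 * (0 * y0 i e)) ≤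
      ∑ i, ∑ e, (a i e * (x i e * Real.log (x i e)) - a i e * (x i e * Real.log (y0 i e))
        - 0 * x i e) :=
    Finset.sum_le_sum fun i _ => Finset.sum_le_sum fun e _ =>
      coordW (ha i e) (hx i e) (hy0 i e).le (fun h => absurd h (hy0 i e).ne') le_rfl (ha i e).le
  simp only [zero_mul, mul_zero, sub_zero, Finset.sum_sub_distrib] at h'
  have e1 : mass a x = ∑ i, ∑ e, a i e * x i e := rfl
  have e2 : mass a y0 = ∑ i, ∑ e, a i e * y0 i e := rfl
  have e3 : prior a y0 x = ∑ i, ∑ e, a i e * (x i e * Real.log (y0 i e)) := by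
    unfold prior
    exact Finset.sum_congr rfl fun i _ => Finset.sum_congr rfl fun e _ => by ring
  unfold entW
  rw [e1, e2, e3]
  linarith

/-- **Weighted regret lemma with separate end costs and sleeping rounds.** -/
theorem md_flagW {X : Set (I → E → ℝ)} {a : I → E → ℝ} {Bm : ℝ} (ha : ∀ i e, 0 < a i e)
    (hX : ∀ x ∈ X, (∀ i e, 0 ≤ x i e) ∧ mass a x ≤ Bm)
    (hconv : ∀ x ∈ X, ∀ y ∈ X, ∀ a : ℝ, 0 ≤ a → a ≤ 1 →
      (fun i e => (1 - a) * x i e + a * y i e) ∈ X)
    {flag : ℕ → Prop} [DecidablePred flag] {N : ℕ}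
    {D D' : ℕ → I → E → ℝ} (hD : ∀ t, t < N → flag t → ∀ i e, D' t i e ≤ D t i e)
    {cap : ℝ} (hcap : 0 < cap) {y0 : I → E → ℝ} (hy0 : ∀ i e, 0 < y0 i e)
    {xh : ℕ → I → E → ℝ} (hxh : ∀ t, t < N → flag t → xh t ∈ X) {tau : ℝ}
    (hmin : ∀ t, t < N → flag t → ∀ y ∈ X,
      pair (LfW D D' cap a y0 flag t) (xh t) + entW a (xh t) ≤
      pair (LfW D D' cap a y0 flag t) y + entW a y + tau)
    {P : I → E → ℝ} (hP : P ∈ X) {th : ℝ} (hth0 : 0 < th) (hth1 : th ≤ 1 / 2) :
    ∑ t ∈ (range N).filter flag, pair (wclW cap a (D t) (D' t)) P ≤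
      2 * ∑ t ∈ (range N).filter flag, (pair (D t) P - pair (D' t) (xh t))
      + cap * (entW a P - prior a y0 P + mass a y0)
      + (((range N).filter flag).card : ℝ) * (cap * (5 * th * Bm + tau / th)) := by
  set err : ℝ := 5 * th * Bm + tau / th with herr
  have hci : 0 < cap⁻¹ := inv_pos.2 hcap
  have hmain : ∀ t, t ≤ N → ∀ x ∈ X,
      cap⁻¹ * (2 * ∑ j ∈ (range t).filter flag, pair (D' j) (xh j))
        - (((range t).filter flag).card : ℝ) * err ≤
      cap⁻¹ * (2 * ∑ j ∈ (range t).filter flag, pair (D j) x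
        - ∑ j ∈ (range t).filter flag, pair (wclW cap a (D j) (D' j)) x)
        + (entW a x - prior a y0 x + mass a y0) := by
    intro t
    induction t with
    | zero =>
      intro _ x hx
      have := reg_nonneg ha hy0 (hX x hx).1
      simp only [Finset.range_zero, Finset.filter_empty, Finset.sum_empty, mul_zero, sub_zero,
        Finset.card_empty, Nat.cast_zero, zero_mul, zero_add]
      exact this
    | succ t ih =>
      intro ht x hx
      have htN : t < N := ht
      rw [Finset.range_add_one, Finset.filter_insert]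
      by_cases hf : flag t
      · rw [if_pos hf]
        have hnot : t ∉ (range t).filter flag := by simp
        rw [Finset.sum_insert hnot, Finset.sum_insert hnot, Finset.sum_insert hnot,
          Finset.card_insert_of_notMem hnot]
        have hs0 : ∀ i e, 0 ≤ cap⁻¹ * wclW cap a (D t) (D' t) i e := fun i e =>
          mul_nonneg hci.le (W.wclW_nonneg hcap ha (hD t htN hf) i e)
        have hs1 : ∀ i e, cap⁻¹ * wclW cap a (D t) (D' t) i e ≤ a i e := fun i e => by
          have h := mul_le_mul_of_nonneg_left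
            (min_le_right (D t i e - D' t i e) (cap * a i e)) hci.le
          rwa [← mul_assoc, inv_mul_cancel₀ hcap.ne', one_mul] at h
        have hk := keyW ha hX hconv (hxh t htN hf) (hmin t htN hf) hs0 hs1 hx hth0 hth1
        rw [pair_smul_left, pair_smul_left, pair_LfW, pair_LfW] at hk
        have h2 : pair (wclW cap a (D t) (D' t)) (xh t) ≤
            pair (D t) (xh t) - pair (D' t) (xh t) := by
          rw [← pair_sub_left]
          exact pair_le_pair (hX _ (hxh t htN hf)).1 fun i e => min_le_left _ _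
        have h3 := mul_le_mul_of_nonneg_left h2 hci.le
        have h4 := ih htN.le (xh t) (hxh t htN hf)
        push_cast
        simp only [mul_add, mul_sub] at hk h3 h4 ⊢
        linarith [hk, h3, h4]
      · rw [if_neg hf]
        exact ih htN.le x hx
  have h1 := hmain N le_rfl P hP
  have h3 := mul_le_mul_of_nonneg_left h1 hcap.le
  set SD := ∑ j ∈ (range N).filter flag, pair (D j) P with hSD
  set SW := ∑ j ∈ (range N).filter flag, pair (wclW cap a (D j) (D' j)) P with hSW
  set SE := ∑ j ∈ (range N).filter flag, pair (D' j) (xh j) with hSE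
  have h4 : cap * (cap⁻¹ * (2 * SE) - (((range N).filter flag).card : ℝ) * err) =
      2 * SE - (((range N).filter flag).card : ℝ) * (cap * err) := by
    field_simp
  have h5 : cap * (cap⁻¹ * (2 * SD - SW) + (entW a P - prior a y0 P + mass a y0)) =
      2 * SD - SW + cap * (entW a P - prior a y0 P + mass a y0) := by
    field_simp
  rw [h4, h5] at h3
  rw [Finset.sum_sub_distrib]
  linarith

/-- Linear costs of round `t` of the instance with start block `j1`. -/
noncomputable def LstW (D D' : ℕ → I → E → ℝ) (cap : ℝ) (a y0 : I → E → ℝ) (o len h : ℕ)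
    (act : ℕ → Prop) [DecidablePred act] (j1 t : ℕ) : I → E → ℝ :=
  fun i e => cap⁻¹ * (2 * (∑ t' ∈ H519.hist o len h act j1 t, D t' i e + D t i e)
    - ∑ t' ∈ H519.hist o len h act j1 t, wclW cap a (D t') (D' t') i e)
    - a i e * Real.log (y0 i e)

lemma LstW_eq_LfW (D D' : ℕ → I → E → ℝ) (cap : ℝ) (a y0 : I → E → ℝ) {o len h : ℕ}
    {act : ℕ → Prop} [DecidablePred act] {j1 ph t : ℕ} (hf : flg o len h act j1 ph t) :
    LstW D D' cap a y0 o len h act j1 t =
      LfW D D' cap a y0 (flg o len h act j1 ph) t := by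
  obtain ⟨h1, h2, h3, h4⟩ := hf
  have hset : H519.hist o len h act j1 t = (range t).filter (flg o len h act j1 ph) := by
    unfold H519.hist
    refine Finset.filter_congr fun t' _ => ?_
    unfold flg
    constructor
    · rintro ⟨a, b, c⟩
      refine ⟨a.trans h1, b, ?_⟩
      rcases c with c | c
      · exact c
      · rw [c]; exact ⟨h3, h4⟩
    · rintro ⟨a, b, c⟩
      exact ⟨a.trans h1.symm, b, Or.inl c⟩
  unfold LstW LfW
  rw [hset]

/-- **(H3b) for all sets of active blocks, from one FTRL instance per start block.** Block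
numbers `< N`; `xh j1 t` = law computed in round `t` by the instance with start block `j1`. -/
theorem start_blocksW {X : Set (I → E → ℝ)} {a : I → E → ℝ} {Bm : ℝ} (ha : ∀ i e, 0 < a i e)
    (hX : ∀ x ∈ X, (∀ i e, 0 ≤ x i e) ∧ mass a x ≤ Bm)
    (hconv : ∀ x ∈ X, ∀ y ∈ X, ∀ a : ℝ, 0 ≤ a → a ≤ 1 →
      (fun i e => (1 - a) * x i e + a * y i e) ∈ X)
    {D D' : ℕ → I → E → ℝ} (hD : ∀ t i e, D' t i e ≤ D t i e) {cap : ℝ} (hcap : 0 < cap)
    {y0 : I → E → ℝ} (hy0 : ∀ i e, 0 < y0 i e)
    {o len h : ℕ} (hlen : 0 < len) (hh : 0 < h) {act A : ℕ → Prop} [DecidablePred act]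
    [DecidablePred A] (hA : ∀ j, A j → act j) {N : ℕ} {xh : ℕ → ℕ → I → E → ℝ} {tau : ℝ}
    (hxh : ∀ j1 t, blk o len t < N → win o len h t → A (blk o len t) → act j1 →
      j1 ≤ blk o len t → xh j1 t ∈ X ∧ ∀ y ∈ X,
        pair (LstW D D' cap a y0 o len h act j1 t) (xh j1 t) + entW a (xh j1 t) ≤
          pair (LstW D D' cap a y0 o len h act j1 t) y + entW a y + tau)
    {P : I → E → ℝ} (hP : P ∈ X) {th : ℝ} (hth0 : 0 < th) (hth1 : th ≤ 1 / 2) {G : ℕ → ℝ}
    (hG : ∀ j1 t, blk o len t < N → win o len h t → A (blk o len t) → act j1 →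
      j1 ≤ blk o len t → pair (D t) P - pair (D' t) (xh j1 t) ≤ G t) :
    ∑ j ∈ (range N).filter A, ∑ t ∈ (range (N * len)).filter
        (fun t => blk o len t = j ∧ win o len h t), pair (wclW cap a (D t) (D' t)) P ≤
      2 * ∑ j ∈ (range N).filter A, ∑ t ∈ (range (N * len)).filter
        (fun t => blk o len t = j ∧ win o len h t), G t
      + (1 + (((range N).filter fun j => act j ∧ ¬ A j).card : ℝ))
        * (h * (cap * (entW a P - prior a y0 P + mass a y0)))
      + ∑ j ∈ (range N).filter A, (((range (N * len)).filter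
        (fun t => blk o len t = j ∧ win o len h t)).card : ℝ)
        * (cap * (5 * th * Bm + tau / th)) := by
  set C0 : ℝ := entW a P - prior a y0 P + mass a y0 with hC0
  set err : ℝ := cap * (5 * th * Bm + tau / th) with herr
  have hC00 : 0 ≤ C0 := reg_nonneg ha hy0 (hX P hP).1
  set B : ℕ → Finset ℕ := fun j =>
    (range (N * len)).filter (fun t => blk o len t = j ∧ win o len h t) with hB
  have key0 : ∀ a1 b, b ≤ N → (∀ j, a1 ≤ j → j < b → act j → A j) →
      ∑ j ∈ (Ico a1 b).filter A, ∑ t ∈ B j,
        (pair (wclW cap a (D t) (D' t)) P - 2 * G t - err) ≤ h * (cap * C0) := by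
    intro a1 b hb hrun
    have hC : 0 ≤ h * (cap * C0) := by positivity
    by_cases hex : ∃ j, a1 ≤ j ∧ j < b ∧ act j
    · -- the start block
      have hdec : DecidablePred fun j => a1 ≤ j ∧ j < b ∧ act j := fun _ => inferInstance
      set j1 := Nat.find hex with hj1
      obtain ⟨h1a, h1b, h1c⟩ := Nat.find_spec hex
      rw [← hj1] at h1a h1b h1c
      have hmin1 : ∀ j, a1 ≤ j → j < b → act j → j1 ≤ j := fun j ha1 hb' hc =>
        Nat.find_min' hex ⟨ha1, hb', hc⟩
      have hph : ∀ ph ∈ range h,
          ∑ t ∈ (range (b * len - o)).filter (flg o len h act j1 ph),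
            (pair (wclW cap a (D t) (D' t)) P - 2 * G t - err) ≤ cap * C0 := by
        intro ph _
        have hlt : ∀ t, t < b * len - o → blk o len t < b := by
          intro t ht
          unfold blk
          rw [Nat.div_lt_iff_lt_mul hlen]
          omega
        have hcond : ∀ t, t < b * len - o → flg o len h act j1 ph t →
            blk o len t < N ∧ win o len h t ∧ A (blk o len t) ∧ j1 ≤ blk o len t := by
          rintro t ht ⟨_, hw, hj, ha2⟩
          exact ⟨(hlt t ht).trans_le hb, hw,
            hrun _ (h1a.trans hj) (hlt t ht) ha2, hj⟩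
        have hmd := md_flagW (N := b * len - o) (flag := flg o len h act j1 ph)
          (D := D) (D' := D') (xh := xh j1) ha hX hconv
          (fun t _ _ i e => hD t i e) hcap hy0
          (fun t ht hf => by
            obtain ⟨c1, c2, c3, c4⟩ := hcond t ht hf
            exact (hxh j1 t c1 c2 c3 h1c c4).1)
          (fun t ht hf y hy => by
            obtain ⟨c1, c2, c3, c4⟩ := hcond t ht hf
            have := (hxh j1 t c1 c2 c3 h1c c4).2 y hy
            rwa [LstW_eq_LfW D D' cap a y0 hf] at this)
          hP hth0 hth1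
        have hGs : ∑ t ∈ (range (b * len - o)).filter (flg o len h act j1 ph),
            (pair (D t) P - pair (D' t) (xh j1 t)) ≤
            ∑ t ∈ (range (b * len - o)).filter (flg o len h act j1 ph), G t := by
          refine Finset.sum_le_sum fun t ht => ?_
          obtain ⟨ht1, ht2⟩ := Finset.mem_filter.1 ht
          obtain ⟨c1, c2, c3, c4⟩ := hcond t (Finset.mem_range.1 ht1) ht2
          exact hG j1 t c1 c2 c3 h1c c4
        rw [Finset.sum_sub_distrib, Finset.sum_sub_distrib, ← Finset.mul_sum,
          Finset.sum_const, nsmul_eq_mul]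
        linarith
      have hsum := Finset.sum_le_sum hph
      rw [Finset.sum_const, Finset.card_range, nsmul_eq_mul] at hsum
      refine le_trans (le_of_eq ?_) hsum
      -- both sides are the sum over the rounds of the run
      set F : ℕ → ℝ := fun t => pair (wclW cap a (D t) (D' t)) P - 2 * G t - err with hF
      have e1 : ∑ ph ∈ range h, ∑ t ∈ (range (b * len - o)).filter (flg o len h act j1 ph), F t =
          ∑ t ∈ (range (b * len - o)).filter
            (fun t => win o len h t ∧ j1 ≤ blk o len t ∧ act (blk o len t)), F t := by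
        rw [← Finset.sum_fiberwise_of_maps_to (s := (range (b * len - o)).filter
            (fun t => win o len h t ∧ j1 ≤ blk o len t ∧ act (blk o len t)))
            (t := range h) (g := fun t => t % h)
            (fun t _ => Finset.mem_range.2 (Nat.mod_lt _ hh))]
        refine Finset.sum_congr rfl fun ph _ => ?_
        refine Finset.sum_congr ?_ fun _ _ => rfl
        ext t
        simp only [Finset.mem_filter, Finset.mem_range, flg]
        tauto
      have e2 : ∑ j ∈ (Ico a1 b).filter A, ∑ t ∈ B j, F t =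
          ∑ t ∈ (range (b * len - o)).filter
            (fun t => win o len h t ∧ j1 ≤ blk o len t ∧ act (blk o len t)), F t := by
        rw [← Finset.sum_fiberwise_of_maps_to (s := (range (b * len - o)).filter
            (fun t => win o len h t ∧ j1 ≤ blk o len t ∧ act (blk o len t)))
            (t := (Ico a1 b).filter A) (g := fun t => blk o len t)]
        · refine Finset.sum_congr rfl fun j hj => ?_
          obtain ⟨hj1', hjA⟩ := Finset.mem_filter.1 hj
          obtain ⟨hja, hjb⟩ := Finset.mem_Ico.1 hj1'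
          refine Finset.sum_congr ?_ fun _ _ => rfl
          ext t
          simp only [Finset.mem_filter, Finset.mem_range, hB]
          constructor
          · rintro ⟨_, h2, h3⟩
            have hlt : t < b * len - o := by
              have : blk o len t < b := by rw [h2]; exact hjb
              unfold blk at this
              rw [Nat.div_lt_iff_lt_mul hlen] at this
              omega
            exact ⟨⟨hlt, h3, by rw [h2]; exact hmin1 j hja hjb (hA j hjA),
              by rw [h2]; exact hA j hjA⟩, h2⟩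
          · rintro ⟨⟨h1, h2, _, _⟩, h5⟩
            refine ⟨?_, h5, h2⟩
            have : b * len ≤ N * len := Nat.mul_le_mul_right _ hb
            omega
        · intro t ht
          simp only [Finset.mem_filter, Finset.mem_range] at ht
          obtain ⟨h1, _, h3, h4⟩ := ht
          have hlt : blk o len t < b := by
            unfold blk
            rw [Nat.div_lt_iff_lt_mul hlen]
            omega
          exact Finset.mem_filter.2 ⟨Finset.mem_Ico.2 ⟨h1a.trans h3, hlt⟩,
            hrun _ (h1a.trans h3) hlt h4⟩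
      rw [e1, e2]
    · have : (Ico a1 b).filter A = ∅ := by
        refine Finset.filter_eq_empty_iff.2 fun j hj hAj => ?_
        obtain ⟨h1, h2⟩ := Finset.mem_Ico.1 hj
        exact hex ⟨j, h1, h2, hA j hAj⟩
      rw [this, Finset.sum_empty]
      exact hC
  -- cut the blocks ≥ N off
  have hruns := sum_runs (act := fun j => act j ∧ j < N) (A := fun j => A j ∧ j < N)
    (T := fun j => ∑ t ∈ B j, (pair (wclW cap a (D t) (D' t)) P - 2 * G t - err))
    (C := h * (cap * C0)) (by positivity) (fun a1 b hrun => by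
      have hcut : (Ico a1 b).filter (fun j => A j ∧ j < N) =
          (Ico a1 (min b N)).filter A := by
        ext j
        simp only [Finset.mem_filter, Finset.mem_Ico, lt_min_iff]
        tauto
      rw [hcut]
      refine key0 a1 (min b N) (min_le_right _ _) fun j h1 h2 h3 => ?_
      rw [lt_min_iff] at h2
      exact (hrun j h1 h2.1 ⟨h3, h2.2⟩).1) N
  have f1 : (range N).filter (fun j => A j ∧ j < N) = (range N).filter A :=
    Finset.filter_congr fun j hj => by
      have := Finset.mem_range.1 hj
      tauto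
  have f2 : (range N).filter (fun j => (act j ∧ j < N) ∧ ¬ (A j ∧ j < N)) =
      (range N).filter (fun j => act j ∧ ¬ A j) :=
    Finset.filter_congr fun j hj => by
      have := Finset.mem_range.1 hj
      tauto
  rw [f1, f2] at hruns
  simp only [Finset.sum_sub_distrib, ← Finset.mul_sum, Finset.sum_const, nsmul_eq_mul] at hruns
  linarith

end Vale.Agent.P315.H763
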