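import Vale.Agent.Lib.PolyTime.Lists3
import Vale.Agent.Lib.PolyTime.NatArith2

/-! P315 (helper763): the greedy solver as a pure function on lists of naturals.

`sp s t ws`: cheapest node sequence `s = f 0, f 1, …, f M = t` in a complete layered graph with
`M = ws.length` rows; the weight of the edge `(u, v)` in row `i` is `ent3 ws i u v`; the nodes are
`0, …, p - 1` with `p` the number of lines of the first table.
`picks S Q s t T Li`: `T` greedy paths with congestion prices `Q * H(count)`, `H` a table of
rounded harmonic numbers. -/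

set_option autoImplicit false

namespace Vale.Agent.P315.H763

open Vale.Agent.Lib.PolyTime

/-- Entry of a table. -/
def ent2 (row : List (List ℕ)) (u v : ℕ) : ℕ := (row.getD u []).getD v 0

/-- Entry of a list of tables. -/
def ent3 (ws : List (List (List ℕ))) (i u v : ℕ) : ℕ := ent2 (ws.getD i []) u v

/-- The better of two candidates (the first one wins ties). -/
def better (a b : ℕ × List ℕ) : ℕ × List ℕ := if b.1 < a.1 then b else a

/-- The best candidate. -/
def best (a : ℕ × List ℕ) (l : List (ℕ × List ℕ)) : ℕ × List ℕ := l.foldl better a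

/-- The candidate for `v` through `u`. -/
def cand (row : List (List ℕ)) (st : List (ℕ × List ℕ)) (v u : ℕ) : ℕ × List ℕ :=
  ((st.getD u (0, [])).1 + ent2 row u v, v :: (st.getD u (0, [])).2)

/-- One row of the dynamic programme. -/
def spStep (p : ℕ) (st : List (ℕ × List ℕ)) (row : List (List ℕ)) : List (ℕ × List ℕ) :=
  (List.range p).map fun v => best (cand row st v 0) ((List.range p).map fun u => cand row st v u)

/-- First row. -/
def spInit (p s : ℕ) (row : List (List ℕ)) : List (ℕ × List ℕ) :=
  (List.range p).map fun v => (ent2 row s v, [v, s])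

/-- Number of nodes. -/
def nn (ws : List (List (List ℕ))) : ℕ := (ws.headD []).length

/-- State after all rows. -/
def spRun (s : ℕ) (ws : List (List (List ℕ))) : List (ℕ × List ℕ) :=
  ws.tail.foldl (spStep (nn ws)) (spInit (nn ws) s (ws.headD []))

/-- Shortest path. -/
def sp (s t : ℕ) (ws : List (List (List ℕ))) : List ℕ := ((spRun s ws).getD t (0, [])).2.reverse

/-- Cost of a node sequence. -/
def cost (ws : List (List (List ℕ))) (f : ℕ → ℕ) (m : ℕ) : ℕ :=
  ∑ j ∈ Finset.range m, ent3 ws j (f j) (f (j + 1))

theorem better_le (a b : ℕ × List ℕ) : (better a b).1 ≤ a.1 ∧ (better a b).1 ≤ b.1 := by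
  unfold better; split_ifs with h <;> constructor <;> omega

theorem better_eq (a b : ℕ × List ℕ) : better a b = a ∨ better a b = b := by
  unfold better; split_ifs <;> simp

theorem best_le (l : List (ℕ × List ℕ)) : ∀ a, (best a l).1 ≤ a.1 ∧ ∀ b ∈ l, (best a l).1 ≤ b.1 := by
  induction l with
  | nil => intro a; simp [best]
  | cons c l ih =>
    intro a
    have h := ih (better a c)
    have h2 := better_le a c
    refine ⟨h.1.trans h2.1, fun b hb => ?_⟩
    rcases List.mem_cons.mp hb with rfl | hb
    · exact h.1.trans h2.2
    · exact h.2 b hb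

theorem best_mem (l : List (ℕ × List ℕ)) : ∀ a, best a l = a ∨ best a l ∈ l := by
  induction l with
  | nil => intro a; simp [best]
  | cons c l ih =>
    intro a
    rcases ih (better a c) with h | h
    · rcases better_eq a c with h2 | h2
      · left; show best (better a c) l = a; rw [h, h2]
      · right; show best (better a c) l ∈ c :: l; rw [h, h2]; simp
    · right; exact List.mem_cons_of_mem _ h

theorem getD_map_range {β : Type*} (n : ℕ) (f : ℕ → β) (d : β) {i : ℕ} (h : i < n) :
    ((List.range n).map f).getD i d = f i := by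
  rw [List.getD_eq_getElem?_getD]
  simp [h]

theorem spStep_getD (p : ℕ) (st : List (ℕ × List ℕ)) (row : List (List ℕ)) {v : ℕ} (hv : v < p) :
    ∃ u < p, (spStep p st row).getD v (0, []) = cand row st v u ∧
      ∀ u' < p, (cand row st v u).1 ≤ (cand row st v u').1 := by
  have h1 : (spStep p st row).getD v (0, []) =
      best (cand row st v 0) ((List.range p).map fun u => cand row st v u) :=
    getD_map_range p _ _ hv
  have h0 : 0 < p := by omega
  have h2 := best_le ((List.range p).map fun u => cand row st v u) (cand row st v 0)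
  rcases best_mem ((List.range p).map fun u => cand row st v u) (cand row st v 0) with h | h
  · refine ⟨0, h0, by rw [h1, h], fun u' hu' => ?_⟩
    have := h2.2 (cand row st v u') (List.mem_map.mpr ⟨u', List.mem_range.mpr hu', rfl⟩)
    rwa [h] at this
  · obtain ⟨u, hu, hu'⟩ := List.mem_map.mp h
    refine ⟨u, List.mem_range.mp hu, by rw [h1, hu'], fun u' hu2 => ?_⟩
    have := h2.2 (cand row st v u') (List.mem_map.mpr ⟨u', List.mem_range.mpr hu2, rfl⟩)
    rwa [← hu'] at this

/-- Invariant of the dynamic programme after `m` rows. -/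
def Inv (s p m : ℕ) (ws : List (List (List ℕ))) (st : List (ℕ × List ℕ)) : Prop :=
  ∀ v < p, (∃ f : ℕ → ℕ, f 0 = s ∧ f m = v ∧ (∀ j, 1 ≤ j → j < m → f j < p) ∧
      (st.getD v (0, [])).2 = ((List.range (m + 1)).map f).reverse ∧
      (st.getD v (0, [])).1 = cost ws f m) ∧
    ∀ f : ℕ → ℕ, f 0 = s → f m = v → (∀ j, 1 ≤ j → j < m → f j < p) →
      (st.getD v (0, [])).1 ≤ cost ws f m

theorem inv_init (s p : ℕ) (ws : List (List (List ℕ))) :
    Inv s p 1 ws (spInit p s (ws.headD [])) := by
  have hw : ∀ u v, ent2 (ws.headD []) u v = ent3 ws 0 u v := by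
    intro u v
    unfold ent3
    cases ws <;> rfl
  intro v hv
  have h1 : (spInit p s (ws.headD [])).getD v (0, []) = (ent2 (ws.headD []) s v, [v, s]) :=
    getD_map_range p _ _ hv
  rw [h1, hw]
  constructor
  · refine ⟨fun j => if j = 0 then s else v, by simp, by simp, fun j h1 h2 => by omega, ?_, ?_⟩
    · simp [List.range_succ]
    · simp [cost]
  · intro f h0 h2 _
    simp [cost, h0, h2]

theorem inv_step {s p m : ℕ} (hm : 1 ≤ m) {ws : List (List (List ℕ))} {st : List (ℕ × List ℕ)}
    (h : Inv s p m ws st) : Inv s p (m + 1) ws (spStep p st (ws.getD m [])) := by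
  intro v hv
  obtain ⟨u, hu, h1, h2⟩ := spStep_getD p st (ws.getD m []) hv
  rw [h1]
  obtain ⟨⟨f, f0, fm, fj, hf2, hf1⟩, hmin⟩ := h u hu
  constructor
  · refine ⟨Function.update f (m + 1) v, ?_, by simp, ?_, ?_, ?_⟩
    · rw [Function.update_of_ne (by omega)]; exact f0
    · intro j hj1 hj2
      rw [Function.update_of_ne (by omega)]
      rcases Nat.lt_or_ge j m with hjm | hjm
      · exact fj j hj1 hjm
      · have : j = m := by omega
        rw [this, fm]; exact hu
    · show v :: (st.getD u (0, [])).2 = _
      rw [hf2, List.range_succ (n := m + 1), List.map_append, List.reverse_append]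
      simp only [List.map_cons, List.map_nil, Function.update_self, List.reverse_cons,
        List.reverse_nil, List.nil_append, List.cons_append]
      congr 2
      refine List.map_congr_left fun j hj => ?_
      rw [Function.update_of_ne (by have := List.mem_range.mp hj; omega)]
    · show (st.getD u (0, [])).1 + ent2 (ws.getD m []) u v = _
      unfold cost
      rw [Finset.sum_range_succ, hf1, Function.update_self, Function.update_of_ne (by omega), fm]
      congr 1
      unfold cost
      refine Finset.sum_congr rfl fun j hj => ?_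
      have := Finset.mem_range.mp hj
      rw [Function.update_of_ne (by omega), Function.update_of_ne (by omega)]
  · intro g g0 gm gj
    have hgm : g m < p := gj m hm (by omega)
    have h3 := h2 (g m) hgm
    have h4 := (h (g m) hgm).2 g g0 rfl fun j h1 h2 => gj j h1 (by omega)
    refine h3.trans ?_
    show (st.getD (g m) (0, [])).1 + ent2 (ws.getD m []) (g m) v ≤ _
    unfold cost
    rw [Finset.sum_range_succ, gm]
    exact Nat.add_le_add_right h4 _

theorem inv_fold (s p : ℕ) (ws : List (List (List ℕ))) (hws : ws ≠ []) (k : ℕ)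
    (hk : k ≤ ws.tail.length) :
    Inv s p (k + 1) ws ((ws.tail.take k).foldl (spStep p) (spInit p s (ws.headD []))) := by
  induction k with
  | zero => simpa using inv_init s p ws
  | succ k ih =>
    have hk' : k < ws.tail.length := by omega
    rw [List.take_succ_eq_append_getElem hk', List.foldl_append]
    have h1 : ws.tail[k] = ws.getD (k + 1) [] := by
      cases ws with
      | nil => exact absurd rfl hws
      | cons w ws =>
        simp only [List.tail_cons, List.getD_cons_succ]
        simp only [List.tail_cons] at hk'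
        rw [List.getD_eq_getElem _ _ hk']
    simp only [List.foldl_cons, List.foldl_nil]
    rw [h1]
    exact inv_step (by omega) (ih (by omega))

/-- Correctness of the shortest path function. -/
theorem sp_spec (s t : ℕ) (ws : List (List (List ℕ))) (hws : ws ≠ []) (ht : t < nn ws) :
    ∃ f : ℕ → ℕ, sp s t ws = (List.range (ws.length + 1)).map f ∧ f 0 = s ∧ f ws.length = t ∧
      (∀ j, 1 ≤ j → j < ws.length → f j < nn ws) ∧
      ∀ g : ℕ → ℕ, g 0 = s → g ws.length = t → (∀ j, 1 ≤ j → j < ws.length → g j < nn ws) →
        cost ws f ws.length ≤ cost ws g ws.length := by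
  have hl : ws.length = ws.tail.length + 1 := by
    cases ws with
    | nil => exact absurd rfl hws
    | cons w ws => simp
  have h := inv_fold s (nn ws) ws hws ws.tail.length le_rfl
  rw [List.take_length, ← hl] at h
  obtain ⟨⟨f, f0, fm, fj, hf2, hf1⟩, hmin⟩ := h t ht
  refine ⟨f, ?_, f0, fm, fj, fun g g0 gm gj => ?_⟩
  · unfold sp spRun
    rw [hf2, List.reverse_reverse]
  · rw [← hf1]
    exact hmin g g0 gm gj

/-! ### Greedy picks -/

/-- Number of the paths in `ps` which use the edge `(u, v)` in row `i`. -/
def cntL (ps : List (List ℕ)) (i u v : ℕ) : ℕ :=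
  (ps.filter fun P => decide (P.getD i 0 = u) && decide (P.getD (i + 1) 0 = v)).length

/-- Rounded harmonic numbers. -/
def harmL (S c : ℕ) : ℕ := ((List.range c).map fun j => S / (j + 1)).sum

/-- Weights of the next pick. -/
def wts (S Q : ℕ) (Li : List (List (List ℕ))) (ps : List (List ℕ)) : List (List (List ℕ)) :=
  (List.range Li.length).map fun i => (List.range (nn Li)).map fun u =>
    (List.range (nn Li)).map fun v => ent3 Li i u v + Q * harmL S (cntL ps i u v)

/-- One more pick. -/
def pickStep (S Q s t : ℕ) (Li : List (List (List ℕ))) (ps : List (List ℕ)) : List (List ℕ) :=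
  ps ++ [sp s t (wts S Q Li ps)]

/-- `T` greedy picks. -/
def picks (S Q s t T : ℕ) (Li : List (List (List ℕ))) : List (List ℕ) :=
  (pickStep S Q s t Li)^[T] []

theorem picks_succ (S Q s t T : ℕ) (Li : List (List (List ℕ))) :
    picks S Q s t (T + 1) Li = picks S Q s t T Li ++ [sp s t (wts S Q Li (picks S Q s t T Li))] := by
  unfold picks
  rw [Function.iterate_succ_apply']
  rfl

theorem picks_length (S Q s t T : ℕ) (Li : List (List (List ℕ))) :
    (picks S Q s t T Li).length = T := by
  induction T with
  | zero => rfl
  | succ T ih => rw [picks_succ, List.length_append, ih]; rfl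

theorem picks_take (S Q s t : ℕ) (Li : List (List (List ℕ))) {j T : ℕ} (h : j ≤ T) :
    (picks S Q s t T Li).take j = picks S Q s t j Li := by
  induction T with
  | zero =>
    obtain rfl : j = 0 := by omega
    rfl
  | succ T ih =>
    rcases Nat.lt_or_ge j (T + 1) with h1 | h1
    · rw [picks_succ, List.take_append_of_le_length (by rw [picks_length]; omega), ih (by omega)]
    · obtain rfl : j = T + 1 := by omega
      rw [List.take_of_length_le (by rw [picks_length])]

theorem picks_getD (S Q s t : ℕ) (Li : List (List (List ℕ))) {j T : ℕ} (h : j < T) :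
    (picks S Q s t T Li).getD j [] = sp s t (wts S Q Li (picks S Q s t j Li)) := by
  induction T with
  | zero => omega
  | succ T ih =>
    rw [picks_succ]
    rcases Nat.lt_or_ge j T with h1 | h1
    · rw [List.getD_append _ _ _ _ (by rw [picks_length]; omega), ih h1]
    · obtain rfl : j = T := by omega
      rw [List.getD_append_right _ _ _ _ (by rw [picks_length]), picks_length]
      simp

theorem wts_length (S Q : ℕ) (Li : List (List (List ℕ))) (ps : List (List ℕ)) :
    (wts S Q Li ps).length = Li.length := by simp [wts]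

theorem nn_wts (S Q : ℕ) (Li : List (List (List ℕ))) (hL : Li ≠ []) (ps : List (List ℕ)) :
    nn (wts S Q Li ps) = nn Li := by
  have h : 0 < Li.length := List.length_pos_iff.mpr hL
  have h1 : (wts S Q Li ps).headD [] = (wts S Q Li ps).getD 0 [] := by
    cases (wts S Q Li ps) <;> rfl
  unfold nn at h1 ⊢
  rw [h1]
  unfold wts
  rw [getD_map_range _ _ _ h]
  simp [nn]

theorem ent3_wts (S Q : ℕ) (Li : List (List (List ℕ))) (ps : List (List ℕ)) {i u v : ℕ}
    (hi : i < Li.length) (hu : u < nn Li) (hv : v < nn Li) :
    ent3 (wts S Q Li ps) i u v = ent3 Li i u v + Q * harmL S (cntL ps i u v) := by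
  unfold ent3 wts ent2
  rw [getD_map_range _ _ _ hi, getD_map_range _ _ _ hu, getD_map_range _ _ _ hv]
  rfl

/-- The `j`-th pick is a path from `s` to `t` and minimises the greedy objective. -/
theorem picks_spec (S Q s t T : ℕ) (Li : List (List (List ℕ))) (hL : Li ≠ []) (hs : s < nn Li)
    (ht : t < nn Li) {j : ℕ} (hj : j < T) :
    ∃ f : ℕ → ℕ, (picks S Q s t T Li).getD j [] = (List.range (Li.length + 1)).map f ∧
      f 0 = s ∧ f Li.length = t ∧ (∀ i, i ≤ Li.length → f i < nn Li) ∧
      ∀ g : ℕ → ℕ, g 0 = s → g Li.length = t → (∀ i, i ≤ Li.length → g i < nn Li) →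
        ∑ i ∈ Finset.range Li.length, (ent3 Li i (f i) (f (i + 1)) +
          Q * harmL S (cntL ((picks S Q s t T Li).take j) i (f i) (f (i + 1)))) ≤
        ∑ i ∈ Finset.range Li.length, (ent3 Li i (g i) (g (i + 1)) +
          Q * harmL S (cntL ((picks S Q s t T Li).take j) i (g i) (g (i + 1)))) := by
  rw [picks_getD S Q s t Li hj, picks_take S Q s t Li hj.le]
  set ps := picks S Q s t j Li with hps
  have hw : wts S Q Li ps ≠ [] := by
    intro h
    have := wts_length S Q Li ps
    rw [h] at this
    exact hL (List.length_eq_zero_iff.mp this.symm)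
  obtain ⟨f, hf, f0, fm, fj, hmin⟩ := sp_spec s t (wts S Q Li ps) hw (by rw [nn_wts _ _ _ hL]; exact ht)
  rw [wts_length] at hf fm fj hmin
  rw [nn_wts _ _ _ hL] at fj hmin
  have hfall : ∀ i, i ≤ Li.length → f i < nn Li := by
    intro i hi
    rcases Nat.eq_zero_or_pos i with rfl | h0
    · rw [f0]; exact hs
    rcases Nat.lt_or_ge i Li.length with h1 | h1
    · exact fj i h0 h1
    · obtain rfl : i = Li.length := by omega
      rw [fm]; exact ht
  have hcost : ∀ g : ℕ → ℕ, (∀ i, i ≤ Li.length → g i < nn Li) →
      cost (wts S Q Li ps) g Li.length =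
        ∑ i ∈ Finset.range Li.length, (ent3 Li i (g i) (g (i + 1)) +
          Q * harmL S (cntL ps i (g i) (g (i + 1)))) := by
    intro g hg
    unfold cost
    refine Finset.sum_congr rfl fun i hi => ?_
    have := Finset.mem_range.mp hi
    exact ent3_wts _ _ _ _ this (hg _ (by omega)) (hg _ (by omega))
  refine ⟨f, hf, f0, fm, hfall, fun g g0 gm gj => ?_⟩
  rw [← hcost f hfall, ← hcost g gj]
  exact hmin g g0 gm fun i _ h2 => gj i (by omega)

end Vale.Agent.P315.H763
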