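import Vale.Agent.P315.H763.Solver
import Vale.Agent.Lib.PolyTime.Lists2

/-! P315 (helper763): the greedy solver is computable in polynomial time. -/

set_option autoImplicit false

namespace Vale.Agent.P315.H763

open Vale.Agent.Lib.PolyTime

variable {A : Set Word} {α : Type*} [Enc α]

theorem getD_mem_or {β : Type*} (l : List β) (i : ℕ) (d : β) : l.getD i d ∈ l ∨ l.getD i d = d := by
  rcases Nat.lt_or_ge i l.length with h | h
  · left; rw [List.getD_eq_getElem _ _ h]; exact List.getElem_mem h
  · right; exact List.getD_eq_default _ _ h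

theorem pt_ent2 {row : α → List (List ℕ)} {u v : α → ℕ} (hr : PT A row) (hu : PT A u)
    (hv : PT A v) : PT A (fun a => ent2 (row a) (u a) (v a)) :=
  (hr.getD hu (PT.const [])).getD hv (PT.const 0)

theorem pt_ent3 {ws : α → List (List (List ℕ))} {i u v : α → ℕ} (hw : PT A ws) (hi : PT A i)
    (hu : PT A u) (hv : PT A v) : PT A (fun a => ent3 (ws a) (i a) (u a) (v a)) :=
  pt_ent2 (hw.getD hi (PT.const [])) hu hv

theorem pt_better : PT A (fun q : (ℕ × List ℕ) × (ℕ × List ℕ) => better q.1 q.2) :=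
  PT.ite (PT.lt PT.snd'.fst PT.fst'.fst) PT.snd' PT.fst'

theorem esize_best_le (l : List (ℕ × List ℕ)) (a : ℕ × List ℕ) :
    esize (best a l) ≤ esize a + esize l := by
  rcases best_mem l a with h | h
  · rw [h]; omega
  · exact (esize_le_of_mem h).trans (by omega)

theorem pt_best {c : α → ℕ × List ℕ} {l : α → List (ℕ × List ℕ)} (hc : PT A c) (hl : PT A l) :
    PT A (fun a => best (c a) (l a)) := by
  refine PT.foldl (f := fun _ s x => better s x) hl hc
    (pt_better.comp (PT.snd'.fst.pair PT.snd'.snd)) (hc.pbd.add hl.pbd) fun a i => ?_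
  exact (esize_best_le ((l a).take i) (c a)).trans
    (Nat.add_le_add_left (esize_take_le i (l a)) _)

theorem pt_cand {row : α → List (List ℕ)} {st : α → List (ℕ × List ℕ)} {v u : α → ℕ}
    (hr : PT A row) (hst : PT A st) (hv : PT A v) (hu : PT A u) :
    PT A (fun a => cand (row a) (st a) (v a) (u a)) := by
  have h1 : PT A (fun a => (st a).getD (u a) (0, [])) := hst.getD hu (PT.const _)
  exact (h1.fst.add (pt_ent2 hr hu hv)).pair (hv.cons h1.snd)

theorem pt_spStep {p : α → ℕ} {row : α → List (List ℕ)} {st : α → List (ℕ × List ℕ)}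
    (hp : PT A p) (hpb : PBd p) (hr : PT A row) (hst : PT A st) :
    PT A (fun a => spStep (p a) (st a) (row a)) := by
  refine PT.map (f := fun a v => best (cand (row a) (st a) v 0)
    ((List.range (p a)).map fun u => cand (row a) (st a) v u)) (PT.range hp hpb) ?_
  refine pt_best (pt_cand (hr.comp PT.fst') (hst.comp PT.fst') PT.snd' (PT.const 0)) ?_
  refine PT.map (f := fun (q : α × ℕ) u => cand (row q.1) (st q.1) q.2 u)
    ((PT.range hp hpb).comp PT.fst') ?_
  exact pt_cand (hr.comp PT.fst'.fst) (hst.comp PT.fst'.fst) PT.fst'.snd PT.snd'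

theorem pt_spInit {p s : α → ℕ} {row : α → List (List ℕ)} (hp : PT A p) (hpb : PBd p)
    (hs : PT A s) (hr : PT A row) : PT A (fun a => spInit (p a) (s a) (row a)) := by
  refine PT.map (f := fun a v => (ent2 (row a) (s a) v, [v, s a])) (PT.range hp hpb) ?_
  exact (pt_ent2 (hr.comp PT.fst') (hs.comp PT.fst') PT.snd').pair
    (PT.snd'.cons ((hs.comp PT.fst').cons PT.nil))

theorem pt_nn {ws : α → List (List (List ℕ))} (hw : PT A ws) : PT A (fun a => nn (ws a)) :=
  (hw.headD (PT.const [])).length

theorem pbd_nn {ws : α → List (List (List ℕ))} (hw : PT A ws) : PBd (fun a => nn (ws a)) :=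
  PBd.length (hw.headD (PT.const []))

/-! ### Sizes -/

theorem ent2_le (row : List (List ℕ)) (u v : ℕ) : ent2 row u v ≤ 2 ^ esize row := by
  unfold ent2
  rcases getD_mem_or (row.getD u []) v 0 with h | h
  · refine (lt_two_pow_esize _).le.trans (Nat.pow_le_pow_right (by norm_num) ?_)
    refine (esize_le_of_mem h).trans ?_
    rcases getD_mem_or row u [] with h2 | h2
    · exact esize_le_of_mem h2
    · rw [h2, esize_list_nil]; exact Nat.zero_le _
  · rw [h]; exact Nat.zero_le _

/-- Size invariant of the states. -/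
def Sz (B p s k : ℕ) (e : ℕ × List ℕ) : Prop :=
  e.1 ≤ k * 2 ^ B ∧ e.2.length ≤ k + 1 ∧ ∀ x ∈ e.2, x ≤ p + s

theorem sz_cand {B p s k : ℕ} {st : List (ℕ × List ℕ)} (h : ∀ e ∈ st, Sz B p s k e)
    {row : List (List ℕ)} (hrow : esize row ≤ B) {v : ℕ} (hv : v ≤ p) (u : ℕ) :
    Sz B p s (k + 1) (cand row st v u) := by
  have h1 : Sz B p s k (st.getD u (0, [])) := by
    rcases getD_mem_or st u (0, []) with h2 | h2
    · exact h _ h2
    · rw [h2]; exact ⟨Nat.zero_le _, Nat.zero_le _, by simp⟩
  obtain ⟨h2, h3, h4⟩ := h1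
  refine ⟨?_, ?_, ?_⟩
  · show (st.getD u (0, [])).1 + ent2 row u v ≤ _
    have := (ent2_le row u v).trans (Nat.pow_le_pow_right (by norm_num) hrow)
    rw [add_mul, one_mul]
    exact Nat.add_le_add h2 this
  · show (v :: (st.getD u (0, [])).2).length ≤ _
    rw [List.length_cons]; omega
  · intro x hx
    rcases List.mem_cons.mp hx with rfl | hx
    · omega
    · exact h4 x hx

theorem sz_spStep {B p s k : ℕ} {st : List (ℕ × List ℕ)} (h : ∀ e ∈ st, Sz B p s k e)
    {row : List (List ℕ)} (hrow : esize row ≤ B) : ∀ e ∈ spStep p st row, Sz B p s (k + 1) e := by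
  intro e he
  obtain ⟨v, hv, rfl⟩ := List.mem_map.mp he
  have hv' := List.mem_range.mp hv
  rcases best_mem ((List.range p).map fun u => cand row st v u) (cand row st v 0) with h2 | h2
  · rw [h2]; exact sz_cand h hrow hv'.le 0
  · obtain ⟨u, _, hu⟩ := List.mem_map.mp h2
    rw [← hu]; exact sz_cand h hrow hv'.le u

theorem sz_spInit {B p s : ℕ} {row : List (List ℕ)} (hrow : esize row ≤ B) :
    ∀ e ∈ spInit p s row, Sz B p s 1 e := by
  intro e he
  obtain ⟨v, hv, rfl⟩ := List.mem_map.mp he
  have hv' := List.mem_range.mp hv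
  refine ⟨?_, by simp, ?_⟩
  · show ent2 row s v ≤ _
    rw [one_mul]
    exact (ent2_le row s v).trans (Nat.pow_le_pow_right (by norm_num) hrow)
  · intro x hx
    simp only [List.mem_cons, List.not_mem_nil, or_false] at hx
    rcases hx with rfl | rfl <;> omega

theorem length_fold (p s : ℕ) (row : List (List ℕ)) (rows : List (List (List ℕ))) :
    (rows.foldl (spStep p) (spInit p s row)).length = p := by
  rcases List.eq_nil_or_concat rows with rfl | ⟨l, r, rfl⟩
  · simp [spInit]
  · rw [List.concat_eq_append, List.foldl_append]; simp [spStep]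

theorem sz_fold (B p s : ℕ) (row : List (List ℕ)) (hrow : esize row ≤ B) (k : ℕ)
    (rows : List (List (List ℕ))) (h : ∀ r ∈ rows, esize r ≤ B) (hk : rows.length = k) :
    ∀ e ∈ rows.foldl (spStep p) (spInit p s row), Sz B p s (k + 1) e := by
  induction k generalizing rows with
  | zero =>
    obtain rfl := List.length_eq_zero_iff.mp hk
    exact sz_spInit hrow
  | succ k ih =>
    rcases List.eq_nil_or_concat rows with rfl | ⟨l, r, rfl⟩
    · simp at hk
    · rw [List.concat_eq_append, List.foldl_append]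
      have h1 : l.length = k := by simpa using hk
      exact sz_spStep (ih l (fun r' hr' => h r' (by simp [hr'])) h1) (h r (by simp))

/-- Size bound of an element. -/
def szb (B p s k : ℕ) : ℕ := 2 * (B + k + 1) + (k + 1) * (2 * (p + s) + 1) + 1

theorem esize_of_sz {B p s k : ℕ} {e : ℕ × List ℕ} (h : Sz B p s k e) {s' : ℕ}
    (hs : esize (p + s) ≤ p + s') : esize e ≤ szb B p s' k := by
  obtain ⟨h1, h2, h3⟩ := h
  have h4 : esize e.1 ≤ B + k + 1 := by
    refine esize_nat_le (lt_of_le_of_lt h1 ?_)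
    have : k < 2 ^ k := Nat.lt_two_pow_self
    calc k * 2 ^ B < 2 ^ k * 2 ^ B := Nat.mul_lt_mul_of_pos_right this (by positivity)
      _ ≤ 2 ^ (B + k + 1) := by
        rw [← pow_add]; exact Nat.pow_le_pow_right (by norm_num) (by omega)
  have h5 : esize e.2 ≤ e.2.length * (2 * (p + s') + 1) :=
    esize_list_le fun x hx => (esize_nat_mono (h3 x hx)).trans hs
  have h6 : esize e.2 ≤ (k + 1) * (2 * (p + s') + 1) := h5.trans (Nat.mul_le_mul_right _ h2)
  have h7 : esize e = 2 * esize e.1 + esize e.2 + 1 := esize_pair e.1 e.2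
  unfold szb
  omega

theorem esize_add_le' (p s : ℕ) : esize (p + s) ≤ p + (esize s + 1) := by
  have := esize_nat_add_le p s
  have h2 := esize_nat_le_self p
  omega

theorem pt_spRun {s : α → ℕ} {ws : α → List (List (List ℕ))} (hs : PT A s) (hw : PT A ws) :
    PT A (fun a => spRun (s a) (ws a)) := by
  have hn := pt_nn hw
  have hnb := pbd_nn hw
  have hhead : PT A (fun a => (ws a).headD []) := hw.headD (PT.const [])
  have hB : PBd (fun a => nn (ws a) *
      (2 * szb (esize (ws a)) (nn (ws a)) (esize (s a) + 1) ((ws a).length + 1) + 1)) := by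
    unfold szb
    have h1 := hw.pbd
    have h2 := hs.pbd
    have h3 := PBd.length hw
    fun_prop
  refine PT.foldl (f := fun a st row => spStep (nn (ws a)) st row)
    (init := fun a => spInit (nn (ws a)) (s a) ((ws a).headD [])) hw.tail
    (pt_spInit hn hnb hs hhead) ?_ hB fun a i => ?_
  · exact pt_spStep (hn.comp PT.fst') (hnb.comp (A := A) PT.fst') PT.snd'.snd PT.snd'.fst
  · have hhd : esize ((ws a).headD []) ≤ esize (ws a) := by
      cases h : ws a with
      | nil => exact le_rfl
      | cons x l => exact esize_le_of_mem (by simp)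
    have hmem : ∀ r ∈ (ws a).tail.take i, esize r ≤ esize (ws a) := fun r hr =>
      esize_le_of_mem (List.mem_of_mem_tail (List.mem_of_mem_take hr))
    have h1 := sz_fold (esize (ws a)) (nn (ws a)) (s a) ((ws a).headD []) hhd _
      ((ws a).tail.take i) hmem rfl
    have hlen := length_fold (nn (ws a)) (s a) ((ws a).headD []) ((ws a).tail.take i)
    have h2 : esize (((ws a).tail.take i).foldl (spStep (nn (ws a)))
        (spInit (nn (ws a)) (s a) ((ws a).headD []))) ≤ _ :=
      esize_list_le fun e he => esize_of_sz (h1 e he) (esize_add_le' _ _)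
    rw [hlen] at h2
    refine h2.trans (Nat.mul_le_mul_left _ ?_)
    have h3 : ((ws a).tail.take i).length + 1 ≤ (ws a).length + 1 := by
      rw [List.length_take, List.length_tail]; omega
    have h4 : szb (esize (ws a)) (nn (ws a)) (esize (s a) + 1) (((ws a).tail.take i).length + 1) ≤
        szb (esize (ws a)) (nn (ws a)) (esize (s a) + 1) ((ws a).length + 1) := by
      unfold szb
      have := Nat.mul_le_mul_right (2 * (nn (ws a) + (esize (s a) + 1)) + 1)
        (Nat.add_le_add_right h3 1)
      omega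
    omega

theorem pt_sp {s t : α → ℕ} {ws : α → List (List (List ℕ))} (hs : PT A s) (ht : PT A t)
    (hw : PT A ws) : PT A (fun a => sp (s a) (t a) (ws a)) :=
  ((pt_spRun hs hw).getD ht (PT.const (0, []))).snd.reverse

theorem sp_sz (s t : ℕ) (ws : List (List (List ℕ))) :
    (sp s t ws).length ≤ ws.length + 2 ∧ ∀ x ∈ sp s t ws, x ≤ nn ws + s := by
  have hhd : esize (ws.headD []) ≤ esize ws := by
    cases ws with
    | nil => exact le_rfl
    | cons x l => exact esize_le_of_mem (by simp)
  have h1 := sz_fold (esize ws) (nn ws) s (ws.headD []) hhd _ ws.tail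
    (fun r hr => esize_le_of_mem (List.mem_of_mem_tail hr)) rfl
  unfold sp spRun
  rcases getD_mem_or (ws.tail.foldl (spStep (nn ws)) (spInit (nn ws) s (ws.headD []))) t (0, [])
    with h | h
  · obtain ⟨-, h2, h3⟩ := h1 _ h
    rw [List.length_reverse]
    refine ⟨h2.trans ?_, fun x hx => h3 x (List.mem_reverse.mp hx)⟩
    rw [List.length_tail]; omega
  · rw [h]; simp

theorem pt_cntL {ps : α → List (List ℕ)} {i u v : α → ℕ} (hp : PT A ps) (hi : PT A i)
    (hu : PT A u) (hv : PT A v) : PT A (fun a => cntL (ps a) (i a) (u a) (v a)) := by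
  refine (PT.filter (f := fun a (P : List ℕ) => decide (P.getD (i a) 0 = u a) &&
    decide (P.getD (i a + 1) 0 = v a)) hp ?_).length
  exact (PT.eqNat (PT.snd'.getD (hi.comp PT.fst') (PT.const 0)) (hu.comp PT.fst')).and
    (PT.eqNat (PT.snd'.getD ((hi.comp PT.fst').add (PT.const 1)) (PT.const 0)) (hv.comp PT.fst'))

theorem pbd_cntL {ps : α → List (List ℕ)} (i u v : α → ℕ) (hp : PT A ps) :
    PBd (fun a => cntL (ps a) (i a) (u a) (v a)) :=
  (PBd.length hp).mono fun _ => List.length_filter_le _ _

theorem pt_harmL {S c : α → ℕ} (hS : PT A S) (hc : PT A c) (hcb : PBd c) :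
    PT A (fun a => harmL (S a) (c a)) := by
  refine (PT.map (f := fun a j => S a / (j + 1)) (PT.range hc hcb) ?_).sum
  exact (hS.comp PT.fst').div (PT.snd'.add (PT.const 1))

theorem pt_wts {S Q : α → ℕ} {Li : α → List (List (List ℕ))} {ps : α → List (List ℕ)}
    (hS : PT A S) (hQ : PT A Q) (hL : PT A Li) (hp : PT A ps) :
    PT A (fun a => wts (S a) (Q a) (Li a) (ps a)) := by
  have hn := pt_nn hL
  have hnb := pbd_nn hL
  refine PT.map (f := fun a i => (List.range (nn (Li a))).map fun u =>
    (List.range (nn (Li a))).map fun v =>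
      ent3 (Li a) i u v + Q a * harmL (S a) (cntL (ps a) i u v))
    (PT.range hL.length (PBd.length hL)) ?_
  refine PT.map (f := fun (q : α × ℕ) u => (List.range (nn (Li q.1))).map fun v =>
      ent3 (Li q.1) q.2 u v + Q q.1 * harmL (S q.1) (cntL (ps q.1) q.2 u v))
    ((PT.range hn hnb).comp PT.fst') ?_
  refine PT.map (f := fun (q : (α × ℕ) × ℕ) v =>
      ent3 (Li q.1.1) q.1.2 q.2 v + Q q.1.1 * harmL (S q.1.1) (cntL (ps q.1.1) q.1.2 q.2 v))
    ((PT.range hn hnb).comp PT.fst'.fst) ?_
  have e1 : PT A (fun q : ((α × ℕ) × ℕ) × ℕ => q.1.1.1) := PT.fst'.fst.fst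
  have e2 : PT A (fun q : ((α × ℕ) × ℕ) × ℕ => q.1.1.2) := PT.fst'.fst.snd
  have e3 : PT A (fun q : ((α × ℕ) × ℕ) × ℕ => q.1.2) := PT.fst'.snd
  have e4 : PT A (fun q : ((α × ℕ) × ℕ) × ℕ => q.2) := PT.snd'
  exact (pt_ent3 (hL.comp e1) e2 e3 e4).add ((hQ.comp e1).mul
    (pt_harmL (hS.comp e1) (pt_cntL (hp.comp e1) e2 e3 e4)
      (pbd_cntL (fun q : ((α × ℕ) × ℕ) × ℕ => q.1.1.2) (fun q => q.1.2) (fun q => q.2)
        (hp.comp e1))))

theorem nn_wts_le (S Q : ℕ) (Li : List (List (List ℕ))) (ps : List (List ℕ)) :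
    nn (wts S Q Li ps) ≤ nn Li := by
  rcases eq_or_ne Li [] with rfl | h
  · exact le_rfl
  · rw [nn_wts _ _ _ h]

theorem esize_picks (S Q s t T : ℕ) (Li : List (List (List ℕ))) :
    esize (picks S Q s t T Li) ≤
      T * (2 * ((Li.length + 2) * (2 * (nn Li + (esize s + 1)) + 1)) + 1) := by
  have h : ∀ P ∈ picks S Q s t T Li,
      esize P ≤ (Li.length + 2) * (2 * (nn Li + (esize s + 1)) + 1) := by
    induction T with
    | zero => simp [picks]
    | succ T ih =>
      intro P hP
      rw [picks_succ, List.mem_append] at hP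
      rcases hP with hP | hP
      · exact ih P hP
      · rw [List.mem_singleton] at hP
        subst hP
        obtain ⟨h1, h2⟩ := sp_sz s t (wts S Q Li (picks S Q s t T Li))
        rw [wts_length] at h1
        refine (esize_list_le (B := nn Li + (esize s + 1)) fun x hx => ?_).trans
          (Nat.mul_le_mul_right _ h1)
        refine (esize_nat_mono ((h2 x hx).trans (Nat.add_le_add_right (nn_wts_le _ _ _ _) s))).trans
          (esize_add_le' _ _)
  have := esize_list_le h
  rwa [picks_length] at this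

theorem pt_picks {S Q s t T : α → ℕ} {Li : α → List (List (List ℕ))} (hS : PT A S) (hQ : PT A Q)
    (hs : PT A s) (ht : PT A t) (hT : PT A T) (hTb : PBd T) (hL : PT A Li) :
    PT A (fun a => picks (S a) (Q a) (s a) (t a) (T a) (Li a)) := by
  have hB : PBd (fun a => T a *
      (2 * (((Li a).length + 2) * (2 * (nn (Li a) + (esize (s a) + 1)) + 1)) + 1)) := by
    have h1 := PBd.length hL
    have h2 := hs.pbd
    have h3 := pbd_nn hL
    fun_prop
  refine PT.iterate' (step := fun a ps => pickStep (S a) (Q a) (s a) (t a) (Li a) ps)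
    hT hTb (PT.const []) ?_ hB fun a j hj => ?_
  · have e1 : PT A (fun q : α × List (List ℕ) => q.1) := PT.fst'
    exact PT.snd'.append ((pt_sp (hs.comp e1) (ht.comp e1)
      (pt_wts (hS.comp e1) (hQ.comp e1) (hL.comp e1) PT.snd')).cons PT.nil)
  · exact (esize_picks (S a) (Q a) (s a) (t a) j (Li a)).trans (Nat.mul_le_mul_right _ hj)

end Vale.Agent.P315.H763
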